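import Vale.Agent.P244.Sol

/-! Bounded Ricci curvature: bounds of order zero. -/

open Set Filter
open scoped ContDiff Topology

noncomputable section

namespace Vale.Agent.P244B

open Vale.Agent.P244

theorem apri1_at {T : ℝ} {u : ℝ × ℝ → ℝ} (hu : ContDiffOn ℝ ∞ u (Ico 0 T ×ˢ univ)) {t : ℝ}
    (ht : t ∈ Ioo 0 T) (x : ℝ) : ContDiffAt ℝ ∞ u (t, x) :=
  hu.contDiffAt (prod_mem_nhds (Ico_mem_nhds ht.1 ht.2) univ_mem)

theorem apri1_dt {u : ℝ × ℝ → ℝ} {t x : ℝ} (hu : ContDiffAt ℝ ∞ u (t, x)) :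
    HasDerivAt (fun t => u (t, x)) (fderiv ℝ u (t, x) (1, 0)) t :=
  (hu.differentiableAt (by simp)).hasFDerivAt.comp_hasDerivAt t
    ((hasDerivAt_id t).prodMk (hasDerivAt_const t x))

theorem apri1_dx {u : ℝ × ℝ → ℝ} {t x : ℝ} (hu : ContDiffAt ℝ ∞ u (t, x)) :
    HasDerivAt (fun x => u (t, x)) (fderiv ℝ u (t, x) (0, 1)) x :=
  (hu.differentiableAt (by simp)).hasFDerivAt.comp_hasDerivAt x
    ((hasDerivAt_const x t).prodMk (hasDerivAt_id x))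

theorem apri1_upper {T C M : ℝ} {u ξ : ℝ × ℝ → ℝ}
    (hu : ContDiffOn ℝ ∞ u (Ico 0 T ×ˢ univ)) (hξ : ContinuousOn ξ (Ico 0 T ×ˢ univ))
    (h0 : ∀ t, ξ (t, 0) = 0) (hπ : ∀ t, ξ (t, Real.pi) = 0)
    (hC : ∀ p ∈ Om T, dt u p - ξ p * dx u p ≤ C)
    (hM : ∀ x ∈ Icc 0 Real.pi, u (0, x) ≤ M) :
    ∀ t ∈ Ico 0 T, ∀ x ∈ Icc 0 Real.pi, u (t, x) ≤ M + C * t := by
  have hC' : ∀ t ∈ Ioo 0 T, ∀ x ∈ Icc 0 Real.pi,
      fderiv ℝ u (t, x) (1, 0) - ξ (t, x) * fderiv ℝ u (t, x) (0, 1) ≤ C := fun t ht => by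
    have h1 : Continuous fun x => fderiv ℝ u (t, x) := continuous_iff_continuousAt.2 fun x =>
      ((apri1_at hu ht x).continuousAt_fderiv (by simp)).comp_of_eq (by fun_prop) rfl
    have h2 : Continuous fun x => ξ (t, x) :=
      hξ.comp_continuous (by fun_prop) fun x => ⟨⟨ht.1.le, ht.2⟩, trivial⟩
    rw [← closure_Ioo Real.pi_pos.ne]
    refine fun x hx => (isClosed_le ((h1.clm_apply continuous_const).sub
      (h2.mul (h1.clm_apply continuous_const))) continuous_const).closure_subset_iff.2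
        (fun y hy => ?_) hx
    have h3 := hC (t, y) ⟨ht, hy⟩
    rwa [dt, dx, (apri1_dt (apri1_at hu ht y)).deriv, (apri1_dx (apri1_at hu ht y)).deriv] at h3
  intro t1 ht1 x1 hx1
  refine le_of_forall_pos_le_add fun ε hε => ?_
  have he : 0 < ε / (t1 + 1) := div_pos hε (by linarith [ht1.1])
  have he' : ε / (t1 + 1) * t1 ≤ ε := by
    rw [div_mul_eq_mul_div, div_le_iff₀ (by linarith [ht1.1])]
    nlinarith
  generalize ε / (t1 + 1) = e at he he'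
  obtain ⟨⟨t0, x0⟩, ⟨ht0, hx0⟩, hmax⟩ := (isCompact_Icc.prod isCompact_Icc).exists_isMaxOn
    (f := fun p : ℝ × ℝ => u p - (C + e) * p.1) ⟨(t1, x1), ⟨ht1.1, le_rfl⟩, hx1⟩
    ((hu.continuousOn.mono fun p hp => ⟨⟨hp.1.1, hp.1.2.trans_lt ht1.2⟩, trivial⟩).sub
      (by fun_prop))
  simp only at ht0 hx0
  have hm : ∀ t ∈ Icc 0 t1, ∀ x ∈ Icc 0 Real.pi,
      u (t, x) - (C + e) * t ≤ u (t0, x0) - (C + e) * t0 := fun t ht x hx => hmax (a := (t, x)) ⟨ht, hx⟩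
  rcases ht0.1.eq_or_lt with rfl | h1
  · have h2 := hm t1 ⟨ht1.1, le_rfl⟩ x1 hx1
    linarith [hM x0 hx0]
  exfalso
  have ht : t0 ∈ Ioo 0 T := ⟨h1, ht0.2.trans_lt ht1.2⟩
  have h2 := (apri1_dt (apri1_at hu ht x0)).sub ((hasDerivAt_id t0).const_mul (C + e))
  have h3 : 0 ≤ fderiv ℝ u (t0, x0) (1, 0) - (C + e) * 1 := by
    refine ge_of_tendsto ((hasDerivAt_iff_tendsto_slope.1 h2).mono_left (nhdsLT_le_nhdsNE t0)) ?_
    filter_upwards [Ioo_mem_nhdsLT h1] with t h4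
    rw [slope_def_field]
    exact div_nonneg_of_nonpos (sub_nonpos.2 (hm t ⟨h4.1.le, h4.2.le.trans ht0.2⟩ x0 hx0))
      (sub_nonpos.2 h4.2.le)
  have h4 : ξ (t0, x0) * fderiv ℝ u (t0, x0) (0, 1) = 0 := by
    rcases hx0.1.eq_or_lt with rfl | h5
    · rw [h0, zero_mul]
    rcases hx0.2.eq_or_lt with rfl | h6
    · rw [hπ, zero_mul]
    have h7 : IsLocalMax (fun x => u (t0, x)) x0 := by
      filter_upwards [Icc_mem_nhds h5 h6] with x hx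
      linarith [hm t0 ht0 x hx]
    rw [h7.hasDerivAt_eq_zero (apri1_dx (apri1_at hu ht x0)), mul_zero]
  linarith [hC' t0 ht x0 hx0]

/-- maximum principle for a transport inequality -/
theorem transport_bound {T C M : ℝ} {u ξ : ℝ × ℝ → ℝ}
    (hu : ContDiffOn ℝ ∞ u (Ico 0 T ×ˢ univ)) (hξ : ContinuousOn ξ (Ico 0 T ×ˢ univ))
    (h0 : ∀ t, ξ (t, 0) = 0) (hπ : ∀ t, ξ (t, Real.pi) = 0)
    (hC : ∀ p ∈ Om T, |dt u p - ξ p * dx u p| ≤ C)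
    (hM : ∀ x ∈ Icc 0 Real.pi, |u (0, x)| ≤ M) :
    ∀ t ∈ Ico 0 T, ∀ x ∈ Icc 0 Real.pi, |u (t, x)| ≤ M + C * t := by
  intro t ht x hx
  have h1 := apri1_upper hu hξ h0 hπ (fun p hp => (abs_le.1 (hC p hp)).2)
    (fun x hx => (abs_le.1 (hM x hx)).2) t ht x hx
  have h2 := apri1_upper (C := C) (M := M) hu.neg hξ h0 hπ (fun p hp => by
      have h3 := (abs_le.1 (hC p hp)).1
      simp only [dt, dx, deriv.fun_neg] at h3 ⊢
      linarith)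
    (fun x hx => by linarith [(abs_le.1 (hM x hx)).1]) t ht x hx
  exact abs_le.2 ⟨by linarith, h1⟩

variable {q : ℕ} {T : ℝ} {S : Pre}

theorem apri1_mvt {f : ℝ → ℝ} {a b C : ℝ} (hab : a ≤ b) (hf : ContinuousOn f (Icc a b))
    (hd : ∀ x ∈ Ioo a b, DifferentiableAt ℝ f x ∧ |deriv f x| ≤ C) :
    |f b - f a| ≤ C * (b - a) := by
  rcases hab.eq_or_lt with rfl | h
  · simp
  obtain ⟨c, hc, h1⟩ := exists_deriv_eq_slope f h hf
    fun x hx => (hd x hx).1.differentiableWithinAt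
  have h2 := (hd c hc).2
  rwa [h1, abs_div, abs_of_pos (sub_pos.2 h), div_le_iff₀ (sub_pos.2 h)] at h2

theorem apri_ell (hS : IsSol q T S) {C : ℝ} (hC : ∀ p ∈ Om T, |S.ρ0 q p| ≤ C) :
    (∀ t ∈ Ioo 0 T, |deriv S.ℓ t / S.ℓ t| ≤ C) ∧ ∀ p ∈ Om T, |S.w p| ≤ 4 * C := by
  have hd : ∀ t ∈ Ioo 0 T, Differentiable ℝ fun x => S.ξ (t, x) := fun t ht x =>
    (Real.differentiableAt_sin).mul (apri1_dx (apri1_at hS.smw ht x)).differentiableAt
  have z0 : ∀ t, S.ξ (t, 0) = 0 := fun t => by simp [Pre.ξ]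
  have zπ : ∀ t, S.ξ (t, Real.pi) = 0 := fun t => by simp [Pre.ξ]
  have h1 : ∀ t ∈ Ioo 0 T, |deriv S.ℓ t / S.ℓ t| ≤ C := fun t ht => by
    obtain ⟨c, hc, h2⟩ := exists_deriv_eq_zero Real.pi_pos (hd t ht).continuous.continuousOn
      ((z0 t).trans (zπ t).symm)
    have h3 := hC (t, c) ⟨ht, hc⟩
    rwa [← hS.eqℓ (t, c) ⟨ht, hc⟩, dx, h2, zero_sub, abs_neg] at h3
  refine ⟨h1, fun ⟨t, x⟩ ⟨ht, hx⟩ => ?_⟩
  simp only at ht hx
  have h2 : ∀ y ∈ Ioo 0 Real.pi, DifferentiableAt ℝ (fun x => S.ξ (t, x)) y ∧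
      |deriv (fun x => S.ξ (t, x)) y| ≤ 2 * C := fun y hy => ⟨hd t ht y, by
    have h3 := hS.eqℓ (t, y) ⟨ht, hy⟩
    have h4 := abs_le.1 (hC (t, y) ⟨ht, hy⟩)
    have h5 := abs_le.1 (h1 t ht)
    simp only [dx] at h3
    exact abs_le.2 ⟨by linarith, by linarith⟩⟩
  have hC0 : 0 ≤ C := (abs_nonneg _).trans (h1 t ht)
  have h3 := apri1_mvt hx.1.le (hd t ht).continuous.continuousOn
    fun y hy => h2 y ⟨hy.1, hy.2.trans hx.2⟩
  have h4 := apri1_mvt hx.2.le (hd t ht).continuous.continuousOn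
    fun y hy => h2 y ⟨hx.1.trans hy.1, hy.2⟩
  rw [z0, sub_zero, sub_zero] at h3
  rw [zπ, zero_sub, abs_neg] at h4
  have hs := Real.sin_pos_of_mem_Ioo hx
  have h5 : ∀ y, 0 ≤ y → y ≤ Real.pi / 2 → y ≤ 2 * Real.sin y := fun y h6 h7 => by
    have h8 := Real.mul_le_sin h6 h7
    have h9 : 1 / 2 ≤ 2 / Real.pi := by
      rw [div_le_div_iff₀ two_pos Real.pi_pos]
      linarith [Real.pi_le_four]
    nlinarith
  have h6 : |S.ξ (t, x)| ≤ 2 * C * (2 * Real.sin x) := by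
    rcases le_total x (Real.pi / 2) with h7 | h7
    · exact h3.trans (mul_le_mul_of_nonneg_left (h5 x hx.1.le h7) (by positivity))
    · refine h4.trans (mul_le_mul_of_nonneg_left ?_ (by positivity))
      rw [← Real.sin_pi_sub]
      exact h5 _ (sub_nonneg.2 hx.2.le) (by linarith)
  rw [Pre.ξ, abs_mul, abs_of_pos hs] at h6
  exact le_of_mul_le_mul_left (by linarith) hs

theorem apri_zero (hT : 0 < T) (hS : IsSol q T S) (hR : RicBdd q T S) :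
    ∃ C ε : ℝ, 0 < ε ∧ ∀ t ∈ Ico 0 T, ε ≤ S.ℓ t ∧ S.ℓ t ≤ C ∧
      ∀ x ∈ Icc 0 Real.pi, ε ≤ S.η (t, x) ∧ S.η (t, x) ≤ C ∧ |S.F (t, x)| ≤ C := by
  obtain ⟨C, hC⟩ := hR
  obtain ⟨h1, h2⟩ := apri_ell hS fun p hp => (hC p hp).1
  have hC0 : 0 ≤ C := (abs_nonneg _).trans (h1 (T / 2) ⟨by linarith, by linarith⟩)
  have hξ : ContinuousOn S.ξ (Ico 0 T ×ˢ univ) :=
    (Real.continuous_sin.comp continuous_snd).continuousOn.mul hS.smw.continuousOn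
  have z0 : ∀ t, S.ξ (t, 0) = 0 := fun t => by simp [Pre.ξ]
  have zπ : ∀ t, S.ξ (t, Real.pi) = 0 := fun t => by simp [Pre.ξ]
  have ini : ∀ u : ℝ × ℝ → ℝ, ContDiffOn ℝ ∞ u (Ico 0 T ×ˢ univ) →
      ∃ M, 0 ≤ M ∧ ∀ x ∈ Icc 0 Real.pi, |u (0, x)| ≤ M := fun u hu => by
    obtain ⟨M, hM⟩ := (isCompact_Icc (a := 0) (b := Real.pi)).exists_bound_of_continuousOn
      (f := fun x => u (0, x)) (hu.continuousOn.comp (by fun_prop) fun x _ => ⟨⟨le_rfl, hT⟩, trivial⟩)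
    exact ⟨M, (norm_nonneg _).trans (hM 0 ⟨le_rfl, Real.pi_pos.le⟩), hM⟩
  have dl : ∀ t ∈ Ioo 0 T, HasDerivAt (fun t => Real.log (S.ℓ t)) (deriv S.ℓ t / S.ℓ t) t :=
    fun t ht => ((hS.smℓ.contDiffAt (Ico_mem_nhds ht.1 ht.2)).differentiableAt
      (by simp)).hasDerivAt.log (hS.posℓ t ⟨ht.1.le, ht.2⟩).ne'
  have bl : ∀ t ∈ Ico 0 T, |Real.log (S.ℓ t) - Real.log (S.ℓ 0)| ≤ C * (t - 0) := fun t ht =>
    apri1_mvt (f := fun t => Real.log (S.ℓ t)) ht.1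
      ((hS.smℓ.continuousOn.mono (Icc_subset_Ico_right ht.2)).log
        fun s hs => (hS.posℓ s ⟨hs.1, hs.2.trans_lt ht.2⟩).ne') fun s hs =>
      ⟨(dl s ⟨hs.1, hs.2.trans ht.2⟩).differentiableAt, by
        rw [(dl s ⟨hs.1, hs.2.trans ht.2⟩).deriv]
        exact h1 s ⟨hs.1, hs.2.trans ht.2⟩⟩
  obtain ⟨MF, hMF, h3⟩ := ini S.F hS.smF
  have bF := transport_bound hS.smF hξ z0 zπ (C := C) (fun p hp => by
    have h4 := hS.eqF p hp
    rw [Pre.Dt] at h4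
    rw [h4, abs_neg]
    exact (hC p hp).2.1) h3
  have hu : ContDiffOn ℝ ∞ (fun p => Real.log (S.η p)) (Ico 0 T ×ˢ univ) :=
    hS.smη.log fun p hp => (hS.posη p.1 hp.1 p.2).ne'
  obtain ⟨Mη, hMη, h4⟩ := ini _ hu
  have bη := transport_bound hu hξ z0 zπ (C := 6 * C) (fun ⟨t, x⟩ hp => by
    obtain ⟨ht, hx⟩ := hp
    simp only at ht hx
    have hs := Real.sin_pos_of_mem_Ioo hx
    have hG : ∀ t ∈ Ioo 0 T, ∀ x ∈ Ioo 0 Real.pi, S.G (t, x) =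
        Real.log (S.ℓ t) + Real.log (Real.sin x) + Real.log (S.η (t, x)) := fun t ht x hx => by
      have a1 := (hS.posℓ t ⟨ht.1.le, ht.2⟩).ne'
      have a2 := (Real.sin_pos_of_mem_Ioo hx).ne'
      rw [Pre.G, Pre.h, Real.log_mul (mul_ne_zero a1 a2) (hS.posη t ⟨ht.1.le, ht.2⟩ x).ne',
        Real.log_mul a1 a2]
    have d1 := apri1_dt (apri1_at hu ht x)
    have d2 := apri1_dx (apri1_at hu ht x)
    have g1 := (((dl t ht).add_const (Real.log (Real.sin x))).add d1).congr_of_eventuallyEq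
      (f₁ := fun s => S.G (s, x)) (by
        filter_upwards [Ioo_mem_nhds ht.1 ht.2] with s hs using hG s hs x hx)
    have g2 := ((((Real.hasDerivAt_sin x).log hs.ne').const_add (Real.log (S.ℓ t))).add
      d2).congr_of_eventuallyEq (f₁ := fun y => S.G (t, y)) (by
        filter_upwards [Ioo_mem_nhds hx.1 hx.2] with y hy using hG t ht y hy)
    have h5 := hS.eqG (t, x) ⟨ht, hx⟩
    simp only [Pre.Dt, dt, dx, g1.deriv, g2.deriv] at h5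
    simp only [dt, dx, d1.deriv, d2.deriv]
    have h6 : S.ξ (t, x) * (Real.cos x / Real.sin x) = S.w (t, x) * Real.cos x := by
      rw [Pre.ξ]
      field_simp
    have h7 : |S.w (t, x) * Real.cos x| ≤ 4 * C := by
      rw [abs_mul]
      exact (mul_le_of_le_one_right (abs_nonneg _) (Real.abs_cos_le_one x)).trans
        (h2 (t, x) ⟨ht, hx⟩)
    have h8 := abs_le.1 h7
    have h9 := abs_le.1 (h1 t ht)
    have h10 := abs_le.1 (hC (t, x) ⟨ht, hx⟩).2.2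
    rw [mul_add, h6] at h5
    exact abs_le.2 ⟨by linarith, by linarith⟩) h4
  have key : ∀ K y : ℝ, 0 < y → |Real.log y| ≤ K → Real.exp (-K) ≤ y ∧ y ≤ Real.exp K :=
    fun K y hy h => ⟨(Real.le_log_iff_exp_le hy).1 (abs_le.1 h).1,
      (Real.log_le_iff_le_exp hy).1 (abs_le.1 h).2⟩
  refine ⟨Real.exp (|Real.log (S.ℓ 0)| + MF + Mη + 6 * C * T),
    Real.exp (-(|Real.log (S.ℓ 0)| + MF + Mη + 6 * C * T)), Real.exp_pos _, fun t ht => ?_⟩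
  have a0 := abs_nonneg (Real.log (S.ℓ 0))
  have a1 : C * t ≤ C * T := mul_le_mul_of_nonneg_left ht.2.le hC0
  have a2 : 0 ≤ C * t := mul_nonneg hC0 ht.1
  have a3 := key (|Real.log (S.ℓ 0)| + MF + Mη + 6 * C * T) _ (hS.posℓ t ht) (by
    have a4 := abs_sub_abs_le_abs_sub (Real.log (S.ℓ t)) (Real.log (S.ℓ 0))
    linarith [bl t ht])
  refine ⟨a3.1, a3.2, fun x hx => ?_⟩
  have a4 := key (|Real.log (S.ℓ 0)| + MF + Mη + 6 * C * T) _ (hS.posη t ht x)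
    (by linarith [bη t ht x hx])
  exact ⟨a4.1, a4.2, le_trans (by linarith [bF t ht x hx]) (Real.add_one_le_exp _)⟩

end Vale.Agent.P244B
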