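import Vale.Agent.P244B.Apri1

/-! Bounded Ricci curvature: bounds of the first derivatives. -/

open Set Filter
open scoped ContDiff Topology

noncomputable section

namespace Vale.Agent.P244B

open Vale.Agent.P244

variable {q : ℕ} {T : ℝ} {S : Pre}

theorem apri2_mvt {f : ℝ → ℝ} (hf : Differentiable ℝ f) {a b M : ℝ} (hab : a < b)
    (h : ∀ y ∈ Ioo a b, |deriv f y| ≤ M) : |f b - f a| ≤ M * (b - a) := by
  obtain ⟨c, hc, e⟩ := exists_deriv_eq_slope f hab hf.continuous.continuousOn hf.differentiableOn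
  have := h c hc
  rwa [e, abs_div, abs_of_pos (sub_pos.2 hab), div_le_iff₀ (sub_pos.2 hab)] at this

theorem apri2_sin {x : ℝ} (hx : x ∈ Ioo 0 (Real.pi / 2)) :
    0 < Real.sin x ∧ 0 < Real.cos x ∧ x ≤ 2 * Real.sin x ∧ Real.pi / 2 - x ≤ 2 * Real.cos x ∧
      ∀ y ∈ Ioo 0 x, Real.sin y ≤ Real.sin x := by
  have hp := Real.pi_pos
  have h4 := Real.pi_le_four
  have key : ∀ y ∈ Ioo 0 (Real.pi / 2), y ≤ 2 * Real.sin y := fun y hy => by
    have h1 := Real.mul_le_sin hy.1.le hy.2.le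
    have h2 : 1 / 2 ≤ 2 / Real.pi := by
      rw [div_le_div_iff₀ (by norm_num) hp]; linarith
    nlinarith [hy.1]
  refine ⟨Real.sin_pos_of_pos_of_lt_pi hx.1 (by linarith [hx.2]),
    Real.cos_pos_of_mem_Ioo ⟨by linarith [hx.1], hx.2⟩, key x hx, ?_, fun y hy => ?_⟩
  · rw [← Real.sin_pi_div_two_sub]
    exact key _ ⟨by linarith [hx.2], by linarith [hx.1]⟩
  · exact Real.sin_le_sin_of_le_of_le_pi_div_two (by linarith [hy.1]) hx.2.le hy.2.le

/-- The data of one time slice. -/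
structure Apri2D (q : ℕ) (K ε l : ℝ) (F h : ℝ → ℝ) : Prop where
  dF : Differentiable ℝ F
  dF1 : Differentiable ℝ (deriv F)
  dh : Differentiable ℝ h
  dh1 : Differentiable ℝ (deriv h)
  el : ε ≤ l
  lK : l ≤ K
  lo : ∀ x ∈ Icc 0 Real.pi, ε * Real.sin x ≤ h x
  hi : ∀ x ∈ Icc 0 Real.pi, h x ≤ K * Real.sin x
  e1 : ∀ x ∈ Icc 0 Real.pi, Real.exp (2 * F x) ≤ K
  e2 : ∀ x ∈ Icc 0 Real.pi, Real.exp (-2 * F x) ≤ K
  h0 : h 0 = 0
  h1 : deriv h 0 = l
  rF : deriv F (Real.pi / 2) = 0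
  rh : deriv h (Real.pi / 2) = 0
  r1 : ∀ x ∈ Ioo 0 Real.pi,
    |deriv (deriv F) x + (2 * deriv F x + q * (deriv h x / h x)) * deriv F x| ≤ K
  r0 : ∀ x ∈ Ioo 0 Real.pi,
    |2 * (deriv (deriv F) x + deriv F x ^ 2) + q * (deriv (deriv h) x / h x)| ≤ K

theorem apri2_slice {u : ℝ × ℝ → ℝ} (hu : ContDiffOn ℝ ∞ u (Ico 0 T ×ˢ univ)) {t : ℝ}
    (ht : t ∈ Ioo 0 T) : ContDiff ℝ ∞ fun x => u (t, x) :=
  hu.comp_contDiff (contDiff_const.prodMk contDiff_id) fun _ => ⟨Ioo_subset_Ico_self ht, trivial⟩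

theorem apri2_refl {f : ℝ → ℝ} (h : ∀ x, f (Real.pi - x) = f x) : deriv f (Real.pi / 2) = 0 := by
  have h1 := deriv_comp_const_sub f Real.pi (Real.pi / 2)
  rw [funext h, show Real.pi - Real.pi / 2 = Real.pi / 2 by ring] at h1
  linarith

theorem apri2_data (hq : 2 ≤ q) (hT : 0 < T) (hS : IsSol q T S) (hR : RicBdd q T S) :
    ∃ K ε : ℝ, 0 < ε ∧ ∀ t ∈ Ioo 0 T,
      Apri2D q K ε (S.ℓ t) (fun x => S.F (t, x)) (fun x => S.h (t, x)) := by
  obtain ⟨C, ε, hε, hz⟩ := apri_zero hT hS hR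
  obtain ⟨R, hR⟩ := hR
  have hq1 : (0 : ℝ) ≤ (q : ℝ) - 1 := by
    have : (2 : ℝ) ≤ q := by exact_mod_cast hq
    linarith
  have hC : 0 < C := hε.trans_le ((hz 0 ⟨le_rfl, hT⟩).1.trans (hz 0 ⟨le_rfl, hT⟩).2.1)
  have hE := Real.exp_pos (2 * C)
  have hP : 0 ≤ C ^ 2 * (|R| + (q - 1) * Real.exp (2 * C)) := by positivity
  refine ⟨C + C ^ 2 + Real.exp (2 * C) + C ^ 2 * (|R| + (q - 1) * Real.exp (2 * C)),
    min ε (ε * ε), by positivity, fun t ht => ?_⟩
  obtain ⟨z1, z2, z3⟩ := hz t (Ioo_subset_Ico_self ht)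
  have hl : 0 < S.ℓ t := hε.trans_le z1
  have cF := apri2_slice hS.smF ht
  have cη := apri2_slice hS.smη ht
  have ch : ContDiff ℝ ∞ fun x => S.h (t, x) :=
    ((contDiff_const (c := S.ℓ t)).mul Real.contDiff_sin).mul cη
  have dF := cF.differentiable (by simp)
  have dh := ch.differentiable (by simp)
  have dF1 := (contDiff_infty_iff_deriv.1 cF).2.differentiable (by simp)
  have dh1 := (contDiff_infty_iff_deriv.1 ch).2.differentiable (by simp)
  have hh : ∀ x, S.h (t, x) = S.ℓ t * Real.sin x * S.η (t, x) := fun _ => rfl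
  have hpos : ∀ x ∈ Ioo 0 Real.pi, 0 < S.h (t, x) := fun x hx =>
    mul_pos (mul_pos hl (Real.sin_pos_of_pos_of_lt_pi hx.1 hx.2))
      (hS.posη t (Ioo_subset_Ico_self ht) x)
  have hY : ∀ x ∈ Ioo 0 Real.pi,
      S.Y (t, x) = deriv (fun x => S.h (t, x)) x / S.h (t, x) / S.ℓ t := fun x hx => by
    rw [← deriv.log (dh x) (hpos x hx).ne']
    rfl
  have hX : ∀ x, S.X (t, x) = deriv (fun x => S.F (t, x)) x / S.ℓ t := fun _ => rfl
  have hDX : ∀ x, S.Ds S.X (t, x) = deriv (deriv fun x => S.F (t, x)) x / S.ℓ t / S.ℓ t :=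
    fun x => by rw [← deriv_div_const]; rfl
  have hexp : ∀ x ∈ Icc 0 Real.pi, Real.exp (2 * S.F (t, x)) ≤ Real.exp (2 * C) ∧
      Real.exp (-2 * S.F (t, x)) ≤ Real.exp (2 * C) := fun x hx => by
    have := abs_le.1 (z3 x hx).2.2
    exact ⟨Real.exp_le_exp.2 (by linarith), Real.exp_le_exp.2 (by linarith)⟩
  have hl2 : S.ℓ t ^ 2 ≤ C ^ 2 := pow_le_pow_left₀ hl.le z2 2
  refine ⟨dF, dF1, dh, dh1, (min_le_left _ _).trans z1, by nlinarith, fun x hx => ?_,
    fun x hx => ?_, fun x hx => by nlinarith [(hexp x hx).1], fun x hx => by nlinarith [(hexp x hx).2],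
    by simp [hh], ?_, apri2_refl (hS.reflF t), apri2_refl fun x => ?_, fun x hx => ?_,
    fun x hx => ?_⟩
  · have hs := Real.sin_nonneg_of_mem_Icc hx
    have h1 : ε * ε ≤ S.ℓ t * S.η (t, x) := mul_le_mul z1 (z3 x hx).1 hε.le hl.le
    rw [hh, mul_right_comm]
    exact mul_le_mul_of_nonneg_right ((min_le_right _ _).trans h1) hs
  · have hs := Real.sin_nonneg_of_mem_Icc hx
    have h1 : S.ℓ t * S.η (t, x) ≤ C * C :=
      mul_le_mul z2 (z3 x hx).2.1 (hε.le.trans (z3 x hx).1) hC.le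
    rw [hh, mul_right_comm]
    exact mul_le_mul_of_nonneg_right (by nlinarith) hs
  · have := (((Real.hasDerivAt_sin 0).const_mul (S.ℓ t)).mul
      (cη.differentiable (by simp) 0).hasDerivAt).deriv
    refine this.trans ?_
    simp [hS.poleη t (Ioo_subset_Ico_self ht)]
  · rw [hh, hh, Real.sin_pi_sub, hS.reflη]
  · have h1 := (hR (t, x) ⟨ht, hx⟩).2.1
    have h2 := (hexp x (Ioo_subset_Icc_self hx)).2
    have h3 : S.ρ1 q (t, x) = (q - 1) * Real.exp (-2 * S.F (t, x)) -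
        (S.Ds S.X (t, x) + (2 * S.X (t, x) + q * S.Y (t, x)) * S.X (t, x)) := rfl
    rw [hDX, hX, hY x hx] at h3
    have h4 : deriv (deriv fun x => S.F (t, x)) x + (2 * deriv (fun x => S.F (t, x)) x +
        q * (deriv (fun x => S.h (t, x)) x / S.h (t, x))) * deriv (fun x => S.F (t, x)) x =
        S.ℓ t ^ 2 * ((q - 1) * Real.exp (-2 * S.F (t, x)) - S.ρ1 q (t, x)) := by
      rw [h3]; field_simp; ring
    have h5 : |(q - 1) * Real.exp (-2 * S.F (t, x)) - S.ρ1 q (t, x)| ≤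
        |R| + (q - 1) * Real.exp (2 * C) := by
      refine (abs_sub _ _).trans ?_
      rw [abs_of_nonneg (mul_nonneg hq1 (Real.exp_pos _).le)]
      linarith [le_abs_self R, mul_le_mul_of_nonneg_left h2 hq1]
    rw [h4, abs_mul, abs_of_nonneg (sq_nonneg _)]
    have := mul_le_mul hl2 h5 (abs_nonneg _) (sq_nonneg _)
    nlinarith
  · have h1 := (hR (t, x) ⟨ht, hx⟩).1
    have h3 : S.ρ0 q (t, x) = -2 * (S.Ds S.X (t, x) + S.X (t, x) ^ 2) -
        q * (deriv (fun x => S.Y (t, x)) x / S.ℓ t + S.Y (t, x) ^ 2) := rfl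
    have h6 : (fun x => S.Y (t, x)) =ᶠ[𝓝 x]
        fun x => deriv (fun x => S.h (t, x)) x / S.h (t, x) / S.ℓ t :=
      eventually_of_mem (isOpen_Ioo.mem_nhds hx) hY
    have h7 := (((dh1 x).hasDerivAt.fun_div (dh x).hasDerivAt (hpos x hx).ne').div_const
      (S.ℓ t)).deriv
    rw [hDX, hX, hY x hx, h6.deriv_eq, h7] at h3
    have h4 : 2 * (deriv (deriv fun x => S.F (t, x)) x + deriv (fun x => S.F (t, x)) x ^ 2) +
        q * (deriv (deriv fun x => S.h (t, x)) x / S.h (t, x)) = -(S.ℓ t ^ 2 * S.ρ0 q (t, x)) := by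
      have := (hpos x hx).ne'
      rw [h3]; field_simp; ring
    rw [h4, abs_neg, abs_mul, abs_of_nonneg (sq_nonneg _)]
    have := mul_le_mul hl2 (h1.trans (le_abs_self R)) (abs_nonneg _) (sq_nonneg _)
    nlinarith [mul_nonneg (sq_nonneg C) (mul_nonneg hq1 hE.le)]

namespace Apri2D

variable {K ε l : ℝ} {F h : ℝ → ℝ}

theorem sub {x : ℝ} (hx : x ∈ Ioo 0 (Real.pi / 2)) : x ∈ Ioo 0 Real.pi :=
  ⟨hx.1, by linarith [hx.2, Real.pi_pos]⟩

theorem pos (D : Apri2D q K ε l F h) (hε : 0 < ε) {x : ℝ} (hx : x ∈ Ioo 0 Real.pi) : 0 < h x :=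
  (mul_pos hε (Real.sin_pos_of_pos_of_lt_pi hx.1 hx.2)).trans_le (D.lo x (Ioo_subset_Icc_self hx))

theorem one (D : Apri2D q K ε l F h) (hq : 2 ≤ q) (hε : 0 < ε) {x : ℝ}
    (hx : x ∈ Ioo 0 (Real.pi / 2)) :
    |deriv F x| ≤ 2 * (K / ε) ^ q * K ^ 3 * Real.sin x := by
  obtain ⟨s1, -, s3, -, s5⟩ := apri2_sin hx
  have hK : 0 < K := hε.trans_le (D.el.trans D.lK)
  have hd : ∀ y, HasDerivAt (fun y => h y ^ q * Real.exp (2 * F y) * deriv F y) _ y := fun y =>
    (((D.dh y).hasDerivAt.fun_pow q).fun_mul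
      ((D.dF y).hasDerivAt.const_mul 2).exp).fun_mul (D.dF1 y).hasDerivAt
  have key := apri2_mvt (fun y => (hd y).differentiableAt) hx.1
    (M := (K * Real.sin x) ^ q * K * K) fun y hy => by
      have hy' := sub (⟨hy.1, hy.2.trans hx.2⟩ : y ∈ Ioo 0 (Real.pi / 2))
      have hp := D.pos hε hy'
      have e : deriv (fun y => h y ^ q * Real.exp (2 * F y) * deriv F y) y =
          h y ^ q * Real.exp (2 * F y) *
            (deriv (deriv F) y + (2 * deriv F y + q * (deriv h y / h y)) * deriv F y) := by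
        rw [(hd y).deriv]
        obtain ⟨k, rfl⟩ : ∃ k, q = k + 1 := ⟨q - 1, by omega⟩
        rw [Nat.add_sub_cancel]
        field_simp
        ring
      rw [e, abs_mul, abs_of_pos (by positivity)]
      have h1 : h y ≤ K * Real.sin x := (D.hi y (Ioo_subset_Icc_self hy')).trans
        (mul_le_mul_of_nonneg_left (s5 y hy) hK.le)
      exact mul_le_mul (mul_le_mul (pow_le_pow_left₀ hp.le h1 q) (D.e1 y (Ioo_subset_Icc_self hy'))
        (Real.exp_pos _).le (by positivity)) (D.r1 y hy') (abs_nonneg _) (by positivity)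
  have hx' := sub hx
  have hp := D.pos hε hx'
  rw [D.h0, zero_pow (by omega), zero_mul, zero_mul, sub_zero, sub_zero, abs_mul,
    abs_of_pos (by positivity)] at key
  have h1 : (ε * Real.sin x) ^ q ≤ h x ^ q :=
    pow_le_pow_left₀ (by positivity) (D.lo x (Ioo_subset_Icc_self hx')) q
  have h2 : 1 ≤ Real.exp (2 * F x) * K := by
    have := mul_le_mul_of_nonneg_left (D.e2 x (Ioo_subset_Icc_self hx')) (Real.exp_pos (2 * F x)).le
    rwa [← Real.exp_add, show 2 * F x + -2 * F x = 0 by ring, Real.exp_zero] at this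
  have h3 : (ε * Real.sin x) ^ q * |deriv F x| ≤ (K * Real.sin x) ^ q * K ^ 3 * (2 * Real.sin x) :=
    calc (ε * Real.sin x) ^ q * |deriv F x| ≤ h x ^ q * (Real.exp (2 * F x) * K) * |deriv F x| :=
          mul_le_mul_of_nonneg_right (h1.trans (le_mul_of_one_le_right (by positivity) h2))
            (abs_nonneg _)
      _ = h x ^ q * Real.exp (2 * F x) * |deriv F x| * K := by ring
      _ ≤ (K * Real.sin x) ^ q * K * K * x * K := mul_le_mul_of_nonneg_right key hK.le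
      _ = (K * Real.sin x) ^ q * K ^ 3 * x := by ring
      _ ≤ _ := mul_le_mul_of_nonneg_left s3 (by positivity)
  refine le_of_mul_le_mul_left (h3.trans_eq ?_) (show 0 < (ε * Real.sin x) ^ q by positivity)
  rw [mul_pow, mul_pow, div_pow]
  field_simp

theorem two (hq : 2 ≤ q) (hε : 0 < ε) (K : ℝ) : ∃ C, 0 ≤ C ∧ ∀ {l : ℝ} {F h : ℝ → ℝ},
    Apri2D q K ε l F h → ∀ x ∈ Ioo 0 (Real.pi / 2), |deriv F x| ≤ C * Real.sin x ∧
      |deriv (deriv F) x| ≤ C ∧ |deriv (deriv h) x / l| ≤ C * Real.sin x := by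
  by_cases hK : 0 < K
  swap
  · exact ⟨0, le_rfl, fun D => absurd (hε.trans_le (D.el.trans D.lK)) hK⟩
  obtain ⟨B, hB⟩ : ∃ B, B = 2 * (K / ε) ^ q * K ^ 3 := ⟨_, rfl⟩
  have hB0 : 0 < B := by rw [hB]; positivity
  obtain ⟨E, hE⟩ : ∃ E, E = 3 * K + 2 * B ^ 2 := ⟨_, rfl⟩
  have hE0 : 0 < E := by rw [hE]; positivity
  obtain ⟨A, hA⟩ : ∃ A, A = K * (K * K + K * (K * E) * 2) := ⟨_, rfl⟩
  have hA0 : 0 < A := by rw [hA]; positivity
  have p1 : 0 ≤ K + 2 * B ^ 2 + q * (A * B / ε) := by positivity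
  have p2 : 0 ≤ (2 * B * A + K * E) / ε := by positivity
  refine ⟨B + (K + 2 * B ^ 2 + q * (A * B / ε)) + (2 * B * A + K * E) / ε, by positivity,
    fun {l F h} D => ?_⟩
  have hq1 : (1 : ℝ) ≤ q := by exact_mod_cast (by omega : 1 ≤ q)
  have b1 : ∀ x ∈ Ioo 0 (Real.pi / 2), |deriv F x| ≤ B * Real.sin x := fun x hx =>
    hB ▸ D.one hq hε hx
  have b1' : ∀ x ∈ Ioo 0 (Real.pi / 2), deriv F x ^ 2 ≤ B ^ 2 := fun x hx =>
    sq_le_sq.2 ((b1 x hx).trans ((mul_le_of_le_one_right hB0.le (Real.sin_le_one x)).trans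
      (le_abs_self B)))
  have b2 : ∀ x ∈ Ioo 0 (Real.pi / 2),
      |deriv (deriv h) x - 2 * deriv F x * deriv h x| ≤ K * E * Real.sin x := fun x hx => by
    have hp := D.pos hε (sub hx)
    have r1 := abs_le.1 (D.r1 x (sub hx))
    have r0 := abs_le.1 (D.r0 x (sub hx))
    have e : deriv (deriv h) x - 2 * deriv F x * deriv h x =
        h x * (deriv (deriv h) x / h x - 2 * deriv F x * (deriv h x / h x)) := by field_simp
    have h1 : |q * (deriv (deriv h) x / h x - 2 * deriv F x * (deriv h x / h x))| ≤ E := by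
      have := b1' x hx
      have := sq_nonneg (deriv F x)
      rw [abs_le]
      constructor <;> nlinarith
    rw [abs_mul, Nat.abs_cast] at h1
    rw [e, abs_mul, abs_of_pos hp, mul_right_comm K E]
    exact mul_le_mul (D.hi x (Ioo_subset_Icc_self (sub hx)))
      ((le_mul_of_one_le_left (abs_nonneg _) hq1).trans h1) (abs_nonneg _)
      (mul_pos hK (apri2_sin hx).1).le
  have b3 : ∀ x ∈ Ioo 0 (Real.pi / 2), |deriv h x| ≤ A := fun x hx => by
    have hd : ∀ y, HasDerivAt (fun y => deriv h y * Real.exp (-2 * F y)) _ y := fun y =>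
      (D.dh1 y).hasDerivAt.fun_mul ((D.dF y).hasDerivAt.const_mul (-2)).exp
    have key := apri2_mvt (fun y => (hd y).differentiableAt) hx.1 (M := K * (K * E)) fun y hy => by
      have hy' : y ∈ Ioo 0 (Real.pi / 2) := ⟨hy.1, hy.2.trans hx.2⟩
      have e : deriv (fun y => deriv h y * Real.exp (-2 * F y)) y =
          Real.exp (-2 * F y) * (deriv (deriv h) y - 2 * deriv F y * deriv h y) := by
        rw [(hd y).deriv]; ring
      rw [e, abs_mul, abs_of_pos (Real.exp_pos _)]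
      exact mul_le_mul (D.e2 y (Ioo_subset_Icc_self (sub hy'))) ((b2 y hy').trans
        (mul_le_of_le_one_right (by positivity) (Real.sin_le_one y))) (abs_nonneg _) hK.le
    have hl : 0 < l := hε.trans_le D.el
    have h1 : |deriv h 0 * Real.exp (-2 * F 0)| ≤ K * K := by
      rw [D.h1, abs_of_pos (by positivity)]
      exact mul_le_mul D.lK (D.e2 0 ⟨le_rfl, Real.pi_pos.le⟩) (Real.exp_pos _).le hK.le
    have h2 : K * (K * E) * (x - 0) ≤ K * (K * E) * 2 :=
      mul_le_mul_of_nonneg_left (by linarith [hx.2, Real.pi_le_four]) (by positivity)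
    have h3 := abs_sub_abs_le_abs_sub (deriv h x * Real.exp (-2 * F x))
      (deriv h 0 * Real.exp (-2 * F 0))
    have e : deriv h x = Real.exp (2 * F x) * (deriv h x * Real.exp (-2 * F x)) := by
      rw [mul_left_comm, ← Real.exp_add, show 2 * F x + -2 * F x = 0 by ring, Real.exp_zero,
        mul_one]
    rw [e, abs_mul, abs_of_pos (Real.exp_pos _), hA]
    exact mul_le_mul (D.e1 x (Ioo_subset_Icc_self (sub hx))) (by linarith) (abs_nonneg _) hK.le
  intro x hx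
  have hs := (apri2_sin hx).1
  have hp := D.pos hε (sub hx)
  have b4 : |deriv F x * deriv h x| ≤ B * Real.sin x * A := by
    rw [abs_mul]
    exact mul_le_mul (b1 x hx) (b3 x hx) (abs_nonneg _) (by positivity)
  refine ⟨(b1 x hx).trans (mul_le_mul_of_nonneg_right (by linarith) hs.le), ?_, ?_⟩
  · have h1 : |deriv h x / h x * deriv F x| ≤ A * B / ε := by
      rw [div_mul_eq_mul_div, abs_div, abs_of_pos hp, mul_comm, div_le_div_iff₀ hp hε]
      have := mul_le_mul_of_nonneg_left (D.lo x (Ioo_subset_Icc_self (sub hx)))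
        (show 0 ≤ A * B by positivity)
      nlinarith
    have h2 := abs_le.1 h1
    have h3 := mul_le_mul_of_nonneg_left h2.1 (zero_le_one.trans hq1)
    have h4 := mul_le_mul_of_nonneg_left h2.2 (zero_le_one.trans hq1)
    have r1 := abs_le.1 (D.r1 x (sub hx))
    have := b1' x hx
    have := sq_nonneg (deriv F x)
    rw [abs_le]
    constructor <;> nlinarith
  · have h1 : |deriv (deriv h) x| ≤ (2 * B * A + K * E) * Real.sin x := by
      have h2 := abs_le.1 (b2 x hx)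
      have h3 := abs_le.1 b4
      rw [abs_le]
      constructor <;> nlinarith
    have hl : 0 < l := hε.trans_le D.el
    rw [abs_div, abs_of_pos hl]
    calc _ ≤ (2 * B * A + K * E) * Real.sin x / ε := div_le_div₀ (by positivity) h1 hε D.el
      _ = (2 * B * A + K * E) / ε * Real.sin x := by ring
      _ ≤ _ := mul_le_mul_of_nonneg_right (by linarith) hs.le

end Apri2D

theorem apri2_dxa (t x : ℝ) :
    dx S.a (t, x) = deriv (deriv fun x => S.h (t, x)) x / S.ℓ t := by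
  rw [← deriv_div_const]; rfl

theorem apri_Fx (hq : 2 ≤ q) (hT : 0 < T) (hS : IsSol q T S) (hR : RicBdd q T S) :
    ∃ C : ℝ, ∀ t ∈ Ioo 0 T, ∀ x ∈ Ioo 0 (Real.pi / 2), |dx S.F (t, x)| ≤ C * Real.sin x := by
  obtain ⟨K, ε, hε, hD⟩ := apri2_data hq hT hS hR
  obtain ⟨C, -, hC⟩ := Apri2D.two hq hε K
  exact ⟨C, fun t ht x hx => (hC (hD t ht) x hx).1⟩

theorem apri_second (hq : 2 ≤ q) (hT : 0 < T) (hS : IsSol q T S) (hR : RicBdd q T S) :
    ∃ C : ℝ, ∀ t ∈ Ioo 0 T, ∀ x ∈ Ioo 0 (Real.pi / 2),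
      |dx (dx S.F) (t, x)| ≤ C ∧ |dx S.a (t, x)| ≤ C * Real.sin x := by
  obtain ⟨K, ε, hε, hD⟩ := apri2_data hq hT hS hR
  obtain ⟨C, -, hC⟩ := Apri2D.two hq hε K
  refine ⟨C, fun t ht x hx => ⟨(hC (hD t ht) x hx).2.1, ?_⟩⟩
  rw [apri2_dxa]
  exact (hC (hD t ht) x hx).2.2

theorem apriori (hq : 2 ≤ q) (hT : 0 < T) (hS : IsSol q T S) (hR : RicBdd q T S) :
    ∃ C : ℝ, ∀ t ∈ Ioo 0 T, ∀ x ∈ Ioo 0 (Real.pi / 2),
      |dx S.F (t, x)| ≤ C * (Real.sin x * Real.cos x) ∧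
      |S.a (t, x) - Real.cos x| ≤ C * (Real.sin x ^ 2 * Real.cos x) := by
  obtain ⟨K, ε, hε, hD⟩ := apri2_data hq hT hS hR
  obtain ⟨C, hC0, hC⟩ := Apri2D.two hq hε K
  refine ⟨4 * (C + 1), fun t ht x hx => ?_⟩
  have D := hD t ht
  have hl : 0 < S.ℓ t := hε.trans_le D.el
  obtain ⟨s1, s2, s3, s4, s5⟩ := apri2_sin hx
  have s6 := Real.sin_sq_add_cos_sq x
  have s7 := Real.sin_le_one x
  have a1 : |dx S.F (t, x)| ≤ C * Real.sin x := (hC D x hx).1
  have a2 : |dx S.F (t, x)| ≤ C * (2 * Real.cos x) := by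
    have := apri2_mvt D.dF1 hx.2 (M := C) fun y hy => (hC D y ⟨hx.1.trans hy.1, hy.2⟩).2.1
    rw [D.rF, zero_sub, abs_neg] at this
    exact this.trans (mul_le_mul_of_nonneg_left s4 hC0)
  have hd : ∀ y, HasDerivAt (fun y => deriv (fun x => S.h (t, x)) y / S.ℓ t - Real.cos y)
      (deriv (deriv fun x => S.h (t, x)) y / S.ℓ t - -Real.sin y) y := fun y =>
    ((D.dh1 y).hasDerivAt.div_const _).fun_sub (Real.hasDerivAt_cos y)
  have hg : ∀ y ∈ Ioo 0 (Real.pi / 2),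
      |deriv (fun y => deriv (fun x => S.h (t, x)) y / S.ℓ t - Real.cos y) y| ≤
        (C + 1) * Real.sin y := fun y hy => by
    rw [(hd y).deriv]
    refine (abs_sub _ _).trans ?_
    rw [abs_neg, abs_of_pos (apri2_sin hy).1]
    linarith [(hC D y hy).2.2]
  have a3 : |S.a (t, x) - Real.cos x| ≤ (C + 1) * Real.sin x * (2 * Real.sin x) := by
    have := apri2_mvt (fun y => (hd y).differentiableAt) hx.1 (M := (C + 1) * Real.sin x)
      fun y hy => (hg y ⟨hy.1, hy.2.trans hx.2⟩).trans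
        (mul_le_mul_of_nonneg_left (s5 y hy) (by linarith))
    rw [D.h1, div_self hl.ne', Real.cos_zero, sub_self, sub_zero, sub_zero] at this
    exact this.trans (mul_le_mul_of_nonneg_left s3 (by positivity))
  have a4 : |S.a (t, x) - Real.cos x| ≤ (C + 1) * (2 * Real.cos x) := by
    have := apri2_mvt (fun y => (hd y).differentiableAt) hx.2 (M := C + 1)
      fun y hy => (hg y ⟨hx.1.trans hy.1, hy.2⟩).trans
        (mul_le_of_le_one_right (by linarith) (Real.sin_le_one y))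
    rw [D.rh, zero_div, Real.cos_pi_div_two, sub_zero, zero_sub, abs_neg] at this
    exact this.trans (mul_le_mul_of_nonneg_left s4 (by linarith))
  have p1 := mul_pos s1 s2
  rcases le_total (Real.sin x) (Real.cos x) with h | h
  · have c1 : 1 ≤ 2 * Real.cos x := by nlinarith
    refine ⟨a1.trans ?_, a3.trans ?_⟩
    · have := mul_le_mul_of_nonneg_left c1 (mul_nonneg hC0 s1.le)
      nlinarith [mul_nonneg hC0 p1.le]
    · have := mul_le_mul_of_nonneg_left c1
        (show 0 ≤ (C + 1) * Real.sin x * (2 * Real.sin x) by positivity)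
      linarith
  · have c1 : 1 ≤ 2 * Real.sin x ^ 2 := by nlinarith
    have c2 : 1 ≤ 2 * Real.sin x := by nlinarith
    refine ⟨a2.trans ?_, a4.trans ?_⟩
    · have := mul_le_mul_of_nonneg_left c2 (show 0 ≤ C * (2 * Real.cos x) by positivity)
      nlinarith
    · have := mul_le_mul_of_nonneg_left c1 (show 0 ≤ (C + 1) * (2 * Real.cos x) by positivity)
      linarith

end Vale.Agent.P244B
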