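import Mathlib

/-! Continuous functions on the unit interval and the relation: `g` is the derivative of `f`. -/

open Set Filter
open scoped ContDiff Topology unitInterval

noncomputable section

namespace Vale.Agent.P244B

/-- continuous functions on the unit interval -/
abbrev B : Type := C(I, ℝ)

/-- extension to the line -/
def ex (f : B) (x : ℝ) : ℝ := f (projIcc 0 1 zero_le_one x)

/-- `g` is the derivative of `f` -/
def IsD (f g : B) : Prop :=
  ∀ x ∈ Icc (0 : ℝ) 1, HasDerivWithinAt (ex f) (ex g x) (Icc 0 1) x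

/-- the coordinate -/
def vv : B := ⟨fun v => (v : ℝ), continuous_subtype_val⟩

/-- constants -/
def cst : ℝ →L[ℝ] B := ContinuousLinearMap.const ℝ I

/-- value at the left end point -/
def ev0 : B →L[ℝ] ℝ := ContinuousMap.evalCLM ℝ (0 : I)

/-- `v (1 - v)` -/
def aa : B := vv * (1 - vv)

/-- `α (1 - v) - β v` -/
def bb (α β : ℝ) : B := cst α * (1 - vv) - cst β * vv

open Classical in
/-- the derivative, if there is one -/
def Dv (f : B) : B := if h : ∃ g, IsD f g then h.choose else 0

/-- smooth functions -/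
def Sm (f : B) : Prop := ∀ k : ℕ, IsD (Dv^[k] f) (Dv^[k + 1] f)

/-- smooth families of smooth functions -/
def SmT (J : Set ℝ) (u : ℝ → B) : Prop :=
  (∀ θ ∈ J, Sm (u θ)) ∧ ∀ k : ℕ, ContDiffOn ℝ ∞ (fun θ => Dv^[k] (u θ)) J

/-- the minimum -/
def mu (f : B) : ℝ := ⨅ v, f v

/-- polynomial functions -/
def pl : Polynomial ℝ →ₐ[ℝ] B := Polynomial.toContinuousMapOnAlgHom I

@[simp] theorem vv_apply (v : I) : vv v = v := rfl
@[simp] theorem cst_apply (c : ℝ) (v : I) : cst c v = c := rfl
@[simp] theorem ev0_apply (f : B) : ev0 f = f 0 := rfl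
@[simp] theorem aa_apply (v : I) : aa v = v * (1 - v) := rfl
@[simp] theorem bb_apply (α β : ℝ) (v : I) : bb α β v = α * (1 - v) - β * v := rfl
@[simp] theorem pl_apply (p : Polynomial ℝ) (v : I) : pl p v = p.eval (v : ℝ) := rfl

@[simp] theorem ex_coe (f : B) (v : I) : ex f v = f v := by
  rw [ex, projIcc_val]

theorem ex_of_mem (f : B) {x : ℝ} (hx : x ∈ Icc (0 : ℝ) 1) : ex f x = f ⟨x, hx⟩ := by
  exact ex_coe f ⟨x, hx⟩

theorem continuous_ex (f : B) : Continuous (ex f) := by
  exact f.continuous.comp continuous_projIcc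

theorem continuous_ex₂ : Continuous fun p : B × ℝ => ex p.1 p.2 := by
  exact ContinuousEval.continuous_eval.comp
    (continuous_fst.prodMk ((continuous_projIcc (h := zero_le_one)).comp continuous_snd))

theorem ex_le (f : B) (x : ℝ) : |ex f x| ≤ ‖f‖ := by
  exact f.norm_coe_le_norm _

/-- the primitive that vanishes at `0` -/
def prim : B →L[ℝ] B :=
  LinearMap.mkContinuous
    { toFun := fun f => ⟨fun v => ∫ x in (0 : ℝ)..v, ex f x,
        (intervalIntegral.continuous_primitive
          (fun a b => (continuous_ex f).intervalIntegrable a b) 0).comp continuous_subtype_val⟩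
      map_add' := by
        intro f g
        ext v
        show ∫ x in (0 : ℝ)..v, ex (f + g) x =
          (∫ x in (0 : ℝ)..v, ex f x) + ∫ x in (0 : ℝ)..v, ex g x
        rw [← intervalIntegral.integral_add ((continuous_ex f).intervalIntegrable _ _)
          ((continuous_ex g).intervalIntegrable _ _)]
        rfl
      map_smul' := by
        intro c f
        ext v
        show ∫ x in (0 : ℝ)..v, ex (c • f) x = c * ∫ x in (0 : ℝ)..v, ex f x
        rw [← intervalIntegral.integral_const_mul]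
        rfl } 1 (by
      intro f
      rw [one_mul]
      refine (ContinuousMap.norm_le _ (norm_nonneg f)).2 fun v => ?_
      show ‖∫ x in (0 : ℝ)..v, ex f x‖ ≤ ‖f‖
      refine le_trans (intervalIntegral.norm_integral_le_of_norm_le_const (C := ‖f‖)
        (fun x _ => ex_le f x)) ?_
      rw [sub_zero, abs_of_nonneg v.2.1]
      exact mul_le_of_le_one_right (norm_nonneg f) v.2.2)

theorem prim_apply (f : B) (v : I) : prim f v = ∫ x in (0 : ℝ)..v, ex f x := rfl

private theorem base_isD_of {f g : B} {F : ℝ → ℝ} (hF : ∀ v : I, f v = F v)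
    (h : ∀ v : I, HasDerivWithinAt F (g v) (Icc 0 1) v) : IsD f g := by
  intro x hx
  rw [ex_of_mem g hx]
  refine (h ⟨x, hx⟩).congr (fun y hy => ?_) ?_
  · rw [ex_of_mem f hy, hF]
  · rw [ex_coe, hF]

private theorem base_prim_deriv (g : B) (v : I) :
    HasDerivAt (fun u => ∫ x in (0 : ℝ)..u, ex g x) (g v) v := by
  rw [← ex_coe]
  exact intervalIntegral.integral_hasDerivAt_right ((continuous_ex g).intervalIntegrable _ _)
    ((continuous_ex g).stronglyMeasurableAtFilter _ _) (continuous_ex g).continuousAt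

private theorem base_eq_of_Ioo {f g : B}
    (h : ∀ x ∈ Ioo (0 : ℝ) 1, HasDerivAt (ex f) (ex g x) x) : f = cst (f 0) + prim g := by
  ext v
  have h1 := intervalIntegral.integral_eq_sub_of_hasDerivAt_of_le (f := ex f) (f' := ex g) v.2.1
    (continuous_ex f).continuousOn (fun x hx => h x ⟨hx.1, lt_of_lt_of_le hx.2 v.2.2⟩)
    ((continuous_ex g).intervalIntegrable _ _)
  have h0 : ex f 0 = f 0 := ex_coe f 0
  show f v = f 0 + ∫ x in (0 : ℝ)..v, ex g x
  rw [h1, ex_coe, h0]
  ring

theorem isD_prim (g : B) : IsD (prim g) g := by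
  exact base_isD_of (F := fun u => ∫ x in (0 : ℝ)..u, ex g x) (fun v => rfl)
    (fun v => (base_prim_deriv g v).hasDerivWithinAt)

theorem isD_iff {f g : B} : IsD f g ↔ f = cst (f 0) + prim g := by
  constructor
  · intro h
    exact base_eq_of_Ioo fun x hx =>
      (h x (Ioo_subset_Icc_self hx)).hasDerivAt (Icc_mem_nhds hx.1 hx.2)
  · intro h
    refine base_isD_of (F := fun u => f 0 + ∫ x in (0 : ℝ)..u, ex g x) (fun v => ?_)
      (fun v => ((base_prim_deriv g v).const_add (f 0)).hasDerivWithinAt)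
    exact DFunLike.congr_fun h v

theorem isD_of_Ioo {f g : B} (h : ∀ x ∈ Ioo (0 : ℝ) 1, HasDerivAt (ex f) (ex g x) x) :
    IsD f g := by
  exact isD_iff.2 (base_eq_of_Ioo h)

theorem IsD.hasDerivAt {f g : B} (h : IsD f g) {x : ℝ} (hx : x ∈ Ioo (0 : ℝ) 1) :
    HasDerivAt (ex f) (ex g x) x := by
  exact (h x (Ioo_subset_Icc_self hx)).hasDerivAt (Icc_mem_nhds hx.1 hx.2)

theorem IsD.unique {f g g' : B} (h : IsD f g) (h' : IsD f g') : g = g' := by
  ext v
  have := (uniqueDiffOn_Icc (zero_lt_one' ℝ) v v.2).eq_deriv _ (h v v.2) (h' v v.2)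
  rwa [ex_coe, ex_coe] at this

theorem IsD.dv {f g : B} (h : IsD f g) : Dv f = g := by
  have hex : ∃ g, IsD f g := ⟨g, h⟩
  rw [Dv, dif_pos hex]
  exact hex.choose_spec.unique h

theorem isClosed_isD : IsClosed {p : B × B | IsD p.1 p.2} := by
  have : {p : B × B | IsD p.1 p.2} = {p : B × B | p.1 = cst (ev0 p.1) + prim p.2} := by
    ext p
    exact isD_iff
  rw [this]
  exact isClosed_eq continuous_fst
    ((cst.continuous.comp (ev0.continuous.comp continuous_fst)).add
      (prim.continuous.comp continuous_snd))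

theorem IsD.add {f g f' g' : B} (h : IsD f f') (h' : IsD g g') : IsD (f + g) (f' + g') := by
  exact fun x hx => (h x hx).add (h' x hx)

theorem IsD.sub {f g f' g' : B} (h : IsD f f') (h' : IsD g g') : IsD (f - g) (f' - g') := by
  exact fun x hx => (h x hx).sub (h' x hx)

theorem IsD.neg {f f' : B} (h : IsD f f') : IsD (-f) (-f') := by
  exact fun x hx => (h x hx).neg

theorem IsD.smul {f f' : B} (c : ℝ) (h : IsD f f') : IsD (c • f) (c • f') := by
  exact fun x hx => (h x hx).const_mul c

theorem IsD.mul {f g f' g' : B} (h : IsD f f') (h' : IsD g g') :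
    IsD (f * g) (f' * g + f * g') := by
  exact fun x hx => (h x hx).mul (h' x hx)

theorem IsD.comp {f f' : B} (φ φ' : C(ℝ, ℝ)) (hφ : ∀ x, HasDerivAt φ (φ' x) x) (h : IsD f f') :
    IsD (φ.comp f) (φ'.comp f * f') := by
  exact fun x hx => (hφ (ex f x)).comp_hasDerivWithinAt x (h x hx)

theorem IsD.congr {f g g' : B} (h : IsD f g) (e : g = g') : IsD f g' := e ▸ h

theorem isD_cst (c : ℝ) : IsD (cst c) 0 := by
  exact fun x _ => hasDerivWithinAt_const x _ c

theorem isD_one : IsD 1 0 := by
  exact fun x _ => hasDerivWithinAt_const x _ (1 : ℝ)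

theorem isD_zero : IsD 0 0 := by
  exact fun x _ => hasDerivWithinAt_const x _ (0 : ℝ)

theorem isD_vv : IsD vv 1 := by
  exact base_isD_of (F := fun u => u) (fun v => rfl) (fun v => hasDerivWithinAt_id _ _)

theorem isD_aa : IsD aa (1 - cst 2 * vv) := by
  refine (isD_vv.mul (isD_one.sub isD_vv)).congr ?_
  ext v
  simp
  ring

theorem isD_bb (α β : ℝ) : IsD (bb α β) (cst (-(α + β))) := by
  refine (((isD_cst α).mul (isD_one.sub isD_vv)).sub ((isD_cst β).mul isD_vv)).congr ?_
  ext v
  simp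
  ring

theorem isD_pl (p : Polynomial ℝ) : IsD (pl p) (pl (Polynomial.derivative p)) := by
  exact base_isD_of (F := fun u => p.eval u) (fun v => rfl)
    (fun v => (p.hasDerivAt v).hasDerivWithinAt)

/-- the graph of the derivative -/
def grD : Submodule ℝ (B × B) where
  carrier := {p | IsD p.1 p.2}
  add_mem' := fun h h' => IsD.add h h'
  zero_mem' := isD_zero
  smul_mem' := fun c _ h => IsD.smul c h

theorem dense_pl : DenseRange pl := by
  rw [Metric.denseRange_iff]
  intro f r hr
  obtain ⟨p, hp⟩ := exists_polynomial_near_continuousMap 0 1 f r hr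
  refine ⟨p, ?_⟩
  rw [dist_comm, dist_eq_norm]
  exact hp

private theorem base_seq (g : B) :
    ∃ q : ℕ → Polynomial ℝ, Tendsto (fun n => pl (q n)) atTop (𝓝 g) := by
  obtain ⟨u, hu, hl⟩ := mem_closure_iff_seq_limit.1 (dense_pl g)
  choose q hq using hu
  refine ⟨q, ?_⟩
  simpa only [hq] using hl

private theorem base_anti (q : Polynomial ℝ) :
    ∃ p : Polynomial ℝ, Polynomial.derivative p = q := by
  induction q using Polynomial.induction_on' with
  | add p q hp hq =>
    obtain ⟨a, rfl⟩ := hp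
    obtain ⟨b, rfl⟩ := hq
    exact ⟨a + b, Polynomial.derivative_add⟩
  | monomial n a =>
    refine ⟨Polynomial.monomial (n + 1) (a / (n + 1)), ?_⟩
    rw [Polynomial.derivative_monomial_succ, div_mul_cancel₀]
    positivity

private theorem base_anti' (q : Polynomial ℝ) (c : ℝ) :
    ∃ p : Polynomial ℝ, pl p = cst c + prim (pl q) ∧ Polynomial.derivative p = q := by
  obtain ⟨p, hp⟩ := base_anti q
  have hd : Polynomial.derivative (p + Polynomial.C (c - p.eval 0)) = q := by
    rw [Polynomial.derivative_add, Polynomial.derivative_C, add_zero, hp]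
  refine ⟨p + Polynomial.C (c - p.eval 0), ?_, hd⟩
  have h1 := isD_iff.1 (isD_pl (p + Polynomial.C (c - p.eval 0)))
  have h2 : pl (p + Polynomial.C (c - p.eval 0)) 0 = c := by
    rw [pl_apply]
    simp
  rw [h2, hd] at h1
  exact h1

private theorem base_approx {f g : B} (h : IsD f g) (q : ℕ → Polynomial ℝ)
    (hq : Tendsto (fun n => pl (q n)) atTop (𝓝 g)) : ∃ p : ℕ → Polynomial ℝ,
      Tendsto (fun n => pl (p n)) atTop (𝓝 f) ∧ ∀ n, Polynomial.derivative (p n) = q n := by
  choose p hp1 hp2 using fun n => base_anti' (q n) (f 0)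
  refine ⟨p, ?_, hp2⟩
  have h1 : Tendsto (fun n => cst (f 0) + prim (pl (q n))) atTop (𝓝 (cst (f 0) + prim g)) :=
    tendsto_const_nhds.add ((prim.continuous.tendsto g).comp hq)
  rw [← isD_iff.1 h] at h1
  simpa only [hp1] using h1

/-- approximation in `C¹` -/
theorem IsD.approx {f g : B} (h : IsD f g) : ∃ p : ℕ → Polynomial ℝ,
    Tendsto (fun n => pl (p n)) atTop (𝓝 f) ∧
      Tendsto (fun n => pl (Polynomial.derivative (p n))) atTop (𝓝 g) := by
  obtain ⟨q, hq⟩ := base_seq g
  exact base_approx h q hq |>.imp fun p hp => ⟨hp.1, by simpa only [hp.2] using hq⟩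

/-- approximation in `C²` -/
theorem IsD.approx₂ {f g h : B} (h1 : IsD f g) (h2 : IsD g h) : ∃ p : ℕ → Polynomial ℝ,
    Tendsto (fun n => pl (p n)) atTop (𝓝 f) ∧
      Tendsto (fun n => pl (Polynomial.derivative (p n))) atTop (𝓝 g) ∧
      Tendsto (fun n => pl (Polynomial.derivative (Polynomial.derivative (p n)))) atTop (𝓝 h) := by
  obtain ⟨q, hq1, hq2⟩ := h2.approx
  obtain ⟨p, hp1, hp2⟩ := base_approx h1 q hq1
  exact ⟨p, hp1, by simpa only [hp2] using hq1, by simpa only [hp2] using hq2⟩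

theorem Sm.isD {f : B} (h : Sm f) : IsD f (Dv f) := h 0

theorem Sm.dv {f : B} (h : Sm f) : Sm (Dv f) := fun k => h (k + 1)

theorem sm_of_tower (f : ℕ → B) (h : ∀ k, IsD (f k) (f (k + 1))) :
    Sm (f 0) ∧ ∀ k, Dv^[k] (f 0) = f k := by
  have key : ∀ k, Dv^[k] (f 0) = f k := by
    intro k
    induction k with
    | zero => rfl
    | succ k ih => rw [Function.iterate_succ_apply', ih, (h k).dv]
  refine ⟨fun k => ?_, key⟩
  rw [key, key]
  exact h k

/-- coinduction -/
theorem sm_of_class (A : B → Prop) (h : ∀ f, A f → ∃ g, IsD f g ∧ A g) {f : B} (hf : A f) :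
    Sm f := by
  have step : ∀ f, A f → IsD f (Dv f) ∧ A (Dv f) := by
    intro f hf
    obtain ⟨g, hg, hA⟩ := h f hf
    rw [hg.dv]
    exact ⟨hg, hA⟩
  have key : ∀ k, A (Dv^[k] f) := by
    intro k
    induction k with
    | zero => exact hf
    | succ k ih =>
      rw [Function.iterate_succ_apply']
      exact (step _ ih).2
  intro k
  rw [Function.iterate_succ_apply']
  exact (step _ (key k)).1

theorem sm_cst (c : ℝ) : Sm (cst c) := by
  refine sm_of_class (fun f => ∃ c, f = cst c) ?_ ⟨c, rfl⟩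
  rintro f ⟨c, rfl⟩
  exact ⟨0, isD_cst c, 0, (map_zero cst).symm⟩

theorem dv_cst (c : ℝ) : Dv (cst c) = 0 := (isD_cst c).dv

private theorem base_mu_le (f : B) (v : I) : mu f ≤ f v :=
  ciInf_le (isCompact_range f.continuous).bddBelow v

theorem continuous_mu : Continuous mu := by
  have key : ∀ f g : B, mu f ≤ mu g + dist f g := by
    intro f g
    rw [← sub_le_iff_le_add]
    refine le_ciInf fun v => ?_
    have h1 := base_mu_le f v
    have h2 := f.dist_apply_le_dist (g := g) v
    rw [Real.dist_eq] at h2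
    have h3 := (abs_le.1 h2).2
    linarith
  exact (LipschitzWith.of_le_add key).continuous

theorem le_mu {f : B} {c : ℝ} : c ≤ mu f ↔ ∀ v, c ≤ f v := by
  exact ⟨fun h v => h.trans (base_mu_le f v), fun h => le_ciInf h⟩

theorem mu_pos {f : B} (h : ∀ v, 0 < f v) : 0 < mu f := by
  obtain ⟨v, -, hv⟩ := isCompact_univ.exists_isMinOn (univ_nonempty (α := I))
    f.continuous.continuousOn
  exact lt_of_lt_of_le (h v) (le_mu.2 fun w => hv (mem_univ w))

/-- the point `sin² x` -/
def sq (x : ℝ) : I := ⟨Real.sin x ^ 2, sq_nonneg _, Real.sin_sq_le_one x⟩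

@[simp] theorem sq_coe (x : ℝ) : (sq x : ℝ) = Real.sin x ^ 2 := rfl

theorem continuous_sq : Continuous sq := by
  exact (Real.continuous_sin.pow 2).subtype_mk _

theorem sq_zero : sq 0 = 0 := by
  ext
  simp

theorem sq_neg (x : ℝ) : sq (-x) = sq x := by
  ext
  simp

theorem sq_refl (x : ℝ) : sq (Real.pi - x) = sq x := by
  ext
  simp

theorem IsD.hasDerivAt_sq {f g : B} (h : IsD f g) (x : ℝ) :
    HasDerivAt (fun x => f (sq x)) (2 * Real.sin x * Real.cos x * g (sq x)) x := by
  have h1 : HasDerivAt (fun x => Real.sin x ^ 2) (2 * Real.sin x * Real.cos x) x := by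
    have := (Real.hasDerivAt_sin x).fun_pow 2
    simpa using this
  have h2 := (h (sq x) (sq x).2).comp_hasDerivAt x (h := fun x => Real.sin x ^ 2) h1
    (Eventually.of_forall fun y => (sq y).2)
  have e : (ex f ∘ fun x => Real.sin x ^ 2) = fun x => f (sq x) := by
    funext y
    exact ex_coe f (sq y)
  rw [e, ex_coe, mul_comm] at h2
  exact h2

private theorem base_of_sq {S : Set I} (hS : IsClosed S)
    (h : ∀ x ∈ Ioo 0 (Real.pi / 2), sq x ∈ S) (v : I) : v ∈ S := by
  have hpi : (0 : ℝ) ≠ Real.pi / 2 := by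
    have := Real.pi_pos
    linarith
  have h1 : closure (Ioo 0 (Real.pi / 2)) ⊆ sq ⁻¹' S :=
    closure_minimal h (hS.preimage continuous_sq)
  rw [closure_Ioo hpi] at h1
  have h2 : √(v : ℝ) ≤ 1 := Real.sqrt_le_one.2 v.2.2
  have h3 : sq (Real.arcsin √(v : ℝ)) = v := by
    ext
    rw [sq_coe, Real.sin_arcsin (by linarith [Real.sqrt_nonneg (v : ℝ)]) h2, Real.sq_sqrt v.2.1]
  rw [← h3]
  exact h1 ⟨Real.arcsin_nonneg.2 (Real.sqrt_nonneg _), Real.arcsin_le_pi_div_two _⟩

/-- a bound on the open quarter period is a bound of the norm -/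
theorem norm_le_of_sq {f : B} {C : ℝ} (h : ∀ x ∈ Ioo 0 (Real.pi / 2), |f (sq x)| ≤ C) :
    ‖f‖ ≤ C := by
  have key := base_of_sq (S := {v : I | |f v| ≤ C})
    (isClosed_le f.continuous.abs continuous_const) h
  exact (ContinuousMap.norm_le _ (le_trans (abs_nonneg _) (key 0))).2 key

theorem le_mu_of_sq {f : B} {c : ℝ} (h : ∀ x ∈ Ioo 0 (Real.pi / 2), c ≤ f (sq x)) :
    c ≤ mu f := by
  exact le_mu.2 (base_of_sq (S := {v : I | c ≤ f v})
    (isClosed_le continuous_const f.continuous) h)

end Vale.Agent.P244B
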