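import Vale.Agent.P244B.Flow
import Vale.Agent.P244B.Apri2

/-! Bounded Ricci curvature gives bounds of the unknowns. -/

open Set Filter
open scoped ContDiff Topology unitInterval

noncomputable section

namespace Vale.Agent.P244B

open Vale.Agent.P244

theorem blow {q : ℕ} (hq : 2 ≤ q) {J : Set ℝ} {U : ℝ → Fin 5 → B} (h : Cl q J U) {T : ℝ}
    (hT : 0 < T) {ϑ : ℝ → ℝ} (h0 : U 0 4 0 = 0)
    (hϑ : ∀ θ ∈ J, U θ 4 0 ∈ Ico 0 T ∧ ϑ (U θ 4 0) = θ ∧ (0 < θ → 0 < U θ 4 0))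
    (hS : IsSol q T (mkPre q fun t => U (ϑ t))) (hR : RicBdd q T (mkPre q fun t => U (ϑ t))) :
    BddAbove J ∧ ∃ R ε : ℝ, 0 < ε ∧ ∀ θ ∈ J, ‖U θ‖ ≤ R ∧ ε ≤ mu (eta (U θ 0)) := by
  obtain ⟨C, ε, hε, hz⟩ := apri_zero hT hS hR
  obtain ⟨C', ha⟩ := apriori hq hT hS hR
  have z : ∀ θ ∈ J, ε ≤ Real.exp (U θ 3 0) ∧ Real.exp (U θ 3 0) ≤ C ∧ ∀ x ∈ Icc 0 Real.pi,
      ε ≤ eta (U θ 0) (sq x) ∧ eta (U θ 0) (sq x) ≤ C ∧
        |Fh (U θ 1) (U θ 2) (sq x) + U θ 3 0| ≤ C := fun θ hθ => by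
    have := hz _ (hϑ θ hθ).1
    simp only [mkPre, (hϑ θ hθ).2.1] at this
    exact this
  have hc : ∀ {k : ℝ} {M : ℝ}, |k| ≤ M → ‖cst k‖ ≤ M := fun hk => norm_le_of_sq fun _ _ => hk
  refine ⟨⟨T / (ε ^ 2 / 4), fun θ hθ => ?_⟩, ‖U 0‖ + |C'| + 2 * C + |Real.log ε| + T, ε, hε,
    fun θ hθ => ⟨?_, le_mu_of_sq fun x hx =>
      ((z θ hθ).2.2 x ⟨hx.1.le, by linarith [hx.2, Real.pi_pos]⟩).1⟩⟩
  · have hd : ∀ x ∈ interior J, HasDerivAt (fun θ => U θ 4 0) (1 / 4 * Real.exp (2 * U x 3 0)) x :=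
      fun x hx => (h.eqt x (interior_subset hx)).hasDerivAt (mem_interior_iff_mem_nhds.1 hx)
    have := h.ti.convex.mul_sub_le_image_sub_of_le_deriv (f := fun θ => U θ 4 0) (C := ε ^ 2 / 4)
      (fun x hx => (h.eqt x hx).continuousWithinAt)
      (fun x hx => (hd x hx).differentiableAt.differentiableWithinAt)
      (fun x hx => by
        rw [(hd x hx).deriv, two_mul, Real.exp_add]
        have := (z x (interior_subset hx)).1
        nlinarith) 0 h.ti.zero θ hθ (h.ti.nonneg θ hθ)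
    rw [h0] at this
    rw [le_div_iff₀ (by positivity)]
    linarith [(hϑ θ hθ).1.2]
  obtain ⟨z1, z2, z3⟩ := z θ hθ
  have hC : 0 < C := (Real.exp_pos _).trans_le z2
  have n0 := norm_nonneg (U 0)
  have n1 := abs_nonneg C'
  have n2 := abs_nonneg (Real.log ε)
  rcases (h.ti.nonneg θ hθ).eq_or_lt with rfl | hp
  · linarith
  have b3 : |U θ 3 0| ≤ C + |Real.log ε| := by
    have e1 := Real.add_one_le_exp (U θ 3 0)
    have e2 := (Real.log_le_iff_le_exp hε).2 z1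
    exact abs_le.2 ⟨by linarith [neg_abs_le (Real.log ε)], by linarith⟩
  have b2 : |U θ 2 0| ≤ 2 * C + |Real.log ε| := by
    have e1 := (z3 0 ⟨le_rfl, Real.pi_pos.le⟩).2.2
    have e2 : Fh (U θ 1) (U θ 2) (sq 0) = U θ 2 0 := by
      rw [sq_zero]
      show U θ 2 0 + prim (U θ 1) 0 = _
      simp [prim_apply]
    rw [e2] at e1
    have := abs_le.1 e1
    have := abs_le.1 b3
    exact abs_le.2 ⟨by linarith, by linarith⟩
  have b4 : |U θ 4 0| ≤ T := by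
    rw [abs_of_nonneg (hϑ θ hθ).1.1]
    exact (hϑ θ hθ).1.2.le
  have a : ∀ x ∈ Ioo 0 (Real.pi / 2), |U θ 1 (sq x)| ≤ |C'| ∧ |U θ 0 (sq x)| ≤ |C'| := by
    intro x hx
    have := ha _ ⟨(hϑ θ hθ).2.2 hp, (hϑ θ hθ).1.2⟩ x hx
    rw [mkPre_a, mkPre_Fx] at this
    simp only [(hϑ θ hθ).2.1] at this
    obtain ⟨a1, a2⟩ := this
    obtain ⟨s1, s2, -⟩ := apri2_sin hx
    have p1 : 0 < Real.sin x * Real.cos x := mul_pos s1 s2
    have p2 : 0 < Real.sin x ^ 2 * Real.cos x := by positivity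
    rw [show 2 * Real.sin x * Real.cos x * U θ 1 (sq x) =
      2 * U θ 1 (sq x) * (Real.sin x * Real.cos x) by ring, abs_mul, abs_of_pos p1,
      mul_le_mul_iff_left₀ p1, abs_mul, abs_two] at a1
    rw [show Real.cos x * (1 + Real.sin x ^ 2 * U θ 0 (sq x)) - Real.cos x =
      U θ 0 (sq x) * (Real.sin x ^ 2 * Real.cos x) by ring, abs_mul, abs_of_pos p2,
      mul_le_mul_iff_left₀ p2] at a2
    exact ⟨by linarith [abs_nonneg (U θ 1 (sq x)), le_abs_self C'], a2.trans (le_abs_self _)⟩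
  refine (pi_norm_le_iff_of_nonneg (by positivity)).2 fun i => ?_
  fin_cases i
  · exact norm_le_of_sq fun x hx => (a x hx).2.trans (by linarith)
  · exact norm_le_of_sq fun x hx => (a x hx).1.trans (by linarith)
  · exact (congrArg norm (h.c2 θ hθ)).trans_le (hc (by linarith))
  · exact (congrArg norm (h.c3 θ hθ)).trans_le (hc (by linarith))
  · exact (congrArg norm (h.c4 θ hθ)).trans_le (hc (by linarith))

end Vale.Agent.P244B
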