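import Vale.Agent.P244B.Loc

/-! The maximal flow on an open set `μ > 0`. -/

open Set Filter MeasureTheory
open scoped Topology

noncomputable section

namespace Vale.Agent.P244B

/-- `J` is an interval `[0, Θ)`, `0 < Θ ≤ ∞` -/
structure TI (J : Set ℝ) : Prop where
  zero : (0 : ℝ) ∈ J
  nonneg : ∀ t ∈ J, 0 ≤ t
  sub : ∀ t ∈ J, Icc 0 t ⊆ J
  more : ∀ t ∈ J, ∃ t' ∈ J, t < t'

theorem TI.convex {J : Set ℝ} (h : TI J) : Convex ℝ J := by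
  refine Set.OrdConnected.convex ⟨fun x hx y hy z hz => ?_⟩
  exact h.sub y hy ⟨(h.nonneg x hx).trans hz.1, hz.2⟩

theorem TI.uniqueDiffOn {J : Set ℝ} (h : TI J) : UniqueDiffOn ℝ J := by
  refine uniqueDiffOn_convex h.convex ?_
  obtain ⟨t, ht, h0⟩ := h.more 0 h.zero
  refine ⟨t / 2, mem_interior_iff_mem_nhds.2 ?_⟩
  exact mem_of_superset (Icc_mem_nhds (by linarith) (by linarith)) (h.sub t ht)

theorem TI.nhds {J : Set ℝ} (h : TI J) {t : ℝ} (ht : t ∈ J) (h0 : 0 < t) : J ∈ 𝓝 t := by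
  obtain ⟨t', ht', h1⟩ := h.more t ht
  exact mem_of_superset (Icc_mem_nhds h0 h1) (h.sub t' ht')

/-- near each point, `J` looks like a compact interval -/
theorem TI.loc {J : Set ℝ} (h : TI J) {t : ℝ} (ht : t ∈ J) :
    ∃ T ∈ J, t < T ∧ 𝓝[J] t = 𝓝[Icc 0 T] t := by
  obtain ⟨T, hT, h1⟩ := h.more t ht
  refine ⟨T, hT, h1, le_antisymm ?_ (nhdsWithin_mono _ (h.sub T hT))⟩
  refine nhdsWithin_le_iff.2 ?_
  filter_upwards [self_mem_nhdsWithin, mem_nhdsWithin_of_mem_nhds (Iio_mem_nhds h1)] with x hx hx'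
  exact ⟨h.nonneg x hx, le_of_lt hx'⟩

variable {E F : Type} [NormedAddCommGroup E] [NormedSpace ℝ E] [CompleteSpace E]
  [NormedAddCommGroup F] [NormedSpace ℝ F]
  {P : ℝ → E →L[ℝ] E} {K : ℝ → F →L[ℝ] E} {C : ℝ}

/-- a solution that stays in the region `ε < μ` -/
structure MaxFSol (P : ℝ → E →L[ℝ] E) (K : ℝ → F →L[ℝ] E) (G : ℝ → E → F) (μ : E → ℝ) (u : E)
    (T ε : ℝ) (U : ℝ → E) : Prop where
  pos : 0 < ε
  mild : Mild P K (G ε) T U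
  init : U 0 = u
  reg : ∀ θ ∈ Icc 0 T, ε < μ (U θ)

/-- the existence interval -/
def maxFJ (P : ℝ → E →L[ℝ] E) (K : ℝ → F →L[ℝ] E) (G : ℝ → E → F) (μ : E → ℝ) (u : E) : Set ℝ :=
  {T | 0 ≤ T ∧ ∃ q : ℝ × (ℝ → E), MaxFSol P K G μ u T q.1 q.2}

open Classical in
/-- the flow -/
def maxFPhi (P : ℝ → E →L[ℝ] E) (K : ℝ → F →L[ℝ] E) (G : ℝ → E → F) (μ : E → ℝ) (u : E)
    (θ : ℝ) : E :=
  if h : θ ∈ maxFJ P K G μ u then h.2.choose.2 θ else u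

variable {G : ℝ → E → F} {μ : E → ℝ}

omit [CompleteSpace E] in
theorem MaxFSol.mono {u : E} {T T' ε : ℝ} {U : ℝ → E} (h : MaxFSol P K G μ u T ε U)
    (hT : T' ≤ T) : MaxFSol P K G μ u T' ε U :=
  ⟨h.pos, h.mild.mono hT, h.init, fun θ hθ => h.reg θ ⟨hθ.1, hθ.2.trans hT⟩⟩

omit [CompleteSpace E] in
theorem MaxFSol.uniq (hK : Ker P K C) (hG : ∀ ε, 0 < ε → BL (G ε))
    (hc : ∀ ε ε' u, 0 < ε → 0 < ε' → ε ≤ μ u → ε' ≤ μ u → G ε u = G ε' u)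
    {u : E} {T ε ε' : ℝ} {U U' : ℝ → E} (h : MaxFSol P K G μ u T ε U)
    (h' : MaxFSol P K G μ u T ε' U') : EqOn U U' (Icc 0 T) := by
  have hm : 0 < min ε ε' := lt_min h.pos h'.pos
  have h1 : Mild P K (G (min ε ε')) T U := h.mild.congrG fun θ hθ =>
    hc _ _ _ hm h.pos ((min_le_left _ _).trans (h.reg θ hθ).le) (h.reg θ hθ).le
  have h2 : Mild P K (G (min ε ε')) T U' := h'.mild.congrG fun θ hθ =>
    hc _ _ _ hm h'.pos ((min_le_right _ _).trans (h'.reg θ hθ).le) (h'.reg θ hθ).le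
  exact Mild.unique hK (hG _ hm) h1 h2 (h.init.trans h'.init.symm)

omit [CompleteSpace E] in
theorem MaxFSol.mem {u : E} {T ε θ : ℝ} {U : ℝ → E} (h : MaxFSol P K G μ u T ε U)
    (hθ : θ ∈ Icc 0 T) : θ ∈ maxFJ P K G μ u :=
  ⟨hθ.1, (ε, U), h.mono hθ.2⟩

omit [CompleteSpace E] in
theorem MaxFSol.phi (hK : Ker P K C) (hG : ∀ ε, 0 < ε → BL (G ε))
    (hc : ∀ ε ε' u, 0 < ε → 0 < ε' → ε ≤ μ u → ε' ≤ μ u → G ε u = G ε' u)
    {u : E} {T ε θ : ℝ} {U : ℝ → E} (h : MaxFSol P K G μ u T ε U)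
    (hθ : θ ∈ Icc 0 T) : maxFPhi P K G μ u θ = U θ := by
  have hm := h.mem hθ
  rw [maxFPhi, dif_pos hm]
  exact MaxFSol.uniq hK hG hc hm.2.choose_spec (h.mono hθ.2) ⟨hθ.1, le_rfl⟩

omit [CompleteSpace E] in
theorem maxF_ext (hμ : Continuous μ) {T T' ε : ℝ} {V : ℝ → E} (hε : 0 < ε) (hT : 0 ≤ T)
    (hT' : T < T') (hV : Mild P K (G ε) T' V) (hr : ∀ θ ∈ Icc 0 T, ε < μ (V θ)) :
    ∃ T'', T < T'' ∧ MaxFSol P K G μ (V 0) T'' ε V := by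
  have h1 : ContinuousWithinAt (fun θ => μ (V θ)) (Icc 0 T') T :=
    hμ.continuousAt.comp_continuousWithinAt (hV.1 T ⟨hT, hT'.le⟩)
  have h2 : ∀ᶠ θ in 𝓝[Icc 0 T'] T, ε < μ (V θ) :=
    h1.eventually (lt_mem_nhds (hr T ⟨hT, le_rfl⟩))
  obtain ⟨δ, hδ, h3⟩ := Metric.mem_nhdsWithin_iff.1 h2
  refine ⟨min T' (T + δ / 2), lt_min hT' (by linarith), hε, hV.mono (min_le_left _ _), rfl,
    fun θ hθ => ?_⟩
  rcases le_total θ T with h | h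
  · exact hr θ ⟨hθ.1, h⟩
  · refine h3 ⟨?_, hθ.1, hθ.2.trans (min_le_left _ _)⟩
    have := hθ.2.trans (min_le_right _ _)
    rw [Metric.mem_ball, Real.dist_eq, abs_lt]
    constructor <;> linarith

theorem MaxFSol.more (hK : Ker P K C) (hG : ∀ ε, 0 < ε → BL (G ε)) (hμ : Continuous μ)
    {u : E} {T ε : ℝ} {U : ℝ → E} (hT : 0 ≤ T) (h : MaxFSol P K G μ u T ε U) :
    ∃ T' V, T < T' ∧ MaxFSol P K G μ u T' ε V := by
  obtain ⟨δ, hδ, h1⟩ := mild_local hK (hG ε h.pos) ‖U T‖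
  obtain ⟨W, hW, hW0, -⟩ := h1 ⊤ ⊤ invt_top (U T) trivial le_rfl
  have h2 := Mild.concat hK (hG ε h.pos).continuous hT hδ.le h.mild hW hW0
  obtain ⟨T', hT', h3⟩ := maxF_ext (G := G) hμ h.pos hT (by linarith : T < T + δ) h2
    (fun θ hθ => by simpa [hθ.2] using h.reg θ hθ)
  have e : (if (0 : ℝ) ≤ T then U 0 else W (0 - T)) = u := by rw [if_pos hT, h.init]
  rw [e] at h3
  exact ⟨T', _, hT', h3⟩

theorem MaxFSol.near (hK : Ker P K C) (hG : ∀ ε, 0 < ε → BL (G ε)) (hμ : Continuous μ)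
    {u : E} {T ε η : ℝ} {U : ℝ → E} (hT : 0 ≤ T) (h : MaxFSol P K G μ u T ε U) (hη : 0 < η) :
    ∀ᶠ u' in 𝓝 u, ∃ V, MaxFSol P K G μ u' T ε V ∧ ∀ θ ∈ Icc 0 T, ‖V θ - U θ‖ ≤ η := by
  have hk : IsCompact (U '' Icc 0 T) := isCompact_Icc.image_of_continuousOn h.mild.1
  have ho : IsOpen {x | ε < μ x} := isOpen_lt continuous_const hμ
  obtain ⟨δ, hδ, h1⟩ := hk.exists_thickening_subset_open ho (by
    rintro _ ⟨θ, hθ, rfl⟩
    exact h.reg θ hθ)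
  have h2 := mild_near hK (hG ε h.pos) hT h.mild (lt_min hη (half_pos hδ))
  rw [h.init] at h2
  filter_upwards [h2] with u' ⟨V, hV, hV0, hd⟩
  refine ⟨V, ⟨h.pos, hV, hV0, fun θ hθ => h1 ?_⟩, fun θ hθ => (hd θ hθ).trans (min_le_left _ _)⟩
  refine Metric.mem_thickening_iff.2 ⟨U θ, mem_image_of_mem _ hθ, ?_⟩
  rw [dist_eq_norm]
  have := (hd θ hθ).trans (min_le_right _ _)
  linarith

theorem maxflow (hK : Ker P K C) (G : ℝ → E → F) (hG : ∀ ε, 0 < ε → BL (G ε)) (μ : E → ℝ)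
    (hμ : Continuous μ)
    (hc : ∀ ε ε' u, 0 < ε → 0 < ε' → ε ≤ μ u → ε' ≤ μ u → G ε u = G ε' u) :
    ∃ (J : E → Set ℝ) (Φ : E → ℝ → E),
      (∀ u, 0 < μ u → TI (J u) ∧ Φ u 0 = u) ∧
      (∀ u, ∀ T ∈ J u, ∃ ε, 0 < ε ∧ Mild P K (G ε) T (Φ u) ∧ ∀ θ ∈ Icc 0 T, ε ≤ μ (Φ u θ)) ∧
      (∀ u, 0 < μ u → BddAbove (J u) → ∀ R ε : ℝ, 0 < ε →
        ¬ ∀ θ ∈ J u, ‖Φ u θ‖ ≤ R ∧ ε ≤ μ (Φ u θ)) ∧
      (∀ u, ∀ T ∈ J u, ∀ᶠ u' in 𝓝 u, T ∈ J u') ∧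
      ContinuousOn (fun p : E × ℝ => Φ p.1 p.2) {p | p.2 ∈ J p.1} := by
  have hsub : ∀ u, ∀ t ∈ maxFJ P K G μ u, Icc 0 t ⊆ maxFJ P K G μ u := by
    rintro u t ⟨-, q, hq⟩ θ hθ
    exact hq.mem hθ
  have hmore : ∀ u, ∀ t ∈ maxFJ P K G μ u, ∃ t' ∈ maxFJ P K G μ u, t < t' := by
    rintro u t ⟨h0, q, hq⟩
    obtain ⟨T', V, h1, h2⟩ := hq.more hK hG hμ h0
    exact ⟨T', h2.mem ⟨h0.trans h1.le, le_rfl⟩, h1⟩
  have hz : ∀ u, 0 < μ u → MaxFSol P K G μ u 0 (μ u / 2) fun _ => u := fun u hu =>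
    ⟨half_pos hu, mild_zero hK _, rfl, fun _ _ => half_lt_self hu⟩
  have hsol : ∀ u, ∀ T ∈ maxFJ P K G μ u, ∃ ε, MaxFSol P K G μ u T ε (maxFPhi P K G μ u) := by
    rintro u T ⟨h0, q, hq⟩
    have e : EqOn (maxFPhi P K G μ u) q.2 (Icc 0 T) := fun θ hθ => hq.phi hK hG hc hθ
    refine ⟨q.1, hq.pos, hq.mild.congr e, (e ⟨le_rfl, h0⟩).trans hq.init, fun θ hθ => ?_⟩
    rw [e hθ]
    exact hq.reg θ hθ
  refine ⟨maxFJ P K G μ, maxFPhi P K G μ, fun u hu => ⟨⟨(hz u hu).mem ⟨le_rfl, le_rfl⟩,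
    fun t ht => ht.1, hsub u, hmore u⟩, (hz u hu).phi hK hG hc ⟨le_rfl, le_rfl⟩⟩,
    fun u T hT => ?_, fun u hu hb R ε hε hR => ?_, fun u T hT => ?_, ?_⟩
  · obtain ⟨ε, h⟩ := hsol u T hT
    exact ⟨ε, h.pos, h.mild, fun θ hθ => (h.reg θ hθ).le⟩
  · have h0 : (0 : ℝ) ∈ maxFJ P K G μ u := (hz u hu).mem ⟨le_rfl, le_rfl⟩
    set S := sSup (maxFJ P K G μ u) with hS
    have hS0 : 0 < S := by
      obtain ⟨t, ht, h1⟩ := hmore u 0 h0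
      exact h1.trans_le (le_csSup hb ht)
    have hin : ∀ θ ∈ Ico 0 S, θ ∈ maxFJ P K G μ u := fun θ hθ => by
      obtain ⟨t, ht, h1⟩ := exists_lt_of_lt_csSup ⟨0, h0⟩ hθ.2
      exact hsub u t ht ⟨hθ.1, h1.le⟩
    have hm : ∀ T' < S, Mild P K (G (ε / 2)) T' (maxFPhi P K G μ u) := fun T' hT' => by
      have h1 : max T' 0 ∈ maxFJ P K G μ u := hin _ ⟨le_max_right _ _, max_lt hT' hS0⟩
      obtain ⟨e, h⟩ := hsol u _ h1
      refine (h.mild.congrG fun θ hθ => ?_).mono (le_max_left _ _)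
      exact hc _ _ _ (half_pos hε) h.pos
        ((half_le_self hε.le).trans (hR θ (hsub u _ h1 hθ)).2) (h.reg θ hθ).le
    obtain ⟨T', V, h1, hV, e⟩ := mild_extend hK (hG _ (half_pos hε)) hS0 hm
      (fun θ hθ => (hR θ (hin θ hθ)).1)
    have h2 : ∀ θ ∈ Ico 0 S, ε ≤ μ (V θ) := fun θ hθ => by
      rw [e hθ]
      exact (hR θ (hin θ hθ)).2
    have h3 : ∀ θ ∈ Icc 0 S, ε ≤ μ (V θ) := by
      have h4 : ContinuousOn (fun θ => μ (V θ)) (closure (Ico 0 S)) := by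
        rw [closure_Ico hS0.ne]
        exact hμ.comp_continuousOn (hV.1.mono (Icc_subset_Icc_right h1.le))
      intro θ hθ
      rw [← closure_Ico hS0.ne] at hθ
      exact ContinuousWithinAt.closure_le hθ continuousWithinAt_const
        ((h4 θ hθ).mono subset_closure) h2
    obtain ⟨T'', h5, h6⟩ := maxF_ext (G := G) hμ (half_pos hε) hS0.le h1 hV
      (fun θ hθ => (half_lt_self hε).trans_le (h3 θ hθ))
    have h7 : V 0 = u := (e ⟨le_rfl, hS0⟩).trans ((hz u hu).phi hK hG hc ⟨le_rfl, le_rfl⟩)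
    rw [h7] at h6
    exact absurd (le_csSup hb (h6.mem ⟨hS0.le.trans h5.le, le_rfl⟩)) (not_le.2 h5)
  · obtain ⟨ε, h⟩ := hsol u T hT
    filter_upwards [h.near hK hG hμ hT.1 one_pos] with u' ⟨V, hV, _⟩
    exact hV.mem ⟨hT.1, le_rfl⟩
  · rintro ⟨u, T⟩ hT
    obtain ⟨T1, hT1, h1⟩ := hmore u T hT
    obtain ⟨e, h⟩ := hsol u T1 hT1
    refine Metric.tendsto_nhds.2 fun η hη => ?_
    have h2 := h.near hK hG hμ hT1.1 (half_pos hη)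
    have h3 : ∀ᶠ θ in 𝓝[Icc 0 T1] T, dist (maxFPhi P K G μ u θ) (maxFPhi P K G μ u T) < η / 2 :=
      Metric.tendsto_nhds.1 (h.mild.1 T ⟨hT.1, h1.le⟩) _ (half_pos hη)
    rw [eventually_nhdsWithin_iff] at h3
    have h4 : ∀ᶠ p : E × ℝ in 𝓝 (u, T), p.2 < T1 :=
      continuous_snd.continuousAt.eventually (gt_mem_nhds h1)
    have h5 := (continuous_fst.continuousAt (x := (u, T))).eventually h2
    have h6 := (continuous_snd.continuousAt (x := (u, T))).eventually h3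
    filter_upwards [self_mem_nhdsWithin, mem_nhdsWithin_of_mem_nhds h4,
      mem_nhdsWithin_of_mem_nhds h5, mem_nhdsWithin_of_mem_nhds h6] with p hp hp4 ⟨V, hV, hd⟩ hp6
    have hI : p.2 ∈ Icc 0 T1 := ⟨hp.1, hp4.le⟩
    rw [hV.phi hK hG hc hI]
    have h7 := hd _ hI
    have h8 := hp6 hI
    have h9 := dist_triangle (V p.2) (maxFPhi P K G μ u p.2) (maxFPhi P K G μ u T)
    rw [dist_eq_norm (V p.2) (maxFPhi P K G μ u p.2)] at h9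
    linarith

end Vale.Agent.P244B
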