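import Vale.Agent.P244B.Ex
import Vale.Agent.P244B.MaxF

/-! Smooth families of smooth functions. -/

open Set Filter
open scoped ContDiff Topology unitInterval

noncomputable section

namespace Vale.Agent.P244B

variable {J : Set ℝ} {u : ℝ → B}

theorem SmT.contDiffOn (h : SmT J u) : ContDiffOn ℝ ∞ u J := h.2 0

theorem SmT.dv (h : SmT J u) : SmT J fun θ => Dv (u θ) :=
  ⟨fun θ hθ => (h.1 θ hθ).dv, fun k => h.2 (k + 1)⟩

theorem SmT.congr (h : SmT J u) {w : ℝ → B} (e : EqOn w u J) : SmT J w :=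
  ⟨fun θ hθ => by rw [e hθ]; exact h.1 θ hθ, fun k => (h.2 k).congr fun θ hθ => by rw [e hθ]⟩

theorem SmT.of_loc (hJ : TI J) (h : ∀ T ∈ J, 0 < T → SmT (Icc 0 T) u) : SmT J u := by
  refine ⟨fun θ hθ => ?_, fun k θ hθ => ?_⟩
  · obtain ⟨T, hT, h1, -⟩ := hJ.loc hθ
    have h0 := hJ.nonneg θ hθ
    exact (h T hT (h0.trans_lt h1)).1 θ ⟨h0, h1.le⟩
  · obtain ⟨T, hT, h1, h2⟩ := hJ.loc hθ
    have h0 := hJ.nonneg θ hθ
    refine ((h T hT (h0.trans_lt h1)).2 k θ ⟨h0, h1.le⟩).mono_of_mem_nhdsWithin ?_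
    rw [h2]
    exact self_mem_nhdsWithin

theorem Joint_good (k : ℕ) : ∀ {ι : Type} [Fintype ι] {G : (ι → B) → B} (_ : Good G)
    {U : ℝ → ι → B} (_ : ∀ i, SmT J fun θ => U θ i),
    (∀ θ ∈ J, IsD (Dv^[k] (G (U θ))) (Dv^[k + 1] (G (U θ)))) ∧
      ContDiffOn ℝ ∞ (fun θ => Dv^[k] (G (U θ))) J := by
  induction k with
  | zero =>
    intro ι _ G hG U hU
    obtain ⟨G', -, -, hd⟩ := hG.deriv
    refine ⟨fun θ hθ => ?_, hG.contDiff.comp_contDiffOn (contDiffOn_pi.2 fun i => (hU i).contDiffOn)⟩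
    have h1 : IsD (G (U θ)) (G' (Sum.elim (U θ) fun i => Dv (U θ i))) :=
      hd (Sum.elim (U θ) fun i => Dv (U θ i)) fun i => ((hU i).1 θ hθ).isD
    exact h1.congr h1.dv.symm
  | succ k ih =>
    intro ι _ G hG U hU
    obtain ⟨G', hG', -, hd⟩ := hG.deriv
    have h1 : ∀ θ ∈ J, Dv (G (U θ)) = G' (Sum.elim (U θ) fun i => Dv (U θ i)) := fun θ hθ =>
      IsD.dv (hd (Sum.elim (U θ) fun i => Dv (U θ i)) fun i => ((hU i).1 θ hθ).isD)
    have h2 := ih hG' (U := fun θ => Sum.elim (U θ) fun i => Dv (U θ i)) fun i => by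
      cases i with
      | inl i => exact hU i
      | inr i => exact (hU i).dv
    refine ⟨fun θ hθ => ?_, h2.2.congr fun θ hθ => ?_⟩
    · rw [Function.iterate_succ_apply, Function.iterate_succ_apply Dv (k + 1), h1 θ hθ]
      exact h2.1 θ hθ
    · rw [Function.iterate_succ_apply, h1 θ hθ]

theorem SmT.good {ι : Type} [Fintype ι] {G : (ι → B) → B} (hG : Good G) {U : ℝ → ι → B}
    (hU : ∀ i, SmT J fun θ => U θ i) : SmT J fun θ => G (U θ) :=
  ⟨fun θ hθ k => (Joint_good k hG hU).1 θ hθ, fun k => (Joint_good k hG hU).2⟩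

theorem Sm.good {ι : Type} [Fintype ι] {G : (ι → B) → B} (hG : Good G) {U : ι → B}
    (hU : ∀ i, Sm (U i)) : Sm (G U) :=
  (SmT.good (J := univ) hG (U := fun _ => U)
    fun i => ⟨fun _ _ => hU i, fun _ => contDiffOn_const⟩).1 0 (mem_univ _)

/-- composition with a smooth change of time -/
theorem SmT.comp (h : SmT J u) {J' : Set ℝ} {ϑ : ℝ → ℝ} (hϑ : ContDiffOn ℝ ∞ ϑ J')
    (hm : MapsTo ϑ J' J) : SmT J' fun t => u (ϑ t) :=
  ⟨fun _ ht => h.1 _ (hm ht), fun k => (h.2 k).comp hϑ hm⟩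

/-- the time derivative of a smooth family is a smooth family -/
theorem SmT.dt (hJ : UniqueDiffOn ℝ J) (h : SmT J u) : SmT J (derivWithin u J) := by
  have hd : ∀ k, ∀ θ ∈ J, HasDerivWithinAt (fun θ => Dv^[k] (u θ))
      (derivWithin (fun θ => Dv^[k] (u θ)) J θ) J θ := fun k θ hθ =>
    ((h.2 k).differentiableOn (by simp) θ hθ).hasDerivWithinAt
  have ht : ∀ θ ∈ J, ∀ k, IsD (derivWithin (fun θ => Dv^[k] (u θ)) J θ)
      (derivWithin (fun θ => Dv^[k + 1] (u θ)) J θ) := by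
    intro θ hθ k
    have h1 := ((cst.comp ev0).hasFDerivAt.comp_hasDerivWithinAt θ (hd k θ hθ)).add
      (prim.hasFDerivAt.comp_hasDerivWithinAt θ (hd (k + 1) θ hθ))
    have h2 : HasDerivWithinAt (fun θ => Dv^[k] (u θ)) _ J θ :=
      h1.congr (fun s hs => isD_iff.1 (h.1 s hs k)) (isD_iff.1 (h.1 θ hθ k))
    exact isD_iff.2 ((hJ θ hθ).eq_deriv _ (hd k θ hθ) h2)
  refine ⟨fun θ hθ => (sm_of_tower _ (ht θ hθ)).1, fun k => ?_⟩
  refine ((h.2 k).derivWithin hJ (by exact_mod_cast le_top)).congr fun θ hθ => ?_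
  exact (sm_of_tower _ (ht θ hθ)).2 k

open Asymptotics in
theorem Joint_fderiv {t x : ℝ} {u' g : B} (hu : HasDerivWithinAt u u' J t) (hg : IsD (u t) g)
    (hx : x ∈ Icc (0 : ℝ) 1) :
    HasFDerivWithinAt (fun p : ℝ × ℝ => ex (u p.1) p.2)
      (ex u' x • ContinuousLinearMap.fst ℝ ℝ ℝ + ex g x • ContinuousLinearMap.snd ℝ ℝ ℝ)
      (J ×ˢ Icc 0 1) (t, x) := by
  have t1 : Tendsto Prod.fst (𝓝[J ×ˢ Icc (0 : ℝ) 1] (t, x)) (𝓝[J] t) :=
    continuous_fst.continuousWithinAt.tendsto_nhdsWithin fun _ hp => hp.1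
  have t2 : Tendsto Prod.snd (𝓝[J ×ˢ Icc (0 : ℝ) 1] (t, x)) (𝓝[Icc 0 1] x) :=
    continuous_snd.continuousWithinAt.tendsto_nhdsWithin fun _ hp => hp.2
  have b1 : (fun p : ℝ × ℝ => p.1 - t) =O[𝓝[J ×ˢ Icc (0 : ℝ) 1] (t, x)] fun p => p - (t, x) :=
    isBigO_of_le _ fun p => norm_fst_le (p - (t, x))
  have b2 : (fun p : ℝ × ℝ => p.2 - x) =O[𝓝[J ×ˢ Icc (0 : ℝ) 1] (t, x)] fun p => p - (t, x) :=
    isBigO_of_le _ fun p => norm_snd_le (p - (t, x))
  have o1 : (fun p : ℝ × ℝ => ex (u p.1 - u t - (p.1 - t) • u') p.2)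
      =o[𝓝[J ×ˢ Icc (0 : ℝ) 1] (t, x)] fun p => p - (t, x) := by
    have h1 := ((hasDerivWithinAt_iff_isLittleO.1 hu).comp_tendsto t1).trans_isBigO b1
    exact (isBigO_of_le _ fun p => ex_le _ _).trans_isLittleO h1
  have o2 : (fun p : ℝ × ℝ => (ex u' p.2 - ex u' x) * (p.1 - t))
      =o[𝓝[J ×ˢ Icc (0 : ℝ) 1] (t, x)] fun p => p - (t, x) := by
    have h1 : (fun p : ℝ × ℝ => ex u' p.2 - ex u' x)
        =o[𝓝[J ×ˢ Icc (0 : ℝ) 1] (t, x)] fun _ => (1 : ℝ) := by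
      rw [isLittleO_one_iff]
      have hc : Continuous fun p : ℝ × ℝ => ex u' p.2 - ex u' x :=
        ((continuous_ex u').comp continuous_snd).sub continuous_const
      have := (hc.tendsto (t, x)).mono_left (nhdsWithin_le_nhds (s := J ×ˢ Icc (0 : ℝ) 1))
      simpa using this
    have h2 := h1.mul_isBigO (isBigO_refl (fun p : ℝ × ℝ => p.1 - t) _)
    simp only [one_mul] at h2
    exact h2.trans_isBigO b1
  have o3 : (fun p : ℝ × ℝ => ex (u t) p.2 - ex (u t) x - (p.2 - x) • ex g x)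
      =o[𝓝[J ×ˢ Icc (0 : ℝ) 1] (t, x)] fun p => p - (t, x) :=
    ((hasDerivWithinAt_iff_isLittleO.1 (hg x hx)).comp_tendsto t2).trans_isBigO b2
  rw [hasFDerivWithinAt_iff_isLittleO]
  refine ((o1.add o2).add o3).congr_left fun p => ?_
  have e : ex (u p.1 - u t - (p.1 - t) • u') p.2
      = ex (u p.1) p.2 - ex (u t) p.2 - (p.1 - t) * ex u' p.2 := rfl
  rw [e]
  simp
  ring

theorem Joint_nat (hJ : UniqueDiffOn ℝ J) (n : ℕ) : ∀ {u : ℝ → B}, SmT J u →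
    ContDiffOn ℝ n (fun p : ℝ × ℝ => ex (u p.1) p.2) (J ×ˢ Icc 0 1) := by
  induction n with
  | zero =>
    intro u h
    rw [Nat.cast_zero, contDiffOn_zero]
    exact continuous_ex₂.comp_continuousOn
      ((h.contDiffOn.continuousOn.comp continuousOn_fst fun _ hp => hp.1).prodMk continuousOn_snd)
  | succ n ih =>
    intro u h
    rw [Nat.cast_succ, contDiffOn_succ_iff_hasFDerivWithinAt_of_uniqueDiffOn
      (hJ.prod (uniqueDiffOn_Icc zero_lt_one))]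
    refine ⟨fun h => by simp at h, fun p => ex (derivWithin u J p.1) p.2 •
      ContinuousLinearMap.fst ℝ ℝ ℝ + ex (Dv (u p.1)) p.2 • ContinuousLinearMap.snd ℝ ℝ ℝ,
      ((ih (h.dt hJ)).smul contDiffOn_const).add ((ih h.dv).smul contDiffOn_const),
      fun p hp => ?_⟩
    exact Joint_fderiv (h.contDiffOn.differentiableOn (by simp) p.1 hp.1).hasDerivWithinAt
      (h.1 p.1 hp.1).isD hp.2

theorem SmT.joint (hJ : UniqueDiffOn ℝ J) (h : SmT J u) :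
    ContDiffOn ℝ ∞ (fun p : ℝ × ℝ => ex (u p.1) p.2) (J ×ˢ Icc 0 1) :=
  contDiffOn_infty.2 fun n => Joint_nat hJ n h

theorem SmT.joint_sq (hJ : UniqueDiffOn ℝ J) (h : SmT J u) :
    ContDiffOn ℝ ∞ (fun p : ℝ × ℝ => u p.1 (sq p.2)) (J ×ˢ univ) := by
  have h1 : ContDiff ℝ ∞ fun p : ℝ × ℝ => (p.1, Real.sin p.2 ^ 2) :=
    contDiff_fst.prodMk ((Real.contDiff_sin.comp contDiff_snd).pow 2)
  refine ((h.joint hJ).comp h1.contDiffOn fun p hp => ⟨hp.1, (sq p.2).2⟩).congr fun p _ => ?_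
  exact (ex_coe (u p.1) (sq p.2)).symm

end Vale.Agent.P244B
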