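import Vale.Agent.P244B.Sys
import Vale.Agent.P244B.Joint

/-! Mild solutions with smooth initial values are smooth classical solutions. -/

open Set Filter
open scoped ContDiff Topology unitInterval

noncomputable section

namespace Vale.Agent.P244B

theorem cls_duh {E : Type} [NormedAddCommGroup E] [NormedSpace ℝ E] [CompleteSpace E]
    {P : ℝ → E →L[ℝ] E} {C T : ℝ} (hK : Ker P P C) (hT : 0 < T) {f : ℝ → E}
    (hf : ContinuousOn f (Icc 0 T)) :
    HasDerivWithinAt (fun h => ∫ s in (0 : ℝ)..h, P (h - s) (f s)) (f 0) (Ici 0) 0 := by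
  have hc : ContinuousWithinAt (fun p : ℝ × ℝ => P p.1 (f p.2)) (Ici 0 ×ˢ Icc 0 T) (0, 0) :=
    (hK.P_cont₂.comp (f := fun p : ℝ × ℝ => (p.1, f p.2))
      (continuousOn_fst.prodMk (hf.comp continuousOn_snd fun _ hp => hp.2))
      fun _ hp => ⟨hp.1, trivial⟩) (0, 0) ⟨self_mem_Ici, left_mem_Icc.2 hT.le⟩
  rw [hasDerivWithinAt_iff_isLittleO, Asymptotics.isLittleO_iff]
  intro ε hε
  obtain ⟨δ, hδ, h⟩ := Metric.continuousWithinAt_iff.1 hc ε hε
  filter_upwards [Ico_mem_nhdsGE (lt_min hδ hT)] with r hr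
  have r1 : r < δ := hr.2.trans_le (min_le_left _ _)
  have r2 : r ≤ T := hr.2.le.trans (min_le_right _ _)
  have e : (∫ s in (0 : ℝ)..r, P (r - s) (f s)) - (r - 0) • f 0 =
      ∫ s in (0 : ℝ)..r, (P (r - s) (f s) - f 0) := by
    rw [intervalIntegral.integral_sub (hK.int hr.1 (hf.mono (Icc_subset_Icc_right r2)))
      intervalIntegrable_const, intervalIntegral.integral_const]
  rw [intervalIntegral.integral_same, sub_zero, e, Real.norm_eq_abs]
  refine intervalIntegral.norm_integral_le_of_norm_le_const fun s hs => ?_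
  rw [uIoc_of_le hr.1] at hs
  have := h (x := (r - s, s)) ⟨sub_nonneg.2 hs.2, hs.1.le, hs.2.trans r2⟩ (by
    rw [Prod.dist_eq, Real.dist_eq, Real.dist_eq, sub_zero, sub_zero,
      abs_of_nonneg (sub_nonneg.2 hs.2), abs_of_pos hs.1]
    exact max_lt (by linarith [hs.1]) (hs.2.trans_lt r1))
  rw [dist_eq_norm, hK.P0] at this
  exact this.le

theorem cls_ker {α β γ : ℝ} (hα : 0 < α) (hβ : 0 < β) (hγ : 0 ≤ γ) :
    Ker (fun t => Real.exp (-γ * t) • PS α β t) (fun t => Real.exp (-γ * t) • PS α β t) 1 := by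
  have hn : ∀ t u, 0 ≤ t → ‖(Real.exp (-γ * t) • PS α β t) u‖ ≤ ‖u‖ := fun t u ht => by
    rw [smul_apply, norm_smul, Real.norm_of_nonneg (Real.exp_pos _).le]
    exact (mul_le_of_le_one_left (norm_nonneg _) (Real.exp_le_one_iff.2 (by nlinarith))).trans
      (PS_norm hα hβ ht u)
  have ha : ∀ s t u, 0 ≤ s → 0 ≤ t → (Real.exp (-γ * (s + t)) • PS α β (s + t)) u =
      (Real.exp (-γ * s) • PS α β s) ((Real.exp (-γ * t) • PS α β t) u) := fun s t u hs ht => by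
    simp only [smul_apply, map_smul, PS_add hα hβ hs ht, smul_smul]
    rw [← Real.exp_add, mul_add, add_comm]
  refine ⟨zero_le_one, fun u => by simp [PS_zero hα hβ], ha, hn, fun u => ?_,
    fun s t u hs ht => (ha s t u hs ht.le).symm, fun t u ht => (hn t u ht.le).trans ?_⟩
  · exact (show Continuous fun t : ℝ => Real.exp (-γ * t) by fun_prop).continuousOn.smul
      (PS_cont hα hβ u)
  · rw [one_mul]
    exact le_mul_of_one_le_left (norm_nonneg _) (le_add_of_nonneg_right (by positivity))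

/-- a mild solution with a continuous source that stays in the domain of the generator -/
theorem mild_deriv {E : Type} [NormedAddCommGroup E] [NormedSpace ℝ E] [CompleteSpace E]
    {P : ℝ → E →L[ℝ] E} {C T : ℝ} (hK : Ker P P C) {u f g : ℝ → E}
    (hu : ContinuousOn u (Icc 0 T)) (hf : ContinuousOn f (Icc 0 T))
    (hg : ContinuousOn g (Icc 0 T))
    (e : ∀ θ ∈ Icc 0 T, u θ = P θ (u 0) + ∫ s in (0 : ℝ)..θ, P (θ - s) (f s))
    (hgen : ∀ θ ∈ Icc 0 T, HasDerivWithinAt (fun t => P t (u θ)) (g θ) (Ici 0) 0) :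
    ∀ θ ∈ Icc 0 T, HasDerivWithinAt u (g θ + f θ) (Icc 0 T) θ := by
  have key : ∀ θ ∈ Ico 0 T, HasDerivWithinAt u (g θ + f θ) (Ici θ) θ := by
    intro θ hθ
    have hθ' : θ ∈ Icc 0 T := Ico_subset_Icc_self hθ
    have hp : 0 < T - θ := sub_pos.2 hθ.2
    have hf' : ContinuousOn (fun s => f (θ + s)) (Icc 0 (T - θ)) :=
      hf.comp (by fun_prop) fun s hs => ⟨by linarith [hs.1, hθ.1], by linarith [hs.2]⟩
    have d1 := (hgen θ hθ').fun_add (cls_duh hK hp hf')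
    have d2 : HasDerivWithinAt (fun h => u (θ + h)) (g θ + f θ) (Ici 0) 0 := by
      rw [add_zero] at d1
      refine d1.congr_of_eventuallyEq ?_ ?_
      · filter_upwards [Icc_mem_nhdsGE hp] with h hh
        have hm : θ + h ∈ Icc 0 T := ⟨by linarith [hh.1, hθ.1], by linarith [hh.2]⟩
        rw [e _ hm, mild_split hK hθ.1 hh.1 (hf.mono (Icc_subset_Icc_right hm.2)), add_comm θ h,
          hK.Padd h θ _ hh.1 hθ.1, ← add_assoc, ← map_add, ← e θ hθ']
      · simp [hK.P0]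
    have d3 := HasDerivWithinAt.scomp θ (h := fun t => t - θ) (s := Ici θ)
      (by rw [sub_self]; exact d2) ((hasDerivAt_id θ).sub_const θ).hasDerivWithinAt
      (fun t ht => sub_nonneg.2 ht)
    simpa [Function.comp_def] using d3
  have hw : ContinuousOn (fun θ => g θ + f θ) (Icc 0 T) := hg.add hf
  have hI : ∀ θ ∈ Icc 0 T, IntervalIntegrable (fun θ => g θ + f θ) MeasureTheory.volume 0 θ :=
    fun θ hθ => (hw.mono (Icc_subset_Icc_right hθ.2)).intervalIntegrable_of_Icc hθ.1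
  have ftc : ∀ θ ∈ Icc 0 T, u θ = u 0 + ∫ s in (0 : ℝ)..θ, (g s + f s) := fun θ hθ => by
    rw [intervalIntegral.integral_eq_sub_of_hasDeriv_right_of_le hθ.1
      (hu.mono (Icc_subset_Icc_right hθ.2))
      (fun x hx => (key x ⟨hx.1.le, hx.2.trans_le hθ.2⟩).mono Ioi_subset_Ici_self) (hI θ hθ)]
    simp
  intro θ hθ
  have : Fact (θ ∈ Icc 0 T) := ⟨hθ⟩
  exact ((intervalIntegral.integral_hasDerivWithinAt_right (s := Icc 0 T) (t := Icc 0 T) (hI θ hθ)
    (hw.stronglyMeasurableAtFilter_nhdsWithin measurableSet_Icc θ) (hw θ hθ)).const_add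
      (u 0)).congr ftc (ftc θ hθ)

namespace Sys

variable {ι : Type} [Fintype ι]

/-- the right hand side -/
def rhs (S : Sys ι) (U : ι → B) (i : ι) : B :=
  aa * Dv (Dv (U i)) + bb (S.α i) (S.β i) * Dv (U i) - S.γ i • U i +
    (aa * Dv (S.M i U) + bb (S.α i) (S.β i) * S.M i U) + S.N i U

theorem classical (S : Sys ι) {T : ℝ} {U : ℝ → ι → B} (h : S.Sol T U) (i : ι)
    (h1 : ∀ θ ∈ Icc 0 T, IsD (U θ i) (Dv (U θ i)))
    (h2 : ∀ θ ∈ Icc 0 T, IsD (Dv (U θ i)) (Dv (Dv (U θ i))))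
    (h3 : ∀ θ ∈ Icc 0 T, IsD (S.M i (U θ)) (Dv (S.M i (U θ))))
    (c1 : ContinuousOn (fun θ => Dv (U θ i)) (Icc 0 T))
    (c2 : ContinuousOn (fun θ => Dv (Dv (U θ i))) (Icc 0 T))
    (c3 : ContinuousOn (fun θ => Dv (S.M i (U θ))) (Icc 0 T)) :
    ∀ θ ∈ Icc 0 T, HasDerivWithinAt (fun θ => U θ i) (S.rhs (U θ) i) (Icc 0 T) θ := by
  obtain ⟨C, hK⟩ := ker_PP S.hα S.hβ S.hγ
  have cU : ContinuousOn (fun θ => U θ i) (Icc 0 T) := (continuous_apply i).comp_continuousOn h.1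
  have cM := (S.gM i).bl.continuous.comp_continuousOn h.1
  have cN := (S.gN i).bl.continuous.comp_continuousOn h.1
  intro θ hθ
  refine (mild_deriv (cls_ker (S.hα i) (S.hβ i) (S.hγ i)) cU
    (f := fun θ => aa * Dv (S.M i (U θ)) + bb (S.α i) (S.β i) * S.M i (U θ) + S.N i (U θ))
    (g := fun θ => aa * Dv (Dv (U θ i)) + bb (S.α i) (S.β i) * Dv (U θ i) - S.γ i • U θ i)
    (((continuousOn_const.mul c3).add (continuousOn_const.mul cM)).add cN)
    (((continuousOn_const.mul c2).add (continuousOn_const.mul c1)).sub (cU.const_smul (S.γ i)))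
    (fun t ht => ?_) (fun t ht => ?_) θ hθ).congr_deriv (add_assoc _ _ _).symm
  · have hI := hK.int ht.1
      (S.bl.continuous.comp_continuousOn (h.1.mono (Icc_subset_Icc_right ht.2)))
    have e1 := congrFun (h.2 t ht) i
    have e2 := (ContinuousLinearMap.proj (R := ℝ) (φ := fun _ : ι => B) i
      ).intervalIntegral_comp_comm hI
    rw [Pi.add_apply] at e1
    refine e1.trans (congrArg₂ (· + ·) rfl (e2.symm.trans
      (intervalIntegral.integral_congr_ae ?_)))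
    filter_upwards [MeasureTheory.compl_mem_ae_iff.2 (Real.volume_singleton (a := t))] with s hs hs'
    rw [uIoc_of_le ht.1] at hs'
    have hp : 0 < t - s := sub_pos.2 (lt_of_le_of_ne hs'.2 hs)
    rw [smul_apply, map_add,
      ← QS_eq (S.hα i) (S.hβ i) hp (h3 s ⟨hs'.1.le, hs'.2.trans ht.2⟩)]
    rfl
  · have d := (((hasDerivAt_id (0 : ℝ)).const_mul (-S.γ i)).exp.hasDerivWithinAt).fun_smul
      (PS_gen (S.hα i) (S.hβ i) (h1 t ht) (h2 t ht))
    refine d.congr_deriv ?_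
    simp [PS_zero (S.hα i) (S.hβ i), sub_eq_add_neg]

theorem cls_step (S : Sys ι) {T : ℝ} {U : ℝ → ι → B} (hT : 0 ≤ T) (h : S.Sol T U)
    (h0 : ∀ i, Sm (U 0 i)) : ∃ (S' : Sys (ι ⊕ ι)) (V : ℝ → ι ⊕ ι → B), S'.Sol T V ∧
      (∀ j, Sm (V 0 j)) ∧ ∀ θ ∈ Icc 0 T, ∀ i, V θ (.inl i) = U θ i ∧
        IsD (U θ i) (V θ (.inr i)) := by
  obtain ⟨S', V, hV, hd⟩ := S.one_step hT h fun i => (h0 i).isD
  refine ⟨S', V, hV, fun j => ?_, hd⟩
  rcases j with i | i
  · rw [(hd 0 (left_mem_Icc.2 hT) i).1]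
    exact h0 i
  · rw [← (hd 0 (left_mem_Icc.2 hT) i).2.dv]
    exact (h0 i).dv

theorem cls_form (S : Sys ι) {T : ℝ} {U : ℝ → ι → B} (hT : 0 ≤ T) (h : S.Sol T U)
    (h0 : ∀ i, Sm (U 0 i)) : ∃ (S' : Sys ((ι ⊕ ι) ⊕ (ι ⊕ ι))) (W : ℝ → (ι ⊕ ι) ⊕ (ι ⊕ ι) → B)
      (R : ι → ((ι ⊕ ι) ⊕ (ι ⊕ ι) → B) → B), S'.Sol T W ∧ (∀ j, Sm (W 0 j)) ∧
      (∀ i, ContDiff ℝ ∞ (R i)) ∧ ∀ θ ∈ Icc 0 T, ∀ i,
        HasDerivWithinAt (fun θ => U θ i) (S.rhs (U θ) i) (Icc 0 T) θ ∧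
          S.rhs (U θ) i = R i (W θ) := by
  obtain ⟨S1, V, hV, hV0, hd⟩ := S.cls_step hT h h0
  obtain ⟨S2, W, hW, hW0, hd'⟩ := S1.cls_step hT hV hV0
  choose M' gM' _ hM' using fun i => (S.gM i).deriv
  have eU : ∀ θ ∈ Icc 0 T, (fun k => V θ (.inl k)) = U θ := fun θ hθ =>
    funext fun k => (hd θ hθ k).1
  have eV : ∀ θ ∈ Icc 0 T, (fun k => W θ (.inl k)) = V θ := fun θ hθ =>
    funext fun k => (hd' θ hθ k).1
  have dM : ∀ θ ∈ Icc 0 T, ∀ i, IsD (S.M i (U θ)) (M' i (V θ)) := fun θ hθ i => by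
    have := hM' i (V θ) fun k => by rw [(hd θ hθ k).1]; exact (hd θ hθ k).2
    rwa [eU θ hθ] at this
  refine ⟨S2, W, fun i X => aa * X (.inr (.inr i)) + bb (S.α i) (S.β i) * X (.inl (.inr i)) -
    S.γ i • X (.inl (.inl i)) + (aa * M' i (fun k => X (.inl k)) +
      bb (S.α i) (S.β i) * S.M i fun k => X (.inl (.inl k))) + S.N i fun k => X (.inl (.inl k)),
    hW, hW0, fun i => ?_, fun θ hθ i => ⟨S.classical h i (fun t ht => ?_) (fun t ht => ?_)
      (fun t ht => ?_) ?_ ?_ ?_ θ hθ, ?_⟩⟩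
  · have a1 := (gM' i).contDiff
    have a2 := (S.gM i).contDiff
    have a3 := (S.gN i).contDiff
    fun_prop
  · exact (hd t ht i).2.congr (hd t ht i).2.dv.symm
  · rw [(hd t ht i).2.dv]
    exact (hd' t ht _).2.congr (hd' t ht _).2.dv.symm
  · exact (dM t ht i).congr (dM t ht i).dv.symm
  · exact ((continuous_apply (Sum.inr i)).comp_continuousOn hV.1).congr
      fun t ht => (hd t ht i).2.dv
  · exact ((continuous_apply (Sum.inr (Sum.inr i))).comp_continuousOn hW.1).congr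
      fun t ht => by rw [(hd t ht i).2.dv]; exact (hd' t ht _).2.dv
  · exact ((gM' i).bl.continuous.comp_continuousOn hV.1).congr fun t ht => (dM t ht i).dv
  · have e : (fun k => W θ (.inl (.inl k))) = U θ :=
      funext fun k => (hd' θ hθ _).1.trans (hd θ hθ k).1
    beta_reduce
    rw [rhs, e, eV θ hθ, (hd' θ hθ _).1, (hd' θ hθ _).1, (hd θ hθ i).1, (hd θ hθ i).2.dv,
      (hd' θ hθ _).2.dv, (dM θ hθ i).dv]

theorem smooth_time (n : ℕ) : ∀ {ι : Type} [Fintype ι] (S : Sys ι) {T : ℝ} {U : ℝ → ι → B},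
    0 < T → S.Sol T U → (∀ i, Sm (U 0 i)) → ContDiffOn ℝ n U (Icc 0 T) := by
  induction n with
  | zero => exact fun S T U _ h _ => contDiffOn_zero.2 h.1
  | succ n ih =>
    intro ι _ S T U hT h h0
    obtain ⟨S', W, R, hW, hW0, hR, hd⟩ := S.cls_form hT.le h h0
    have hD : ∀ θ ∈ Icc 0 T, HasDerivWithinAt U (fun i => R i (W θ)) (Icc 0 T) θ := fun θ hθ =>
      hasDerivWithinAt_pi.2 fun i => (hd θ hθ i).1.congr_deriv (hd θ hθ i).2
    rw [Nat.cast_succ, contDiffOn_succ_iff_derivWithin (uniqueDiffOn_Icc hT)]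
    refine ⟨fun θ hθ => (hD θ hθ).differentiableWithinAt, fun h => absurd h (by simp), ?_⟩
    exact (contDiffOn_pi.2 fun i => ((hR i).of_le (by exact_mod_cast le_top)).comp_contDiffOn
      (ih S' hT hW hW0)).congr fun θ hθ => (hD θ hθ).derivWithin (uniqueDiffOn_Icc hT θ hθ)

theorem cls_iter (k : ℕ) : ∀ {ι : Type} [Fintype ι] (S : Sys ι) {T : ℝ} {U : ℝ → ι → B},
    0 < T → S.Sol T U → (∀ i, Sm (U 0 i)) → ∀ i,
      (∀ θ ∈ Icc 0 T, IsD (Dv^[k] (U θ i)) (Dv^[k + 1] (U θ i))) ∧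
        ContDiffOn ℝ ∞ (fun θ => Dv^[k] (U θ i)) (Icc 0 T) := by
  induction k with
  | zero =>
    intro ι _ S T U hT h h0 i
    obtain ⟨_, V, -, -, hd⟩ := S.cls_step hT.le h h0
    exact ⟨fun θ hθ => (hd θ hθ i).2.congr (hd θ hθ i).2.dv.symm,
      contDiffOn_pi.1 (contDiffOn_infty.2 fun n => smooth_time n S hT h h0) i⟩
  | succ k ih =>
    intro ι _ S T U hT h h0 i
    obtain ⟨S', V, hV, hV0, hd⟩ := S.cls_step hT.le h h0
    obtain ⟨a1, a2⟩ := ih S' hT hV hV0 (.inr i)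
    refine ⟨fun θ hθ => ?_, a2.congr fun θ hθ => ?_⟩
    · rw [Function.iterate_succ_apply Dv k, Function.iterate_succ_apply Dv (k + 1),
        (hd θ hθ i).2.dv]
      exact a1 θ hθ
    · rw [Function.iterate_succ_apply, (hd θ hθ i).2.dv]

theorem smooth (S : Sys ι) {T : ℝ} {U : ℝ → ι → B} (hT : 0 < T) (h : S.Sol T U)
    (h0 : ∀ i, Sm (U 0 i)) (i : ι) : SmT (Icc 0 T) (fun θ => U θ i) ∧
      ∀ θ ∈ Icc 0 T, HasDerivWithinAt (fun θ => U θ i) (S.rhs (U θ) i) (Icc 0 T) θ := by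
  refine ⟨⟨fun θ hθ k => (cls_iter k S hT h h0 i).1 θ hθ, fun k => (cls_iter k S hT h h0 i).2⟩,
    fun θ hθ => ?_⟩
  obtain ⟨_, _, _, -, -, -, hd⟩ := S.cls_form hT.le h h0
  exact (hd θ hθ i).1

end Sys

end Vale.Agent.P244B
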