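import Vale.Agent.P244B.Mild

/-! Existence of mild solutions. -/

open Set Filter MeasureTheory
open scoped Topology

noncomputable section

namespace Vale.Agent.P244B

variable {E F : Type} [NormedAddCommGroup E] [NormedSpace ℝ E] [CompleteSpace E]
  [NormedAddCommGroup F] [NormedSpace ℝ F]

/-- invariant subspaces -/
structure Invt (P : ℝ → E →L[ℝ] E) (K : ℝ → F →L[ℝ] E) (G : E → F) (S : Submodule ℝ E)
    (S' : Submodule ℝ F) : Prop where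
  closed : IsClosed (S : Set E)
  hP : ∀ t u, 0 ≤ t → u ∈ S → P t u ∈ S
  hK : ∀ t f, 0 < t → f ∈ S' → K t f ∈ S
  hG : ∀ u ∈ S, G u ∈ S'

variable {P : ℝ → E →L[ℝ] E} {K : ℝ → F →L[ℝ] E} {C : ℝ} {G : E → F} {T : ℝ} {U V : ℝ → E}

omit [CompleteSpace E] in
theorem invt_top : Invt P K G ⊤ ⊤ :=
  ⟨isClosed_univ, fun _ _ _ _ => trivial, fun _ _ _ _ => trivial, fun _ _ => trivial⟩

theorem loc_int_mem {S : Submodule ℝ E} (hS : IsClosed (S : Set E)) {f : ℝ → E} {θ : ℝ}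
    (hθ : 0 ≤ θ) (hf : IntervalIntegrable f volume 0 θ) (h : ∀ s ∈ Ioo 0 θ, f s ∈ S) :
    ∫ s in (0 : ℝ)..θ, f s ∈ S := by
  have := hS
  have h1 := S.mkQL.intervalIntegral_comp_comm hf
  have h2 : ∫ s in (0 : ℝ)..θ, S.mkQL (f s) = 0 := by
    rw [intervalIntegral.integral_of_le hθ, integral_Ioc_eq_integral_Ioo]
    exact setIntegral_eq_zero_of_forall_eq_zero fun s hs =>
      (Submodule.Quotient.mk_eq_zero S).2 (h s hs)
  rw [h2] at h1
  exact (Submodule.Quotient.mk_eq_zero S).1 h1.symm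

theorem loc_small (c : ℝ) (hc : 0 ≤ c) :
    ∃ δ : ℝ, 0 < δ ∧ ∀ θ ∈ Icc 0 δ, (θ + 2 * √θ) * c ≤ 1 / 2 := by
  have h1 : Tendsto (fun θ : ℝ => (θ + 2 * √θ) * c) (𝓝[>] 0) (𝓝 0) := by
    have h2 : Continuous fun θ : ℝ => (θ + 2 * √θ) * c := by fun_prop
    simpa using (h2.tendsto 0).mono_left (nhdsWithin_le_nhds (s := Ioi 0))
  obtain ⟨δ, h3, h4⟩ := ((h1.eventually_le_const (by norm_num : (0 : ℝ) < 1 / 2)).and
    self_mem_nhdsWithin).exists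
  refine ⟨δ, h4, fun θ hθ => le_trans (mul_le_mul_of_nonneg_right ?_ hc) h3⟩
  have := Real.sqrt_le_sqrt hθ.2
  linarith [hθ.2]

/-- continuity argument -/
theorem loc_barrier {φ : ℝ → ℝ} {T : ℝ} (hφ : ContinuousOn φ (Icc 0 T)) (h0 : φ 0 < 1)
    (h : ∀ t ∈ Icc 0 T, (∀ θ ∈ Icc 0 t, φ θ ≤ 1) → φ t < 1) : ∀ θ ∈ Icc 0 T, φ θ ≤ 1 := by
  have ivt : ∀ θ ∈ Icc 0 T, 1 < φ θ → ∃ t ∈ Icc 0 θ, φ t = 1 := fun θ hθ h1 =>
    intermediate_value_Icc hθ.1 (hφ.mono (Icc_subset_Icc_right hθ.2)) ⟨h0.le, h1.le⟩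
  intro θ hθ
  by_contra h1
  obtain ⟨t, ht, h2⟩ := ivt θ hθ (not_le.1 h1)
  have hc : IsCompact (Icc 0 T ∩ φ ⁻¹' {1}) := isCompact_Icc.of_isClosed_subset
    (hφ.preimage_isClosed_of_isClosed isClosed_Icc isClosed_singleton) inter_subset_left
  obtain ⟨m, hm, hm'⟩ := hc.exists_isLeast ⟨t, ⟨ht.1, ht.2.trans hθ.2⟩, h2⟩
  refine (h m hm.1 fun x hx => ?_).ne hm.2
  by_contra h3
  obtain ⟨y, hy, h4⟩ := ivt x ⟨hx.1, hx.2.trans hm.1.2⟩ (not_le.1 h3)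
  have h5 : m ≤ y := hm' ⟨⟨hy.1, hy.2.trans (hx.2.trans hm.1.2)⟩, h4⟩
  have h6 : y = x := le_antisymm hy.2 (hx.2.trans h5)
  exact h3 (h6 ▸ h4.le)

theorem mild_local (hK : Ker P K C) (hG : BL G) (R : ℝ) : ∃ δ : ℝ, 0 < δ ∧
    ∀ (S : Submodule ℝ E) (S' : Submodule ℝ F), Invt P K G S S' → ∀ u ∈ S, ‖u‖ ≤ R →
      ∃ U : ℝ → E, Mild P K G δ U ∧ U 0 = u ∧ ∀ θ ∈ Icc 0 δ, U θ ∈ S := by
  obtain ⟨L, hL, hLip⟩ := hG (R + 1)
  obtain ⟨M, hM, hbd⟩ := hG.bound (R + 1)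
  have hC := hK.hC
  obtain ⟨δ, hδ, hsm⟩ := loc_small (C * (L + M)) (by positivity)
  refine ⟨δ, hδ, fun S S' hS u hu hR => ?_⟩
  let ex : C(Icc (0 : ℝ) δ, E) → ℝ → E := fun W s => W (projIcc 0 δ hδ.le s)
  have hex : ∀ W, Continuous (ex W) := fun W => W.continuous.comp continuous_projIcc
  have hGe : ∀ W, Continuous fun s => G (ex W s) := fun W => hG.continuous.comp (hex W)
  let Φ : C(Icc (0 : ℝ) δ, E) → C(Icc (0 : ℝ) δ, E) := fun W =>
    ⟨fun θ => P θ u + ∫ s in (0 : ℝ)..θ, K (θ - s) (G (ex W s)),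
      (((hK.Pcont u).mono Icc_subset_Ici_self).add (hK.duh_cont (hGe W).continuousOn)).domRestrict⟩
  let A : Set C(Icc (0 : ℝ) δ, E) := {W | ∀ θ, ‖W θ‖ ≤ R + 1 ∧ W θ ∈ S}
  have hA : IsClosed A := by
    simp only [A, ofPred_forall, ofPred_and]
    exact isClosed_iInter fun θ => (isClosed_le (by fun_prop) continuous_const).inter
      (hS.closed.preimage (continuous_eval_const θ))
  have hsm' : ∀ θ ∈ Icc 0 δ, ∀ x, 0 ≤ x → x ≤ L + M → C * (θ + 2 * √θ) * x ≤ 1 / 2 :=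
    fun θ hθ x h0 hx => by
      have h1 : 0 ≤ C * (θ + 2 * √θ) := mul_nonneg hC (by have := hθ.1; positivity)
      have h2 := mul_le_mul_of_nonneg_left hx h1
      have h3 := hsm θ hθ
      linarith [mul_comm (θ + 2 * √θ) C, mul_assoc (θ + 2 * √θ) C (L + M),
        show C * (θ + 2 * √θ) * (L + M) = (θ + 2 * √θ) * (C * (L + M)) by ring]
  have hmap : MapsTo Φ A A := fun W hW θ => by
    constructor
    · have h1 := hK.duh_bound (f := fun s => G (ex W s)) θ.2.1 fun s _ => hbd _ (hW _).1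
      have h2 := hK.Pnorm θ u θ.2.1
      have h3 := hsm' θ θ.2 M hM (by linarith)
      exact (norm_add_le _ _).trans (by linarith)
    · exact S.add_mem (hS.hP _ _ θ.2.1 hu) (loc_int_mem hS.closed θ.2.1
        (hK.int θ.2.1 (hGe W).continuousOn) fun s hs =>
          hS.hK _ _ (sub_pos.2 hs.2) (hS.hG _ (hW _).2))
  have hcon : ContractingWith (1 / 2) (hmap.restrict Φ A A) := by
    refine ⟨by norm_num, LipschitzWith.of_dist_le_mul fun W W' => ?_⟩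
    change dist (Φ W) (Φ W') ≤ _ * dist (W : C(Icc (0 : ℝ) δ, E)) W'
    refine (ContinuousMap.dist_le (by positivity)).2 fun θ => ?_
    have h1 : Φ W θ - Φ W' θ = ∫ s in (0 : ℝ)..θ, K (θ - s) (G (ex W s) - G (ex W' s)) := by
      simp only [map_sub]
      exact (add_sub_add_left_eq_sub _ _ (P θ u)).trans (intervalIntegral.integral_sub (hK.int θ.2.1 (hGe W).continuousOn)
        (hK.int θ.2.1 (hGe W').continuousOn)).symm
    have h2 := hK.duh_bound (f := fun s => G (ex W s) - G (ex W' s))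
      (M := L * dist (W : C(Icc (0 : ℝ) δ, E)) W') θ.2.1 fun s _ =>
      (hLip _ _ (W.2 _).1 (W'.2 _).1).trans (mul_le_mul_of_nonneg_left (by
        rw [← dist_eq_norm]; exact ContinuousMap.dist_apply_le_dist _) hL)
    rw [dist_eq_norm, h1]
    refine h2.trans ?_
    rw [← mul_assoc]
    refine mul_le_mul_of_nonneg_right ((hsm' θ θ.2 L hL (by linarith)).trans ?_) dist_nonneg
    norm_num
  obtain ⟨W, hW, hfix, -⟩ := ContractingWith.exists_fixedPoint' hA.isComplete hmap hcon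
    (x := ContinuousMap.const _ u) (fun _ => ⟨hR.trans (by linarith), hu⟩) (edist_ne_top _ _)
  have h1 : ∀ θ ∈ Icc 0 δ, ex W θ = P θ u + ∫ s in (0 : ℝ)..θ, K (θ - s) (G (ex W s)) :=
    fun θ hθ => by
      have h2 := congrArg (fun V : C(Icc (0 : ℝ) δ, E) => V ⟨θ, hθ⟩) hfix.eq
      simp only [ex, projIcc_of_mem hδ.le hθ]
      exact h2.symm
  have h0 : ex W 0 = u := by
    rw [h1 0 ⟨le_rfl, hδ.le⟩, hK.P0, intervalIntegral.integral_same, add_zero]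
  exact ⟨ex W, ⟨(hex W).continuousOn, fun θ hθ => by rw [h0]; exact h1 θ hθ⟩, h0,
    fun θ _ => (hW _).2⟩

/-- existence on `[0, T]` under an a priori bound -/
theorem mild_global (hK : Ker P K C) (hG : BL G) {S : Submodule ℝ E} {S' : Submodule ℝ F}
    (hS : Invt P K G S S') {u : E} (hu : u ∈ S) (hT : 0 ≤ T) {R : ℝ}
    (hR : ∀ T' ∈ Icc 0 T, ∀ U : ℝ → E, Mild P K G T' U → U 0 = u → ∀ θ ∈ Icc 0 T', ‖U θ‖ ≤ R) :
    ∃ U : ℝ → E, Mild P K G T U ∧ U 0 = u ∧ ∀ θ ∈ Icc 0 T, U θ ∈ S := by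
  obtain ⟨δ, hδ, hloc⟩ := mild_local hK hG R
  have key : ∀ n : ℕ, ∃ U : ℝ → E, Mild P K G (min T (n * δ)) U ∧ U 0 = u ∧
      ∀ θ ∈ Icc 0 (min T (n * δ)), U θ ∈ S := by
    intro n
    induction n with
    | zero =>
      refine ⟨fun _ => u, ?_, rfl, fun _ _ => hu⟩
      rw [Nat.cast_zero, zero_mul, min_eq_right hT]
      exact mild_zero hK _
    | succ n ih =>
      obtain ⟨U, h1, h2, h3⟩ := ih
      have h4 : 0 ≤ min T (n * δ) := le_min hT (by positivity)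
      obtain ⟨V, h5, h6, h7⟩ := hloc S S' hS _ (h3 _ ⟨h4, le_rfl⟩)
        (hR _ ⟨h4, min_le_left _ _⟩ U h1 h2 _ ⟨h4, le_rfl⟩)
      have h8 : min T ((n + 1 : ℕ) * δ) ≤ min T (n * δ) + δ := by
        rw [← min_add_add_right]
        exact min_le_min (by linarith) (by push_cast; linarith)
      refine ⟨_, (Mild.concat hK hG.continuous h4 hδ.le h1 h5 h6).mono h8, ?_, fun θ hθ => ?_⟩
      · simp only [if_pos h4, h2]
      · by_cases h9 : θ ≤ min T (n * δ)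
        · simp only [if_pos h9]
          exact h3 θ ⟨hθ.1, h9⟩
        · simp only [if_neg h9]
          exact h7 _ ⟨by linarith [not_le.1 h9], by linarith [hθ.2]⟩
  obtain ⟨n, hn⟩ := exists_nat_ge (T / δ)
  have h1 := key n
  rwa [min_eq_left ((div_le_iff₀ hδ).1 hn)] at h1

/-- a solution stays in an invariant subspace -/
theorem Mild.mem (hK : Ker P K C) (hG : BL G) {S : Submodule ℝ E} {S' : Submodule ℝ F}
    (hS : Invt P K G S S') (hU : Mild P K G T U) (hu : U 0 ∈ S) : ∀ θ ∈ Icc 0 T, U θ ∈ S := by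
  intro θ hθ
  obtain ⟨R, hR⟩ := isCompact_Icc.exists_bound_of_continuousOn hU.1
  obtain ⟨V, h1, h2, h3⟩ := mild_global hK hG hS hu (hθ.1.trans hθ.2) (R := R)
    fun T' hT' V hV e x hx => by
      rw [Mild.unique hK hG hV (hU.mono hT'.2) e hx]
      exact hR x ⟨hx.1, hx.2.trans hT'.2⟩
  rw [← Mild.unique hK hG h1 hU h2 hθ]
  exact h3 θ hθ

/-- continuous dependence on the initial value -/
theorem mild_near (hK : Ker P K C) (hG : BL G) (hT : 0 ≤ T) (hU : Mild P K G T U) {ε : ℝ}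
    (hε : 0 < ε) : ∀ᶠ u in 𝓝 (U 0), ∃ V : ℝ → E, Mild P K G T V ∧ V 0 = u ∧
      ∀ θ ∈ Icc 0 T, ‖V θ - U θ‖ ≤ ε := by
  obtain ⟨R, hR⟩ := isCompact_Icc.exists_bound_of_continuousOn hU.1
  obtain ⟨M, hM, hst⟩ := mild_stab hK hG (R + 1) T
  have hc : Continuous fun u : E => (M + 1) * ‖u - U 0‖ := by fun_prop
  have h1 : ∀ᶠ u in 𝓝 (U 0), (M + 1) * ‖u - U 0‖ < min 1 ε :=
    hc.continuousAt.eventually_lt continuousAt_const (by simpa using hε)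
  filter_upwards [h1] with u hu
  have h2 := lt_min_iff.1 hu
  have h3 : M * ‖u - U 0‖ ≤ (M + 1) * ‖u - U 0‖ := by nlinarith [norm_nonneg (u - U 0)]
  have h4 : ‖u - U 0‖ ≤ (M + 1) * ‖u - U 0‖ := by nlinarith [norm_nonneg (u - U 0)]
  have step : ∀ T' ∈ Icc 0 T, ∀ V : ℝ → E, Mild P K G T' V → V 0 = u →
      (∀ θ ∈ Icc 0 T', ‖V θ - U θ‖ ≤ 1) → ∀ θ ∈ Icc 0 T', ‖V θ - U θ‖ ≤ M * ‖u - U 0‖ :=
    fun T' hT' V hV e h5 => by
      rw [← e]
      refine hst T' V U hT'.2 hV (hU.mono hT'.2) (fun θ hθ => ?_) fun θ hθ => ?_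
      · have := norm_le_norm_add_norm_sub' (V θ) (U θ)
        linarith [hR θ ⟨hθ.1, hθ.2.trans hT'.2⟩, h5 θ hθ]
      · linarith [hR θ ⟨hθ.1, hθ.2.trans hT'.2⟩]
  have one : ∀ T' ∈ Icc 0 T, ∀ V : ℝ → E, Mild P K G T' V → V 0 = u →
      ∀ θ ∈ Icc 0 T', ‖V θ - U θ‖ ≤ 1 := fun T' hT' V hV e =>
    loc_barrier (hV.1.sub (hU.mono hT'.2).1).norm (by rw [e]; linarith [h2.1]) fun t ht h5 =>
      (step t ⟨ht.1, ht.2.trans hT'.2⟩ V (hV.mono ht.2) e h5 t ⟨ht.1, le_rfl⟩).trans_lt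
        (by linarith [h2.1])
  obtain ⟨V, hV, e, -⟩ := mild_global hK hG invt_top (u := u) trivial hT (R := R + 1)
    fun T' hT' V hV e θ hθ => by
      have := norm_le_norm_add_norm_sub' (V θ) (U θ)
      linarith [hR θ ⟨hθ.1, hθ.2.trans hT'.2⟩, one T' hT' V hV e θ hθ]
  exact ⟨V, hV, e, fun θ hθ => (step T ⟨hT, le_rfl⟩ V hV e (one T ⟨hT, le_rfl⟩ V hV e) θ hθ).trans
    (by linarith [h2.2])⟩

/-- a bounded solution on a half open interval can be continued -/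
theorem mild_extend (hK : Ker P K C) (hG : BL G) (hT : 0 < T) {R : ℝ}
    (hU : ∀ T' < T, Mild P K G T' U) (hR : ∀ θ ∈ Ico 0 T, ‖U θ‖ ≤ R) :
    ∃ (T' : ℝ) (V : ℝ → E), T < T' ∧ Mild P K G T' V ∧ EqOn V U (Ico 0 T) := by
  obtain ⟨δ, hδ, hloc⟩ := mild_local hK hG R
  have h1 : max 0 (T - δ / 2) < T := max_lt hT (by linarith)
  have h2 : 0 ≤ max 0 (T - δ / 2) := le_max_left _ _
  have h3 : T - δ / 2 ≤ max 0 (T - δ / 2) := le_max_right _ _
  obtain ⟨W, h4, h5, -⟩ := hloc ⊤ ⊤ invt_top _ trivial (hR _ ⟨h2, h1⟩)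
  have h6 := Mild.concat hK hG.continuous h2 hδ.le (hU _ h1) h4 h5
  refine ⟨_, _, by linarith, h6, fun θ hθ => ?_⟩
  exact Mild.unique hK hG (h6.mono (by linarith [hθ.2])) (hU θ hθ.2) (by simp only [if_pos h2])
    ⟨hθ.1, le_rfl⟩

end Vale.Agent.P244B
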