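import Vale.Agent.P244B.Jac

/-! Maximum principle: contraction and gradient bound. -/

open Polynomial Set

noncomputable section

namespace Vale.Agent.P244B

variable {α β : ℝ}

theorem maxP_right {f : ℝ → ℝ} {f' x δ : ℝ} (hf : HasDerivAt f f' x) (hδ : 0 < δ)
    (h : ∀ s, 0 < s → s < δ → f (x + s) ≤ f x) : f' ≤ 0 := by
  refine le_of_tendsto hf.tendsto_slope_zero_right ?_
  filter_upwards [Ioo_mem_nhdsGT hδ] with s hs
  rw [smul_eq_mul]
  exact mul_nonpos_of_nonneg_of_nonpos (inv_nonneg.2 hs.1.le) (sub_nonpos.2 (h s hs.1 hs.2))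

theorem maxP_left {f : ℝ → ℝ} {f' x δ : ℝ} (hf : HasDerivAt f f' x) (hδ : 0 < δ)
    (h : ∀ s, 0 < s → s < δ → f (x - s) ≤ f x) : 0 ≤ f' := by
  refine ge_of_tendsto hf.tendsto_slope_zero_left ?_
  filter_upwards [Ioo_mem_nhdsLT (neg_lt_zero.2 hδ)] with s hs
  rw [smul_eq_mul]
  have h1 := h (-s) (neg_pos.2 hs.2) (neg_lt.1 hs.1)
  rw [sub_neg_eq_add] at h1
  exact mul_nonneg_of_nonpos_of_nonpos (inv_nonpos.2 hs.2.le) (sub_nonpos.2 h1)

theorem maxP_second (q : ℝ[X]) {x : ℝ} (h : IsLocalMax (fun y => q.eval y) x) :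
    (derivative q).eval x = 0 ∧ (derivative (derivative q)).eval x ≤ 0 := by
  have h1 : (derivative q).eval x = 0 := h.hasDerivAt_eq_zero (q.hasDerivAt x)
  refine ⟨h1, ?_⟩
  have e1 : deriv (fun y => q.eval y) = fun y => (derivative q).eval y :=
    funext fun y => q.deriv
  have e2 : deriv (deriv fun y => q.eval y) x = (derivative (derivative q)).eval x := by
    rw [e1]
    exact (derivative q).deriv
  by_contra hpos
  rw [not_le] at hpos
  have hmin : IsLocalMin (fun y => q.eval y) x :=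
    isLocalMin_of_deriv_deriv_pos (by rw [e2]; exact hpos) (by rw [e1]; exact h1)
      q.continuous.continuousAt
  have hev : (fun y => q.eval y) =ᶠ[nhds x] fun _ => q.eval x := by
    filter_upwards [h, hmin] with y a b using le_antisymm a b
  have h3 := hev.deriv.deriv.eq_of_nhds
  rw [e2] at h3
  simp at h3
  linarith

theorem maxP_Lp_eval (q : ℝ[X]) (x : ℝ) :
    (Lp α β q).eval x = x * (1 - x) * (derivative (derivative q)).eval x +
      (α * (1 - x) - β * x) * (derivative q).eval x := by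
  simp [Lp_apply, aP, bP]

theorem maxP_space (hα : 0 ≤ α) (hβ : 0 ≤ β) (q : ℝ[X]) {x : ℝ} (hx : x ∈ Icc (0 : ℝ) 1)
    (h : ∀ y ∈ Icc (0 : ℝ) 1, q.eval y ≤ q.eval x) : (Lp α β q).eval x ≤ 0 := by
  rw [maxP_Lp_eval]
  rcases hx.1.eq_or_lt with h0 | h0
  · subst h0
    have := maxP_right (q.hasDerivAt 0) one_pos fun s a b => h _ ⟨by linarith, by linarith⟩
    have k := mul_nonpos_of_nonneg_of_nonpos hα this
    linarith
  rcases hx.2.eq_or_lt with h1 | h1
  · subst h1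
    have := maxP_left (q.hasDerivAt 1) one_pos fun s a b => h _ ⟨by linarith, by linarith⟩
    have k := mul_nonneg hβ this
    linarith
  have hm : IsLocalMax (fun y => q.eval y) x := by
    filter_upwards [Icc_mem_nhds h0 h1] with y hy using h y hy
  obtain ⟨a, b⟩ := maxP_second q hm
  rw [a, mul_zero, add_zero]
  exact mul_nonpos_of_nonneg_of_nonpos (mul_nonneg h0.le (by linarith)) b

/-- maximum principle for families of polynomials -/
theorem max_principle (hα : 0 ≤ α) (hβ : 0 ≤ β) (W W' : ℝ → ℝ[X]) {M : ℝ}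
    (hc : Continuous fun z : ℝ × ℝ => (W z.1).eval z.2)
    (hd : ∀ t x, HasDerivAt (fun t => (W t).eval x) ((W' t).eval x) t)
    (hle : ∀ t, 0 < t → ∀ x ∈ Icc (0 : ℝ) 1, (W' t).eval x ≤ (Lp α β (W t)).eval x)
    (h0 : ∀ x ∈ Icc (0 : ℝ) 1, (W 0).eval x ≤ M) {t : ℝ} (ht : 0 ≤ t) :
    ∀ x ∈ Icc (0 : ℝ) 1, (W t).eval x ≤ M := by
  intro x hx
  have key : ∀ e, 0 < e → (W t).eval x - e * t ≤ M := by
    intro e he
    have hK : IsCompact (Icc (0 : ℝ) t ×ˢ Icc (0 : ℝ) 1) := isCompact_Icc.prod isCompact_Icc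
    have hF : Continuous fun z : ℝ × ℝ => (W z.1).eval z.2 - e * z.1 :=
      hc.sub (continuous_const.mul continuous_fst)
    obtain ⟨⟨t0, x0⟩, ⟨hz1, hz2⟩, hmax⟩ :=
      hK.exists_isMaxOn ⟨(t, x), ⟨ht, le_rfl⟩, hx⟩ hF.continuousOn
    have hm : ∀ s ∈ Icc (0 : ℝ) t, ∀ y ∈ Icc (0 : ℝ) 1,
        (W s).eval y - e * s ≤ (W t0).eval x0 - e * t0 := fun s hs y hy =>
      hmax (show (s, y) ∈ Icc (0 : ℝ) t ×ˢ Icc (0 : ℝ) 1 from ⟨hs, hy⟩)
    have hz1' : t0 ∈ Icc (0 : ℝ) t := hz1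
    have hz2' : x0 ∈ Icc (0 : ℝ) 1 := hz2
    rcases hz1'.1.eq_or_lt with h1 | h1
    · have a := hm t ⟨ht, le_rfl⟩ x hx
      have b := h0 x0 hz2'
      rw [← h1] at a
      linarith
    · exfalso
      have d1 : HasDerivAt (fun s => (W s).eval x0 - e * s) ((W' t0).eval x0 - e * 1) t0 :=
        (hd t0 x0).sub ((hasDerivAt_id t0).const_mul e)
      have a := maxP_left d1 h1 fun s a b => hm _ ⟨by linarith, by linarith [hz1'.2]⟩ x0 hz2'
      have b := maxP_space hα hβ (W t0) hz2' fun y hy => by linarith [hm t0 hz1' y hy]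
      have c := hle t0 h1 x0 hz2'
      linarith
  refine le_of_forall_pos_le_add fun ε hε => ?_
  have h1 := key (ε / (t + 1)) (by positivity)
  have h2 : ε / (t + 1) * t ≤ ε := by
    rw [div_mul_eq_mul_div, div_le_iff₀ (by positivity)]
    nlinarith
  linarith

theorem maxP_der (h : 0 < α + β) (φ : ℝ[X] →ₗ[ℝ] ℝ[X]) (p : ℝ[X]) (t x : ℝ) :
    HasDerivAt (fun t => (φ (Pp α β t p)).eval x) ((φ (Lp α β (Pp α β t p))).eval x) t :=
  Pp_hasDerivAt h (leval x ∘ₗ φ) p t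

theorem maxP_up (hα : 0 < α) (hβ : 0 < β) {p : ℝ[X]} {M t : ℝ}
    (hp : ∀ x ∈ Icc (0 : ℝ) 1, p.eval x ≤ M) (ht : 0 ≤ t) :
    ∀ x ∈ Icc (0 : ℝ) 1, (Pp α β t p).eval x ≤ M :=
  max_principle hα.le hβ.le (fun t => Pp α β t p) (fun t => Lp α β (Pp α β t p))
    (Pp_cont LinearMap.id p) (fun t x => maxP_der (add_pos hα hβ) LinearMap.id p t x)
    (fun _ _ _ _ => le_rfl) (fun x hx => by rw [Pp_zero]; exact hp x hx) ht

theorem Pp_bound (hα : 0 < α) (hβ : 0 < β) {p : ℝ[X]} {M t : ℝ}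
    (hp : ∀ x ∈ Icc (0 : ℝ) 1, |p.eval x| ≤ M) (ht : 0 ≤ t) :
    ∀ x ∈ Icc (0 : ℝ) 1, |(Pp α β t p).eval x| ≤ M := by
  intro x hx
  have h1 := maxP_up hα hβ (fun x hx => (abs_le.1 (hp x hx)).2) ht x hx
  have h2 := maxP_up (p := -p) (M := M) hα hβ
    (fun x hx => by rw [eval_neg]; linarith [(abs_le.1 (hp x hx)).1]) ht x hx
  rw [map_neg, eval_neg] at h2
  exact abs_le.2 ⟨by linarith, h1⟩

theorem maxP_id (u : ℝ[X]) (s x : ℝ) :
    (Lp α β (C (2 * s) * aP * derivative u ^ 2 + u ^ 2)).eval x -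
      (C 2 * aP * derivative u ^ 2 +
        C (2 * s) * aP * (C 2 * derivative u * derivative (Lp α β u)) +
          C 2 * u * Lp α β u).eval x =
      2 * s * (2 * (x * (1 - x) * (derivative (derivative u)).eval x +
        (1 - 2 * x) * (derivative u).eval x / 2) ^ 2 +
        ((α - 1 / 2) * (1 - x) + (β - 1 / 2) * x) * (derivative u).eval x ^ 2) := by
  simp [Lp_apply, aP, bP, sq]
  ring

theorem Pp_grad (hα : 1 / 2 ≤ α) (hβ : 1 / 2 ≤ β) {p : ℝ[X]} {M t : ℝ}
    (hp : ∀ x ∈ Icc (0 : ℝ) 1, |p.eval x| ≤ M) (ht : 0 ≤ t) :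
    ∀ x ∈ Icc (0 : ℝ) 1,
      2 * t * (x * (1 - x) * (derivative (Pp α β t p)).eval x ^ 2) ≤ M ^ 2 := by
  have hab : 0 < α + β := by linarith
  have key := max_principle (α := α) (β := β) (by linarith) (by linarith)
    (fun s => C (2 * s) * aP * derivative (Pp α β s p) ^ 2 + Pp α β s p ^ 2)
    (fun s => C 2 * aP * derivative (Pp α β s p) ^ 2 +
      C (2 * s) * aP * (C 2 * derivative (Pp α β s p) * derivative (Lp α β (Pp α β s p))) +
        C 2 * Pp α β s p * Lp α β (Pp α β s p)) (M := M ^ 2) ?_ ?_ ?_ ?_ ht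
  · intro x hx
    have h1 := key x hx
    simp only [aP, eval_add, eval_mul, eval_pow, eval_C, eval_X, eval_sub, eval_one] at h1
    nlinarith [sq_nonneg ((Pp α β t p).eval x)]
  · have c1 := Pp_cont (α := α) (β := β) LinearMap.id p
    have c2 := Pp_cont (α := α) (β := β) derivative p
    simp only [LinearMap.id_apply] at c1
    simp only [aP, eval_add, eval_mul, eval_pow, eval_C, eval_X, eval_sub, eval_one]
    exact (((continuous_const.mul continuous_fst).mul
      (continuous_snd.mul (continuous_const.sub continuous_snd))).mul (c2.pow 2)).add (c1.pow 2)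
  · intro s x
    have d1 := maxP_der hab LinearMap.id p s x
    have d2 := maxP_der hab derivative p s x
    simp only [LinearMap.id_apply] at d1
    simp only [eval_add, eval_mul, eval_pow, eval_C]
    have d3 := ((((hasDerivAt_id s).const_mul 2).mul_const (aP.eval x)).mul (d2.pow 2)).add
      (d1.pow 2)
    refine HasDerivAt.congr_deriv d3 ?_
    simp
  · intro s hs x hx
    have e := maxP_id (α := α) (β := β) (Pp α β s p) s x
    have h1 : 0 ≤ (α - 1 / 2) * (1 - x) + (β - 1 / 2) * x :=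
      add_nonneg (mul_nonneg (by linarith) (by linarith [hx.2])) (mul_nonneg (by linarith) hx.1)
    rw [← sub_nonneg, e]
    positivity
  · intro x hx
    have h1 := hp x hx
    simp only [Pp_zero, mul_zero, map_zero, zero_mul, zero_add, eval_pow]
    exact sq_le_sq' (abs_le.1 h1).1 (abs_le.1 h1).2

theorem Pp_Dsp_bound (hα : 0 < α) (hβ : 0 < β) {p : ℝ[X]} {M t : ℝ}
    (hp : ∀ x ∈ Icc (0 : ℝ) 1, |p.eval x| ≤ M) (ht : 0 < t) :
    ∀ x ∈ Icc (0 : ℝ) 1,
      |(Pp α β t (Dsp α β p)).eval x| ≤ (1 + α + β) * (1 + 1 / √t) * M := by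
  intro x hx
  have hM : 0 ≤ M := (abs_nonneg _).trans (hp x hx)
  have hs : 0 < √t := Real.sqrt_pos.2 ht
  have h1 := Pp_bound (α := α + 1) (β := β + 1) (by linarith) (by linarith) hp ht.le x hx
  have h2 := Pp_grad (α := α + 1) (β := β + 1) (by linarith) (by linarith) hp ht.le x hx
  rw [Pp_Dsp (add_pos hα hβ), eval_smul, smul_eq_mul, abs_mul, Dsp_apply]
  simp only [aP, bP, eval_add, eval_mul, eval_C, eval_X, eval_sub, eval_one]
  generalize (Pp (α + 1) (β + 1) t p).eval x = v at h1 ⊢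
  generalize (derivative (Pp (α + 1) (β + 1) t p)).eval x = w at h2 ⊢
  have x0 := hx.1
  have x1 : 0 ≤ 1 - x := by linarith [hx.2]
  have e1 : |Real.exp (-(α + β) * t)| ≤ 1 := by
    rw [abs_of_pos (Real.exp_pos _), Real.exp_le_one_iff]
    nlinarith
  have e2 : |x * (1 - x) * w| ≤ 1 / √t * M := by
    apply abs_le_of_sq_le_sq _ (by positivity)
    rw [mul_pow (1 / √t), div_pow, Real.sq_sqrt ht.le, one_pow, one_div_mul_eq_div,
      le_div_iff₀ ht]
    have a1 : x * (1 - x) ≤ 1 := by nlinarith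
    have a2 : 0 ≤ t * (x * (1 - x) * w ^ 2) := by positivity
    calc (x * (1 - x) * w) ^ 2 * t = x * (1 - x) * (t * (x * (1 - x) * w ^ 2)) := by ring
      _ ≤ 1 * (t * (x * (1 - x) * w ^ 2)) := by gcongr
      _ ≤ M ^ 2 := by linarith
  have e3 : |(α * (1 - x) - β * x) * v| ≤ (α + β) * M := by
    rw [abs_mul]
    refine mul_le_mul (abs_le.2 ⟨?_, ?_⟩) h1 (abs_nonneg _) (by linarith)
    · nlinarith [mul_nonneg hα.le x1, mul_nonneg hβ.le x1]
    · nlinarith [mul_nonneg hα.le x0, mul_nonneg hβ.le x0]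
  have e4 := abs_add_le (x * (1 - x) * w) ((α * (1 - x) - β * x) * v)
  have e5 : 0 ≤ (α + β) * (1 / √t * M) := by positivity
  calc _ ≤ 1 * (1 / √t * M + (α + β) * M) :=
        mul_le_mul e1 (by linarith) (abs_nonneg _) zero_le_one
    _ ≤ _ := by nlinarith

end Vale.Agent.P244B
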