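import Vale.Agent.P244B.Base
import Vale.Agent.P244B.MaxP

/-! The Jacobi semigroup on continuous functions. -/

open Set Filter
open scoped Topology unitInterval

noncomputable section

namespace Vale.Agent.P244B

/-- the semigroup -/
def PS (α β t : ℝ) : B →L[ℝ] B :=
  (pl.toLinearMap ∘ₗ Pp α β t).extendOfNorm pl.toLinearMap

/-- the semigroup after `f ↦ a f' + b f` -/
def QS (α β t : ℝ) : B →L[ℝ] B :=
  (pl.toLinearMap ∘ₗ Pp α β t ∘ₗ Dsp α β).extendOfNorm pl.toLinearMap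

variable {α β : ℝ}

theorem semi_le (p : Polynomial ℝ) : ∀ x ∈ Icc (0 : ℝ) 1, |p.eval x| ≤ ‖pl p‖ :=
  fun x hx => (pl p).norm_coe_le_norm ⟨x, hx⟩

theorem semi_norm {p : Polynomial ℝ} {M : ℝ} (h : ∀ x ∈ Icc (0 : ℝ) 1, |p.eval x| ≤ M) :
    ‖pl p‖ ≤ M :=
  (ContinuousMap.norm_le_of_nonempty _).2 fun x => h x x.2

theorem semi_P (hα : 0 < α) (hβ : 0 < β) {t : ℝ} (ht : 0 ≤ t) (p : Polynomial ℝ) :
    ‖(pl.toLinearMap ∘ₗ Pp α β t) p‖ ≤ 1 * ‖pl.toLinearMap p‖ := by
  rw [one_mul]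
  exact semi_norm (Pp_bound hα hβ (semi_le p) ht)

theorem semi_Q (hα : 0 < α) (hβ : 0 < β) {t : ℝ} (ht : 0 < t) (p : Polynomial ℝ) :
    ‖(pl.toLinearMap ∘ₗ Pp α β t ∘ₗ Dsp α β) p‖ ≤
      (1 + α + β) * (1 + 1 / √t) * ‖pl.toLinearMap p‖ := by
  have h := semi_norm (p := Pp α β t (Dsp α β p)) (Pp_Dsp_bound hα hβ (semi_le p) ht)
  exact h

theorem semi_dense : DenseRange pl.toLinearMap := dense_pl

theorem semi_ext {F G : B → B} (hF : Continuous F) (hG : Continuous G)
    (h : ∀ p, F (pl p) = G (pl p)) (f : B) : F f = G f :=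
  dense_pl.induction_on f (isClosed_eq hF hG) h

theorem semi_cst (c : ℝ) : pl (Polynomial.C c) = cst c := by
  ext v
  simp

theorem semi_Dsp (p : Polynomial ℝ) :
    pl (Dsp α β p) = aa * pl (Polynomial.derivative p) + bb α β * pl p := by
  ext v
  simp [Dsp_apply, aP, bP]

theorem PS_pl (hα : 0 < α) (hβ : 0 < β) {t : ℝ} (ht : 0 ≤ t) (p : Polynomial ℝ) :
    PS α β t (pl p) = pl (Pp α β t p) := by
  exact LinearMap.extendOfNorm_eq semi_dense ⟨1, semi_P hα hβ ht⟩ p

theorem QS_pl (hα : 0 < α) (hβ : 0 < β) {t : ℝ} (ht : 0 < t) (p : Polynomial ℝ) :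
    QS α β t (pl p) = pl (Pp α β t (Dsp α β p)) := by
  exact LinearMap.extendOfNorm_eq semi_dense ⟨_, semi_Q hα hβ ht⟩ p

theorem PS_norm (hα : 0 < α) (hβ : 0 < β) {t : ℝ} (ht : 0 ≤ t) (f : B) : ‖PS α β t f‖ ≤ ‖f‖ := by
  have := LinearMap.norm_extendOfNorm_apply_le semi_dense 1 (semi_P hα hβ ht) f
  rwa [one_mul] at this

theorem QS_norm (hα : 0 < α) (hβ : 0 < β) {t : ℝ} (ht : 0 < t) (f : B) :
    ‖QS α β t f‖ ≤ (1 + α + β) * (1 + 1 / √t) * ‖f‖ := by
  exact LinearMap.norm_extendOfNorm_apply_le semi_dense _ (semi_Q hα hβ ht) f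

theorem PS_zero (hα : 0 < α) (hβ : 0 < β) (f : B) : PS α β 0 f = f := by
  refine semi_ext (G := fun f => f) (PS α β 0).continuous continuous_id (fun p => ?_) f
  rw [PS_pl hα hβ le_rfl, Pp_zero]

theorem PS_add (hα : 0 < α) (hβ : 0 < β) {s t : ℝ} (hs : 0 ≤ s) (ht : 0 ≤ t) (f : B) :
    PS α β (s + t) f = PS α β s (PS α β t f) := by
  refine semi_ext (G := fun f => PS α β s (PS α β t f)) (PS α β (s + t)).continuous
    ((PS α β s).continuous.comp (PS α β t).continuous) (fun p => ?_) f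
  rw [PS_pl hα hβ (add_nonneg hs ht), PS_pl hα hβ ht, PS_pl hα hβ hs, Pp_add]

theorem PS_QS (hα : 0 < α) (hβ : 0 < β) {s t : ℝ} (hs : 0 ≤ s) (ht : 0 < t) (f : B) :
    PS α β s (QS α β t f) = QS α β (s + t) f := by
  refine semi_ext (F := fun f => PS α β s (QS α β t f))
    ((PS α β s).continuous.comp (QS α β t).continuous) (QS α β (s + t)).continuous (fun p => ?_) f
  rw [QS_pl hα hβ (add_pos_of_nonneg_of_pos hs ht), QS_pl hα hβ ht, PS_pl hα hβ hs, Pp_add]

theorem semi_cont (h : 0 < α + β) (p : Polynomial ℝ) : Continuous fun t => pl (Pp α β t p) :=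
  continuous_iff_continuousAt.2 fun t => (Pp_hasDerivAt h pl.toLinearMap p t).continuousAt

theorem PS_cont (hα : 0 < α) (hβ : 0 < β) (f : B) :
    ContinuousOn (fun t => PS α β t f) (Ici 0) := by
  refine continuousOn_of_uniform_approx_of_continuousOn fun u hu => ?_
  obtain ⟨ε, hε, hu⟩ := Metric.mem_uniformity_dist.1 hu
  obtain ⟨p, hp⟩ := dense_pl.exists_dist_lt f hε
  refine ⟨fun t => pl (Pp α β t p), (semi_cont (add_pos hα hβ) p).continuousOn, fun t ht => hu ?_⟩
  beta_reduce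
  rw [← PS_pl hα hβ ht, dist_eq_norm, ← map_sub]
  rw [dist_eq_norm] at hp
  exact (PS_norm hα hβ ht _).trans_lt hp

theorem PS_cst (hα : 0 < α) (hβ : 0 < β) {t : ℝ} (ht : 0 ≤ t) (c : ℝ) :
    PS α β t (cst c) = cst c := by
  rw [← semi_cst, PS_pl hα hβ ht, Pp_C (add_pos hα hβ)]

theorem semi_isD {F G : ℕ → B} {f g : B} (hF : Tendsto F atTop (𝓝 f)) (hG : Tendsto G atTop (𝓝 g))
    (h : ∀ n, IsD (F n) (G n)) : IsD f g :=
  isClosed_isD.mem_of_tendsto (hF.prodMk_nhds hG) (Eventually.of_forall h)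

theorem PS_isD (hα : 0 < α) (hβ : 0 < β) {t : ℝ} (ht : 0 ≤ t) {f g : B} (h : IsD f g) :
    IsD (PS α β t f) (Real.exp (-(α + β) * t) • PS (α + 1) (β + 1) t g) := by
  obtain ⟨p, h1, h2⟩ := h.approx
  refine semi_isD (((PS α β t).continuous.tendsto f).comp h1)
    ((((PS (α + 1) (β + 1) t).continuous.tendsto g).comp h2).const_smul _) fun n => ?_
  simp only [Function.comp_apply]
  rw [PS_pl hα hβ ht, PS_pl (by linarith) (by linarith) ht, ← map_smul,
    ← Pp_deriv (add_pos hα hβ)]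
  exact isD_pl _

theorem QS_eq (hα : 0 < α) (hβ : 0 < β) {t : ℝ} (ht : 0 < t) {f g : B} (h : IsD f g) :
    QS α β t f = PS α β t (aa * g + bb α β * f) := by
  obtain ⟨p, h1, h2⟩ := h.approx
  refine tendsto_nhds_unique (((QS α β t).continuous.tendsto f).comp h1) ?_
  refine (((PS α β t).continuous.tendsto _).comp
    ((h2.const_mul aa).add (h1.const_mul (bb α β)))).congr fun n => ?_
  simp only [Function.comp_apply]
  rw [QS_pl hα hβ ht, ← semi_Dsp, PS_pl hα hβ ht.le]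

theorem QS_isD (hα : 0 < α) (hβ : 0 < β) {t : ℝ} (ht : 0 < t) {f g : B} (h : IsD f g) :
    IsD (QS α β t f) (Real.exp (-(α + β) * t) •
      (QS (α + 1) (β + 1) t g - (α + β) • PS (α + 1) (β + 1) t f)) := by
  obtain ⟨p, h1, h2⟩ := h.approx
  refine semi_isD (((QS α β t).continuous.tendsto f).comp h1)
    (((((QS (α + 1) (β + 1) t).continuous.tendsto g).comp h2).sub
      ((((PS (α + 1) (β + 1) t).continuous.tendsto f).comp h1).const_smul _)).const_smul _)
    fun n => ?_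
  simp only [Function.comp_apply]
  rw [QS_pl hα hβ ht, QS_pl (by linarith) (by linarith) ht,
    PS_pl (by linarith) (by linarith) ht.le, ← map_smul, ← map_sub, ← map_smul, ← map_smul,
    ← map_sub, ← deriv_Dsp, ← Pp_deriv (add_pos hα hβ)]
  exact isD_pl _

theorem semi_max (hα : 0 < α) (hβ : 0 < β) (k : B) : Continuous fun s => PS α β (max s 0) k :=
  (PS_cont hα hβ k).comp_continuous (continuous_id.max continuous_const) fun _ =>
    mem_Ici.2 (le_max_right _ _)

theorem semi_int_pl (hα : 0 < α) (hβ : 0 < β) {t : ℝ} (ht : 0 ≤ t) (p : Polynomial ℝ) :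
    PS α β t (pl p) = pl p + ∫ s in (0 : ℝ)..t, PS α β (max s 0) (pl (Lp α β p)) := by
  have h1 : ∫ s in (0 : ℝ)..t, PS α β (max s 0) (pl (Lp α β p)) =
      ∫ s in (0 : ℝ)..t, pl (Pp α β s (Lp α β p)) := by
    refine intervalIntegral.integral_congr fun s hs => ?_
    rw [uIcc_of_le ht] at hs
    simp only [max_eq_left hs.1]
    exact PS_pl hα hβ hs.1 _
  have h2 : ∀ s, HasDerivAt (fun t => pl (Pp α β t p)) (pl (Pp α β s (Lp α β p))) s := fun s => by
    rw [← Pp_L (add_pos hα hβ)]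
    exact Pp_hasDerivAt (add_pos hα hβ) pl.toLinearMap p s
  rw [h1, intervalIntegral.integral_eq_sub_of_hasDerivAt (fun s _ => h2 s)
    ((semi_cont (add_pos hα hβ) _).intervalIntegrable _ _), Pp_zero, PS_pl hα hβ ht]
  abel

theorem semi_int_cont (hα : 0 < α) (hβ : 0 < β) (t : ℝ) :
    Continuous fun k : B => ∫ s in (0 : ℝ)..t, PS α β (max s 0) k := by
  refine (LipschitzWith.of_dist_le_mul (K := ‖t‖₊) fun k k' => ?_).continuous
  rw [dist_eq_norm, dist_eq_norm, ← intervalIntegral.integral_sub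
    ((semi_max hα hβ k).intervalIntegrable _ _) ((semi_max hα hβ k').intervalIntegrable _ _)]
  have := intervalIntegral.norm_integral_le_of_norm_le_const (a := 0) (b := t) (C := ‖k - k'‖)
    (f := fun s => PS α β (max s 0) k - PS α β (max s 0) k') fun s _ => by
      rw [← map_sub]
      exact PS_norm hα hβ (le_max_right _ _) _
  rw [sub_zero, mul_comm] at this
  exact this

/-- the generator on twice differentiable functions -/
theorem PS_gen (hα : 0 < α) (hβ : 0 < β) {f g h : B} (h1 : IsD f g) (h2 : IsD g h) :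
    HasDerivWithinAt (fun t => PS α β t f) (aa * h + bb α β * g) (Ici 0) 0 := by
  obtain ⟨p, a1, a2, a3⟩ := h1.approx₂ h2
  have e : ∀ t, 0 ≤ t → PS α β t f =
      f + ∫ s in (0 : ℝ)..t, PS α β (max s 0) (aa * h + bb α β * g) := by
    intro t ht
    refine tendsto_nhds_unique (((PS α β t).continuous.tendsto f).comp a1) ?_
    refine (a1.add (((semi_int_cont hα hβ t).tendsto _).comp
      ((a3.const_mul aa).add (a2.const_mul (bb α β))))).congr fun n => ?_
    simp only [Function.comp_apply]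
    rw [semi_int_pl hα hβ ht, ← semi_Dsp]
    rfl
  have h3 := (((semi_max hα hβ (aa * h + bb α β * g)).integral_hasStrictDerivAt 0
    0).hasDerivAt.const_add f).hasDerivWithinAt (s := Ici 0)
  rw [max_self, PS_zero hα hβ] at h3
  exact h3.congr e (e 0 le_rfl)

end Vale.Agent.P244B
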