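import Vale.Agent.P244B.Ex
import Vale.Agent.P244B.Semi
import Vale.Agent.P244B.Loc

/-! Systems `U' = L U - γ U + D* M(U) + N(U)` and the system for the derivative. -/

open Set Filter
open scoped ContDiff Topology unitInterval

noncomputable section

namespace Vale.Agent.P244B

/-- data of a system -/
structure Sys (ι : Type) where
  α : ι → ℝ
  β : ι → ℝ
  γ : ι → ℝ
  M : ι → (ι → B) → B
  N : ι → (ι → B) → B
  hα : ∀ i, 0 < α i
  hβ : ∀ i, 0 < β i
  hγ : ∀ i, 0 ≤ γ i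
  gM : ∀ i, Good (M i)
  gN : ∀ i, Good (N i)

variable {ι : Type} [Fintype ι]

/-- the diagonal semigroup -/
def PP (α β γ : ι → ℝ) (t : ℝ) : (ι → B) →L[ℝ] (ι → B) :=
  ContinuousLinearMap.pi fun i =>
    Real.exp (-γ i * t) • (PS (α i) (β i) t ∘L ContinuousLinearMap.proj i)

/-- the kernel -/
def KK (α β γ : ι → ℝ) (t : ℝ) : ((ι → B) × (ι → B)) →L[ℝ] (ι → B) :=
  ContinuousLinearMap.pi fun i => Real.exp (-γ i * t) •
    (QS (α i) (β i) t ∘L ContinuousLinearMap.proj i ∘L ContinuousLinearMap.fst ℝ _ _ +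
      PS (α i) (β i) t ∘L ContinuousLinearMap.proj i ∘L ContinuousLinearMap.snd ℝ _ _)

omit [Fintype ι] in
theorem PP_apply (α β γ : ι → ℝ) (t : ℝ) (U : ι → B) (i : ι) :
    PP α β γ t U i = Real.exp (-γ i * t) • PS (α i) (β i) t (U i) := rfl

omit [Fintype ι] in
theorem KK_apply (α β γ : ι → ℝ) (t : ℝ) (W : (ι → B) × (ι → B)) (i : ι) :
    KK α β γ t W i =
      Real.exp (-γ i * t) • (QS (α i) (β i) t (W.1 i) + PS (α i) (β i) t (W.2 i)) := rfl

theorem sys_exp {γ t : ℝ} (hγ : 0 ≤ γ) (ht : 0 ≤ t) (f : B) : ‖Real.exp (-γ * t) • f‖ ≤ ‖f‖ := by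
  rw [norm_smul, Real.norm_of_nonneg (Real.exp_pos _).le]
  exact mul_le_of_le_one_left (norm_nonneg _) (Real.exp_le_one_iff.2 (by nlinarith))

theorem sys_bl_pi {E F : Type} [NormedAddCommGroup E] [NormedAddCommGroup F] {G : ι → E → F}
    (h : ∀ i, BL (G i)) : BL fun u i => G i u := fun R => by
  choose L h0 hL using fun i => h i R
  have h1 : 0 ≤ ∑ i, L i := Finset.sum_nonneg fun i _ => h0 i
  refine ⟨∑ i, L i, h1, fun u v hu hv => (pi_norm_le_iff_of_nonneg (by positivity)).2 fun i =>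
    (hL i u v hu hv).trans (mul_le_mul_of_nonneg_right ?_ (norm_nonneg _))⟩
  exact Finset.single_le_sum (fun i _ => h0 i) (Finset.mem_univ i)

theorem ker_PP {α β γ : ι → ℝ} (hα : ∀ i, 0 < α i) (hβ : ∀ i, 0 < β i) (hγ : ∀ i, 0 ≤ γ i) :
    ∃ C, Ker (PP α β γ) (KK α β γ) C := by
  have h0 : ∀ i, 0 ≤ 2 + α i + β i := fun i => by linarith [hα i, hβ i]
  have h1 : 0 ≤ ∑ i, (2 + α i + β i) := Finset.sum_nonneg fun i _ => h0 i
  refine ⟨∑ i, (2 + α i + β i), h1, fun u => ?_, fun s t u hs ht => ?_, fun t u ht => ?_,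
    fun u => ?_, fun s t f hs ht => ?_, fun t f ht => ?_⟩
  · funext i
    rw [PP_apply, PS_zero (hα i) (hβ i), mul_zero, Real.exp_zero, one_smul]
  · funext i
    rw [PP_apply, PP_apply, PP_apply, PS_add (hα i) (hβ i) hs ht, map_smul, smul_smul,
      ← Real.exp_add, mul_add]
  · exact (pi_norm_le_iff_of_nonneg (norm_nonneg _)).2 fun i => (sys_exp (hγ i) ht _).trans
      ((PS_norm (hα i) (hβ i) ht _).trans (norm_le_pi_norm u i))
  · refine continuousOn_pi.2 fun i => ?_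
    simp only [PP_apply]
    exact (by fun_prop : Continuous fun t => Real.exp (-γ i * t)).continuousOn.smul
      (PS_cont (hα i) (hβ i) _)
  · funext i
    rw [PP_apply, KK_apply, KK_apply, map_smul, map_add, PS_QS (hα i) (hβ i) hs ht,
      PS_add (hα i) (hβ i) hs ht.le, smul_smul, ← Real.exp_add, mul_add]
  · refine (pi_norm_le_iff_of_nonneg (by positivity)).2 fun i => ?_
    rw [KK_apply]
    refine (sys_exp (hγ i) ht.le _).trans ((norm_add_le _ _).trans ?_)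
    have a1 := QS_norm (hα i) (hβ i) ht (f.1 i)
    have a2 := PS_norm (hα i) (hβ i) ht.le (f.2 i)
    have a3 : ‖f.1 i‖ ≤ ‖f‖ := (norm_le_pi_norm f.1 i).trans (norm_fst_le f)
    have a4 : ‖f.2 i‖ ≤ ‖f‖ := (norm_le_pi_norm f.2 i).trans (norm_snd_le f)
    have a5 : 2 + α i + β i ≤ ∑ i, (2 + α i + β i) :=
      Finset.single_le_sum (fun i _ => h0 i) (Finset.mem_univ i)
    have a6 : 0 ≤ 1 / √t := by positivity
    have a7 : 0 ≤ 1 + α i + β i := by linarith [hα i, hβ i]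
    have a8 := mul_le_mul_of_nonneg_left a3 (by positivity : 0 ≤ (1 + α i + β i) * (1 + 1 / √t))
    have a9 := mul_le_mul_of_nonneg_right a5 (by positivity : 0 ≤ (1 + 1 / √t) * ‖f‖)
    nlinarith [mul_nonneg a6 (norm_nonneg f)]

namespace Sys

/-- the nonlinearity -/
def GG (S : Sys ι) (U : ι → B) : (ι → B) × (ι → B) := (fun i => S.M i U, fun i => S.N i U)

theorem bl (S : Sys ι) : BL S.GG := by
  intro R
  obtain ⟨L, h0, hL⟩ := sys_bl_pi (fun i => (S.gM i).bl) R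
  obtain ⟨L', h0', hL'⟩ := sys_bl_pi (fun i => (S.gN i).bl) R
  refine ⟨L + L', by positivity, fun u v hu hv => norm_prod_le_iff.2 ⟨(hL u v hu hv).trans ?_,
    (hL' u v hu hv).trans ?_⟩⟩
  · exact mul_le_mul_of_nonneg_right (by linarith) (norm_nonneg _)
  · exact mul_le_mul_of_nonneg_right (by linarith) (norm_nonneg _)

/-- mild solutions -/
def Sol (S : Sys ι) (T : ℝ) (U : ℝ → ι → B) : Prop :=
  Mild (PP S.α S.β S.γ) (KK S.α S.β S.γ) S.GG T U

/-- the system for the pair -/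
def der (S : Sys ι) (M' N' : ι → (ι ⊕ ι → B) → B) (hM : ∀ i, Good (M' i))
    (hN : ∀ i, Good (N' i)) : Sys (ι ⊕ ι) where
  α := Sum.elim S.α fun i => S.α i + 1
  β := Sum.elim S.β fun i => S.β i + 1
  γ := Sum.elim S.γ fun i => S.γ i + (S.α i + S.β i)
  M := Sum.elim (fun i V => S.M i fun j => V (.inl j)) M'
  N := Sum.elim (fun i V => S.N i fun j => V (.inl j))
    fun i V => N' i V - (S.α i + S.β i) • S.M i fun j => V (.inl j)
  hα := by
    rintro (i | i)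
    exacts [S.hα i, add_pos (S.hα i) one_pos]
  hβ := by
    rintro (i | i)
    exacts [S.hβ i, add_pos (S.hβ i) one_pos]
  hγ := by
    rintro (i | i)
    exacts [S.hγ i, add_nonneg (S.hγ i) (add_pos (S.hα i) (S.hβ i)).le]
  gM := by
    rintro (i | i)
    exacts [(S.gM i).subst fun j => .var _, hM i]
  gN := by
    rintro (i | i)
    exacts [(S.gN i).subst fun j => .var _,
      (hN i).sub (((S.gM i).subst fun j => .var _).smul _)]

/-- pairs of functions and derivatives -/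
def sub0 (ι : Type) : Submodule ℝ (ι ⊕ ι → B) where
  carrier := {V | ∀ i, IsD (V (.inl i)) (V (.inr i))}
  add_mem' h h' i := (h i).add (h' i)
  zero_mem' _ := isD_zero
  smul_mem' c _ h i := (h i).smul c

/-- the matching subspace of sources -/
def sub1 (c : ι → ℝ) : Submodule ℝ ((ι ⊕ ι → B) × (ι ⊕ ι → B)) where
  carrier := {W | ∀ i, IsD (W.1 (.inl i)) (W.1 (.inr i)) ∧
    IsD (W.2 (.inl i)) (W.2 (.inr i) + c i • W.1 (.inl i))}
  add_mem' h h' i := ⟨(h i).1.add (h' i).1, ((h i).2.add (h' i).2).congr (by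
    simp only [Prod.fst_add, Prod.snd_add, Pi.add_apply, smul_add]; abel)⟩
  zero_mem' _ := ⟨isD_zero, isD_zero.congr (by simp)⟩
  smul_mem' a _ h i := ⟨(h i).1.smul a, ((h i).2.smul a).congr (by
    simp only [Prod.smul_fst, Prod.smul_snd, Pi.smul_apply, smul_add, smul_comm a (c i)])⟩

theorem der_invt (S : Sys ι) {M' N' : ι → (ι ⊕ ι → B) → B} (hM : ∀ i, Good (M' i))
    (hN : ∀ i, Good (N' i))
    (dM : ∀ i V, V ∈ sub0 ι → IsD (S.M i fun j => V (.inl j)) (M' i V))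
    (dN : ∀ i V, V ∈ sub0 ι → IsD (S.N i fun j => V (.inl j)) (N' i V)) :
    Invt (PP (S.der M' N' hM hN).α (S.der M' N' hM hN).β (S.der M' N' hM hN).γ)
      (KK (S.der M' N' hM hN).α (S.der M' N' hM hN).β (S.der M' N' hM hN).γ)
      (S.der M' N' hM hN).GG (sub0 ι) (sub1 fun i => S.α i + S.β i) := by
  have he : ∀ i t, Real.exp (-(S.γ i + (S.α i + S.β i)) * t) =
      Real.exp (-S.γ i * t) * Real.exp (-(S.α i + S.β i) * t) := fun i t => by
    rw [← Real.exp_add]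
    congr 1
    ring
  refine ⟨?_, fun t u ht hu i => ?_, fun t f ht hf i => ?_, fun u hu i => ⟨dM i u hu, ?_⟩⟩
  · change IsClosed {V : ι ⊕ ι → B | ∀ i, IsD (V (.inl i)) (V (.inr i))}
    rw [ofPred_forall]
    exact isClosed_iInter fun i => isClosed_isD.preimage
      (f := fun V : ι ⊕ ι → B => (V (.inl i), V (.inr i))) (by fun_prop)
  · refine ((PS_isD (S.hα i) (S.hβ i) ht (hu i)).smul (Real.exp (-S.γ i * t))).congr ?_
    rw [smul_smul, ← he]
    rfl
  · refine (((QS_isD (S.hα i) (S.hβ i) ht (hf i).1).add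
      (PS_isD (S.hα i) (S.hβ i) ht.le (hf i).2)).smul (Real.exp (-S.γ i * t))).congr ?_
    rw [← smul_add, smul_smul, ← he, map_add, map_smul, sub_add_add_cancel]
    rfl
  · exact (dN i u hu).congr (sub_add_cancel _ _).symm

theorem der_proj (S : Sys ι) {M' N' : ι → (ι ⊕ ι → B) → B} (hM : ∀ i, Good (M' i))
    (hN : ∀ i, Good (N' i)) {T : ℝ} {V : ℝ → ι ⊕ ι → B} (h : (S.der M' N' hM hN).Sol T V) :
    S.Sol T fun θ i => V θ (.inl i) := by
  obtain ⟨C, hK⟩ := ker_PP (S.der M' N' hM hN).hα (S.der M' N' hM hN).hβ (S.der M' N' hM hN).hγ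
  let π : (ι ⊕ ι → B) →L[ℝ] (ι → B) :=
    ContinuousLinearMap.pi fun i => ContinuousLinearMap.proj (.inl i)
  refine ⟨π.continuous.comp_continuousOn h.1, fun θ hθ => ?_⟩
  have h1 := congrArg π (h.2 θ hθ)
  rw [map_add, ← π.intervalIntegral_comp_comm (hK.int (f := fun s => Sys.GG _ (V s)) hθ.1
    ((S.der M' N' hM hN).bl.continuous.comp_continuousOn (h.1.mono (Icc_subset_Icc_right hθ.2))))]
    at h1
  exact h1

/-- a solution with differentiable initial value is differentiable, and the pair solves a system -/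
theorem one_step (S : Sys ι) {T : ℝ} {U : ℝ → ι → B} (hT : 0 ≤ T) (h : S.Sol T U)
    (h0 : ∀ i, IsD (U 0 i) (Dv (U 0 i))) :
    ∃ (S' : Sys (ι ⊕ ι)) (V : ℝ → ι ⊕ ι → B), S'.Sol T V ∧
      ∀ θ ∈ Icc 0 T, ∀ i, V θ (.inl i) = U θ i ∧ IsD (U θ i) (V θ (.inr i)) := by
  choose M' hM bM dM using fun i => (S.gM i).deriv
  choose N' hN bN dN using fun i => (S.gN i).deriv
  obtain ⟨C, hK⟩ := ker_PP S.hα S.hβ S.hγ
  obtain ⟨C', hK'⟩ := ker_PP (S.der M' N' hM hN).hα (S.der M' N' hM hN).hβ (S.der M' N' hM hN).hγ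
  obtain ⟨R, hR⟩ := isCompact_Icc.exists_bound_of_continuousOn h.1
  obtain ⟨M0, hM0, hb⟩ := S.bl.bound R
  choose c hc bM using fun i => bM i R
  choose d hd bN using fun i => bN i R
  have e0 : ∀ i, 0 ≤ (S.α i + S.β i) * M0 := fun i => mul_nonneg (add_pos (S.hα i) (S.hβ i)).le hM0
  have e1 : ∀ i, 0 ≤ c i + d i + (S.α i + S.β i) * M0 := fun i => by linarith [hc i, hd i, e0 i]
  have e2 : 0 ≤ ∑ i, (c i + d i + (S.α i + S.β i) * M0) := Finset.sum_nonneg fun i _ => e1 i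
  have e3 := fun i => Finset.single_le_sum (fun i _ => e1 i) (Finset.mem_univ i)
  generalize ∑ i, (c i + d i + (S.α i + S.β i) * M0) = L at e2 e3
  have lin : ∀ W : ι ⊕ ι → B, ‖fun i => W (.inl i)‖ ≤ R →
      ‖(S.der M' N' hM hN).GG W‖ ≤ (M0 + L) * (1 + ‖W‖) := fun W hW => by
    have a0 := norm_nonneg W
    have a1 : ∀ i, ‖W (.inl i)‖ ≤ R := fun i => (norm_le_pi_norm (fun i => W (.inl i)) i).trans hW
    have a2 : ∀ i, ‖S.M i fun j => W (.inl j)‖ ≤ M0 := fun i =>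
      (norm_le_pi_norm (S.GG _).1 i).trans ((norm_fst_le _).trans (hb _ hW))
    have a3 : ∀ i, ‖S.N i fun j => W (.inl j)‖ ≤ M0 := fun i =>
      (norm_le_pi_norm (S.GG _).2 i).trans ((norm_snd_le _).trans (hb _ hW))
    have a4 : M0 ≤ (M0 + L) * (1 + ‖W‖) := by nlinarith
    refine norm_prod_le_iff.2 ⟨(pi_norm_le_iff_of_nonneg (by positivity)).2 ?_,
      (pi_norm_le_iff_of_nonneg (by positivity)).2 ?_⟩
    · rintro (i | i)
      · exact (a2 i).trans a4
      · exact (bM i W a1).trans (mul_le_mul_of_nonneg_right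
          (by linarith [e3 i, hd i, e0 i]) (by positivity))
    · rintro (i | i)
      · exact (a3 i).trans a4
      · refine (norm_sub_le _ _).trans ?_
        rw [norm_smul, Real.norm_of_nonneg (add_pos (S.hα i) (S.hβ i)).le]
        have b1 := mul_le_mul_of_nonneg_left (a2 i) (add_pos (S.hα i) (S.hβ i)).le
        have b2 : (d i + (S.α i + S.β i) * M0) * (1 + ‖W‖) ≤ (M0 + L) * (1 + ‖W‖) :=
          mul_le_mul_of_nonneg_right (by linarith [e3 i, hc i]) (by positivity)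
        nlinarith [bN i W a1, mul_nonneg (e0 i) a0]
  have eq : ∀ T' ≤ T, ∀ V : ℝ → ι ⊕ ι → B, (S.der M' N' hM hN).Sol T' V →
      V 0 = Sum.elim (U 0) (fun i => Dv (U 0 i)) → ∀ θ ∈ Icc 0 T', (fun i => V θ (.inl i)) = U θ :=
    fun T' hT' V hV e => Mild.unique hK S.bl (S.der_proj hM hN hV) (Mild.mono h hT')
      (by simp only [e]; rfl)
  obtain ⟨M1, hM1⟩ := mild_lin hK' (add_nonneg hM0 e2) T
  obtain ⟨V, h1, h2, h3⟩ := mild_global hK' (S.der M' N' hM hN).bl (S.der_invt hM hN dM dN)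
    (u := Sum.elim (U 0) fun i => Dv (U 0 i)) h0 hT
    (R := M1 * (1 + ‖Sum.elim (U 0) fun i => Dv (U 0 i)‖)) fun T' hT' V hV e => by
      rw [← e]
      refine hM1 T' _ V hT'.2 hV fun θ hθ => lin _ ?_
      rw [eq T' hT'.2 V hV e θ hθ]
      exact hR θ ⟨hθ.1, hθ.2.trans hT'.2⟩
  refine ⟨_, V, h1, fun θ hθ i => ?_⟩
  have h4 : V θ (.inl i) = U θ i := congrFun (eq T le_rfl V h1 h2 θ hθ) i
  exact ⟨h4, h4 ▸ h3 θ hθ i⟩

/-- constant components -/
theorem const_comp (S : Sys ι) {T : ℝ} {U : ℝ → ι → B} (h : S.Sol T U) {i : ι}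
    (hM : ∀ W, S.M i W = 0) (hN : ∀ W, ∃ c, S.N i W = cst c) (h0 : ∃ c, U 0 i = cst c) :
    ∀ θ ∈ Icc 0 T, U θ i = cst (U θ i 0) := by
  obtain ⟨C, hK⟩ := ker_PP S.hα S.hβ S.hγ
  let pr : (ι → B) →L[ℝ] B := ContinuousLinearMap.proj i
  let Λ : (ι → B) →L[ℝ] B := pr - cst ∘L ev0 ∘L pr
  have hΛ : ∀ (W : ι → B) (a c : ℝ), W i = a • cst c → Λ W = 0 := fun W a c e => by
    change W i - cst (W i 0) = 0
    rw [e]
    ext v
    simp
  intro θ hθ
  have h1 := congrArg Λ (h.2 θ hθ)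
  obtain ⟨c, hc⟩ := h0
  rw [map_add, ← Λ.intervalIntegral_comp_comm (hK.int (f := fun s => S.GG (U s)) hθ.1
    (S.bl.continuous.comp_continuousOn (h.1.mono (Icc_subset_Icc_right hθ.2)))),
    hΛ (PP S.α S.β S.γ θ (U 0)) _ c (by rw [PP_apply, hc, PS_cst (S.hα i) (S.hβ i) hθ.1]),
    zero_add, intervalIntegral.integral_congr (g := fun _ => 0) fun s hs => ?_,
    intervalIntegral.integral_zero] at h1
  · exact sub_eq_zero.1 h1
  · rw [uIcc_of_le hθ.1] at hs
    obtain ⟨c', hc'⟩ := hN (U s)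
    refine hΛ _ (Real.exp (-S.γ i * (θ - s))) c' ?_
    rw [KK_apply]
    change _ • (QS _ _ _ (S.M i (U s)) + PS _ _ _ (S.N i (U s))) = _
    rw [hM, hc', map_zero, zero_add, PS_cst (S.hα i) (S.hβ i) (sub_nonneg.2 hs.2)]

end Sys

end Vale.Agent.P244B
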