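import Vale.Agent.P244B.OpJ
import Vale.Agent.P244B.Sys
import Vale.Agent.P244.Sol

/-! The concrete system. Unknowns: `b, c, κ, log ℓ, t`. -/

open Set Filter
open scoped ContDiff Topology unitInterval

noncomputable section

namespace Vale.Agent.P244B

def eta (b : B) : B := 1 + vv * HH 2 b

def gg (q : ℝ) (b c i : B) : B :=
  cst 8 * aa * c ^ 2 + cst q * ((1 - vv) * b * (1 + vv * b) * i ^ 2 - i)

def AA (q : ℝ) (b c i : B) : B := cst q * HH 2 b * i + Jop (gg q b c i)

def Fh (c k : B) : B := cst (ev0 k) + prim c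

def eF (c k : B) : B := expC.comp (cst (-2) * Fh c k)

def Mb (q : ℝ) (b c i : B) : B :=
  cst (-(1 / 2)) * (AA q b c i - cst 2 * HH 2 b * i) * b - cst (1 / 2) * b ^ 2 * i

def A2 (q : ℝ) (b c i : B) : B := AA q b c i + cst 2 * (b - HH 2 b) * i

def aA (q : ℝ) (b c i : B) : B :=
  cst (q - 2) * (1 - vv) * (cst (1 / 2) * (b - cst 3 * HH 2 b) * i -
      cst (1 / 2) * vv * HH 2 b * i ^ 2 * (b - HH 2 b)) +
    cst (1 / 2) * (gg q b c i - cst (avg (gg q b c i)) - (1 - cst 2 * vv) * Jop (gg q b c i))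

def Nb (q : ℝ) (b c i : B) : B :=
  cst (1 / 4) * (cst (-2) * A2 q b c i * (1 - vv) * b + A2 q b c i * (1 + vv * b) -
      cst 8 * (1 - vv) * c ^ 2 * (1 + vv * b) - cst 6 * b -
      cst (q - 1) * (1 + vv * b) * HH 2 b * (1 + eta b) * i ^ 2 -
      cst (q - 1) * (1 + vv * b) * (1 - vv) * b ^ 2 * i ^ 2 +
      cst (2 * (q - 1)) * (1 - vv) * b * (HH 2 b * (1 + eta b) - b) * i ^ 2 +
      cst 2 * aA q b c i * b - aa * b ^ 2 * (b - HH 2 b) * i ^ 2) -
    bb ((q + 3) / 2) (3 / 2) * Mb q b c i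

def Mc (q : ℝ) (b c i : B) : B := cst (-(1 / 2)) * AA q b c i * c

def Nc (q : ℝ) (b c k i : B) : B :=
  cst (-((q + 2) / 2)) * c + cst (1 / 2) * bb ((q + 1) / 2) (1 / 2) * AA q b c i * c +
    cst ((q - 1) / 2) * eF c k * c

def Nk (q : ℝ) (b c k i : B) : B :=
  cst ((q + 1) / 2) * cst (ev0 c) - cst ((q - 1) / 4) * expC.comp (cst (-2) * cst (ev0 k)) -
    cst (1 / 4) * cst (avg (gg q b c i))

def Nl (q : ℝ) (b c i : B) : B := cst (1 / 4) * cst (avg (gg q b c i))

def Nt (l : B) : B := cst (1 / 4) * expC.comp (cst 2 * cst (ev0 l))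

def ww (q : ℝ) (b c i : B) : B := cst q * b * i + Jop (gg q b c i) + cst 4 * c

/-- four times the time derivative of `η` -/
def Xi (q : ℝ) (b b1 c i : B) : B :=
  -(cst (avg (gg q b c i)) * eta b) - (1 - vv) * (cst q * b * i + Jop (gg q b c i)) * (1 + vv * b) -
    cst (q - 1) * (1 - (1 - vv) * b * (cst 2 + vv * b)) * i - (1 + vv * b) +
    cst 2 * (1 - vv) * (b + vv * b1)

/-- four times the time derivative of `F` -/
def Psi (q : ℝ) (b c c1 k i : B) : B :=
  cst 4 * (aa * c1 + bb ((q + 1) / 2) (1 / 2) * c) - cst 2 * aa * AA q b c i * c -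
    cst (q - 1) * eF c k

/-- the inverse of a positive function -/
def binv (f : B) : B := (iot (mu f)).comp f

theorem binv_mul {f : B} (h : 0 < mu f) (v : I) : binv f v * f v = 1 := by
  change iot (mu f) (f v) * f v = 1
  have h1 := le_mu.1 (le_refl (mu f)) v
  rw [iot_eq h h1, inv_mul_cancel₀ (h.trans_le h1).ne']

theorem iot_comp {f : B} {ε : ℝ} (hε : 0 < ε) (h : ε ≤ mu f) : (iot ε).comp f = binv f := by
  ext v
  change iot ε (f v) = iot (mu f) (f v)
  rw [iot_eq hε (le_mu.1 h v), iot_eq (hε.trans_le h) (le_mu.1 le_rfl v)]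

theorem isD_eta (b : B) : IsD (eta b) (cst (1 / 2) * (b - HH 2 b)) := by
  exact (isD_one.add (isD_vH2 b)).congr (zero_add _)

theorem isD_Fh (c k : B) : IsD (Fh c k) c := by
  exact ((isD_cst _).add (isD_prim c)).congr (zero_add _)

theorem isD_inv {f f' i : B} (h : IsD f f') (hi : ∀ v, i v * f v = 1) :
    IsD i (-(i ^ 2 * f')) := by
  have e : ∀ x, ex i x = (ex f x)⁻¹ := fun x => eq_inv_of_mul_eq_one_left (hi _)
  intro x hx
  have h0 : ex f x ≠ 0 := right_ne_zero_of_mul_eq_one (hi _)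
  have h1 := (h x hx).inv h0
  rw [show ex i = (ex f)⁻¹ from funext e]
  refine h1.congr_deriv ?_
  change _ = -(ex i x ^ 2 * ex f' x)
  rw [e]
  field_simp

section good

variable {ι : Type} {b c k l i : (ι → B) → B} (q : ℝ)

theorem Good.eta (hb : Good b) : Good fun U => eta (b U) := by
  exact Good.one.add (Good.vid.mul (hb.HH 2))

theorem Good.gg (hb : Good b) (hc : Good c) (hi : Good i) :
    Good fun U => gg q (b U) (c U) (i U) := by
  exact (((Good.const 8).mul Good.aa).mul (hc.pow 2)).add ((Good.const q).mul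
    (((((Good.one.sub Good.vid).mul hb).mul (Good.one.add (Good.vid.mul hb))).mul (hi.pow 2)).sub hi))

theorem Good.AA (hb : Good b) (hc : Good c) (hi : Good i) :
    Good fun U => AA q (b U) (c U) (i U) := by
  exact (((Good.const q).mul (hb.HH 2)).mul hi).add (hb.gg q hc hi).Jop

theorem Good.Fh (hc : Good c) (hk : Good k) : Good fun U => Fh (c U) (k U) := by
  exact (hk.cstL ev0).add hc.prim

theorem Good.eF (hc : Good c) (hk : Good k) : Good fun U => eF (c U) (k U) := by
  exact Good.app expC expC_smooth ((Good.const (-2)).mul (hc.Fh hk))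

theorem Good.Mb (hb : Good b) (hc : Good c) (hi : Good i) :
    Good fun U => Mb q (b U) (c U) (i U) := by
  exact (((Good.const _).mul ((hb.AA q hc hi).sub (((Good.const 2).mul (hb.HH 2)).mul hi))).mul
    hb).sub (((Good.const _).mul (hb.pow 2)).mul hi)

theorem Good.Nb (hb : Good b) (hc : Good c) (hi : Good i) :
    Good fun U => Nb q (b U) (c U) (i U) := by
  have hH := hb.HH 2
  have h1 : Good fun _ : ι → B => 1 - vv := Good.one.sub Good.vid
  have h2 : Good fun U => 1 + vv * b U := Good.one.add (Good.vid.mul hb)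
  have h3 : Good fun U => 1 + P244B.eta (b U) := Good.one.add hb.eta
  have hg := hb.gg q hc hi
  have hA : Good fun U => A2 q (b U) (c U) (i U) :=
    (hb.AA q hc hi).add (((Good.const 2).mul (hb.sub hH)).mul hi)
  have ha : Good fun U => aA q (b U) (c U) (i U) :=
    (((Good.const _).mul h1).mul ((((Good.const _).mul (hb.sub ((Good.const 3).mul hH))).mul hi).sub
      (((((Good.const _).mul Good.vid).mul hH).mul (hi.pow 2)).mul (hb.sub hH)))).add
      ((Good.const _).mul ((hg.sub (hg.cstL avg)).sub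
        ((Good.one.sub ((Good.const 2).mul Good.vid)).mul hg.Jop)))
  exact ((Good.const _).mul ((((((((((((Good.const _).mul hA).mul h1).mul hb).add (hA.mul h2)).sub
    ((((Good.const 8).mul h1).mul (hc.pow 2)).mul h2)).sub ((Good.const 6).mul hb)).sub
    (((((Good.const _).mul h2).mul hH).mul h3).mul (hi.pow 2))).sub
    (((((Good.const _).mul h2).mul h1).mul (hb.pow 2)).mul (hi.pow 2))).add
    (((((Good.const _).mul h1).mul hb).mul ((hH.mul h3).sub hb)).mul (hi.pow 2))).add
    (((Good.const 2).mul ha).mul hb)).sub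
    (((Good.aa.mul (hb.pow 2)).mul (hb.sub hH)).mul (hi.pow 2)))).sub
    ((Good.bb _ _).mul (hb.Mb q hc hi))

theorem Good.Mc (hb : Good b) (hc : Good c) (hi : Good i) :
    Good fun U => Mc q (b U) (c U) (i U) := by
  exact ((Good.const _).mul (hb.AA q hc hi)).mul hc

theorem Good.Nc (hb : Good b) (hc : Good c) (hk : Good k) (hi : Good i) :
    Good fun U => Nc q (b U) (c U) (k U) (i U) := by
  exact (((Good.const _).mul hc).add ((((Good.const _).mul (Good.bb _ _)).mul
    (hb.AA q hc hi)).mul hc)).add (((Good.const _).mul (hc.eF hk)).mul hc)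

theorem Good.Nk (hb : Good b) (hc : Good c) (hk : Good k) (hi : Good i) :
    Good fun U => Nk q (b U) (c U) (k U) (i U) := by
  exact (((Good.const _).mul (hc.cstL ev0)).sub ((Good.const _).mul
    (Good.app expC expC_smooth ((Good.const (-2)).mul (hk.cstL ev0))))).sub
    ((Good.const _).mul ((hb.gg q hc hi).cstL avg))

theorem Good.Nl (hb : Good b) (hc : Good c) (hi : Good i) :
    Good fun U => Nl q (b U) (c U) (i U) := by
  exact (Good.const _).mul ((hb.gg q hc hi).cstL avg)

theorem Good.Nt (hl : Good l) : Good fun U => Nt (l U) := by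
  exact (Good.const _).mul (Good.app expC expC_smooth ((Good.const 2).mul (hl.cstL ev0)))

theorem Good.ww (hb : Good b) (hc : Good c) (hi : Good i) :
    Good fun U => ww q (b U) (c U) (i U) := by
  exact ((((Good.const q).mul hb).mul hi).add (hb.gg q hc hi).Jop).add ((Good.const 4).mul hc)

end good

/-- truncated inverse of `η` -/
def ii (ε : ℝ) (U : Fin 5 → B) : B := (iot ε).comp (eta (U 0))

theorem good_ii (ε : ℝ) : Good (ii ε) := Good.app _ (iot_smooth ε) (Good.var 0).eta

/-- the truncated system -/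
def sys (q : ℕ) (ε : ℝ) : Sys (Fin 5) where
  α := fun _ => (q + 3) / 2
  β := fun _ => 3 / 2
  γ := fun _ => 0
  M := ![fun U => Mb q (U 0) (U 1) (ii ε U), fun U => Mc q (U 0) (U 1) (ii ε U), fun _ => 0,
    fun _ => 0, fun _ => 0]
  N := ![fun U => Nb q (U 0) (U 1) (ii ε U), fun U => Nc q (U 0) (U 1) (U 2) (ii ε U),
    fun U => Nk q (U 0) (U 1) (U 2) (ii ε U), fun U => Nl q (U 0) (U 1) (ii ε U),
    fun U => Nt (U 3)]
  hα := fun _ => by positivity
  hβ := fun _ => by norm_num
  hγ := fun _ => le_rfl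
  gM := fun i => by
    fin_cases i
    exacts [(Good.var 0).Mb q (Good.var 1) (good_ii ε), (Good.var 0).Mc q (Good.var 1) (good_ii ε),
      Good.zero, Good.zero, Good.zero]
  gN := fun i => by
    fin_cases i
    exacts [(Good.var 0).Nb q (Good.var 1) (good_ii ε),
      (Good.var 0).Nc q (Good.var 1) (Good.var 2) (good_ii ε),
      (Good.var 0).Nk q (Good.var 1) (Good.var 2) (good_ii ε),
      (Good.var 0).Nl q (Good.var 1) (good_ii ε), (Good.var 3).Nt]

/-- the geometric quantities -/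
def mkPre (q : ℕ) (W : ℝ → Fin 5 → B) : Vale.Agent.P244.Pre where
  ℓ t := Real.exp (W t 3 0)
  η p := eta (W p.1 0) (sq p.2)
  F p := Fh (W p.1 1) (W p.1 2) (sq p.2) + W p.1 3 0
  w p := -(Real.exp (-2 * W p.1 3 0) * Real.cos p.2 *
    ww q (W p.1 0) (W p.1 1) (binv (eta (W p.1 0))) (sq p.2))

theorem hasDerivAt_hh (b : B) (x : ℝ) : HasDerivAt (fun x => Real.sin x * eta b (sq x))
    (Real.cos x * (1 + Real.sin x ^ 2 * b (sq x))) x := by
  refine ((Real.hasDerivAt_sin x).mul ((isD_eta b).hasDerivAt_sq x)).congr_deriv ?_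
  simp only [eta, ContinuousMap.add_apply, ContinuousMap.mul_apply, ContinuousMap.sub_apply,
    ContinuousMap.one_apply, cst_apply, vv_apply, sq_coe]
  ring

theorem mkPre_a (q : ℕ) (W : ℝ → Fin 5 → B) (p : ℝ × ℝ) :
    (mkPre q W).a p = Real.cos p.2 * (1 + Real.sin p.2 ^ 2 * W p.1 0 (sq p.2)) := by
  have h := (hasDerivAt_hh (W p.1 0) p.2).const_mul (Real.exp (W p.1 3 0))
  have e : (fun x => (mkPre q W).h (p.1, x)) =
      fun x => Real.exp (W p.1 3 0) * (Real.sin x * eta (W p.1 0) (sq x)) :=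
    funext fun x => by rw [← mul_assoc]; rfl
  rw [Vale.Agent.P244.Pre.a, Vale.Agent.P244.Pre.Ds, Vale.Agent.P244.dx, e, h.deriv]
  exact mul_div_cancel_left₀ _ (Real.exp_pos _).ne'

theorem mkPre_Fx (q : ℕ) (W : ℝ → Fin 5 → B) (p : ℝ × ℝ) :
    Vale.Agent.P244.dx (mkPre q W).F p =
      2 * Real.sin p.2 * Real.cos p.2 * W p.1 1 (sq p.2) := by
  exact (((isD_Fh (W p.1 1) (W p.1 2)).hasDerivAt_sq p.2).add_const (W p.1 3 0)).deriv

end Vale.Agent.P244B
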