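import Mathlib

/-! Mild solutions of semilinear equations with a weakly singular kernel. -/

open Set Filter MeasureTheory
open scoped Topology

noncomputable section

namespace Vale.Agent.P244B

variable {E F : Type} [NormedAddCommGroup E] [NormedSpace ℝ E] [NormedAddCommGroup F]
  [NormedSpace ℝ F]

/-- a contraction semigroup `P` and a kernel `K` -/
structure Ker (P : ℝ → E →L[ℝ] E) (K : ℝ → F →L[ℝ] E) (C : ℝ) : Prop where
  hC : 0 ≤ C
  P0 : ∀ u, P 0 u = u
  Padd : ∀ s t u, 0 ≤ s → 0 ≤ t → P (s + t) u = P s (P t u)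
  Pnorm : ∀ t u, 0 ≤ t → ‖P t u‖ ≤ ‖u‖
  Pcont : ∀ u, ContinuousOn (fun t => P t u) (Ici 0)
  PK : ∀ s t f, 0 ≤ s → 0 < t → P s (K t f) = K (s + t) f
  Knorm : ∀ t f, 0 < t → ‖K t f‖ ≤ C * (1 + 1 / √t) * ‖f‖

/-- Lipschitz on bounded sets -/
def BL (G : E → F) : Prop :=
  ∀ R : ℝ, ∃ L : ℝ, 0 ≤ L ∧ ∀ u v, ‖u‖ ≤ R → ‖v‖ ≤ R → ‖G u - G v‖ ≤ L * ‖u - v‖

/-- mild solutions on `[0, T]` -/
def Mild (P : ℝ → E →L[ℝ] E) (K : ℝ → F →L[ℝ] E) (G : E → F) (T : ℝ) (U : ℝ → E) : Prop :=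
  ContinuousOn U (Icc 0 T) ∧
    ∀ θ ∈ Icc 0 T, U θ = P θ (U 0) + ∫ s in (0 : ℝ)..θ, K (θ - s) (G (U s))

variable {P : ℝ → E →L[ℝ] E} {K : ℝ → F →L[ℝ] E} {C : ℝ} {G : E → F} {T : ℝ} {U V : ℝ → E}

theorem BL.continuous (h : BL G) : Continuous G := by
  refine continuous_iff_continuousAt.2 fun u0 => ?_
  obtain ⟨L, -, hL⟩ := h (‖u0‖ + 1)
  rw [ContinuousAt, tendsto_iff_norm_sub_tendsto_zero]
  have h1 : Tendsto (fun u => L * ‖u - u0‖) (𝓝 u0) (𝓝 0) := by
    have : Continuous fun u => L * ‖u - u0‖ := by fun_prop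
    simpa using this.tendsto u0
  refine squeeze_zero' (Eventually.of_forall fun _ => norm_nonneg _) ?_ h1
  filter_upwards [(continuous_norm.tendsto u0).eventually (ge_mem_nhds (lt_add_one ‖u0‖))]
    with u hu using hL u u0 hu (by linarith)

theorem BL.bound (h : BL G) (R : ℝ) : ∃ M, 0 ≤ M ∧ ∀ u, ‖u‖ ≤ R → ‖G u‖ ≤ M := by
  obtain ⟨L, hL0, hL⟩ := h R
  refine ⟨‖G 0‖ + L * |R|, by positivity, fun u hu => ?_⟩
  have h1 := hL u 0 hu (by simpa using (norm_nonneg u).trans hu)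
  rw [sub_zero] at h1
  have h2 : ‖G u‖ ≤ ‖G 0‖ + ‖G u - G 0‖ := norm_le_norm_add_norm_sub' _ _
  have h3 : L * ‖u‖ ≤ L * |R| := mul_le_mul_of_nonneg_left (hu.trans (le_abs_self R)) hL0
  linarith

theorem Ker.P_cont₂ (hK : Ker P K C) :
    ContinuousOn (fun p : ℝ × E => P p.1 p.2) (Ici 0 ×ˢ univ) := by
  rintro ⟨t0, u0⟩ h0
  rw [ContinuousWithinAt, tendsto_iff_norm_sub_tendsto_zero]
  have h1 : Tendsto (fun p : ℝ × E => ‖p.2 - u0‖) (𝓝[Ici 0 ×ˢ univ] (t0, u0)) (𝓝 0) := by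
    have : Continuous fun p : ℝ × E => ‖p.2 - u0‖ := by fun_prop
    simpa using (this.tendsto (t0, u0)).mono_left nhdsWithin_le_nhds
  have h2 : Tendsto (fun p : ℝ × E => ‖P p.1 u0 - P t0 u0‖) (𝓝[Ici 0 ×ˢ univ] (t0, u0)) (𝓝 0) :=
    tendsto_iff_norm_sub_tendsto_zero.1 (ContinuousWithinAt.comp (f := Prod.fst)
      (g := fun t => P t u0) (hK.Pcont u0 t0 h0.1) continuous_fst.continuousWithinAt
        fun p hp => hp.1)
  refine squeeze_zero' (Eventually.of_forall fun _ => norm_nonneg _) ?_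
    (by simpa using h1.add h2)
  filter_upwards [self_mem_nhdsWithin] with p hp
  have h3 := hK.Pnorm p.1 (p.2 - u0) hp.1
  rw [map_sub] at h3
  have h4 := norm_sub_le_norm_sub_add_norm_sub (P p.1 p.2) (P p.1 u0) (P t0 u0)
  exact h4.trans (by linarith)

theorem Ker.K_cont₂ (hK : Ker P K C) :
    ContinuousOn (fun p : ℝ × F => K p.1 p.2) (Ioi 0 ×ˢ univ) := by
  rintro ⟨t0, f0⟩ h0
  have ht : (0 : ℝ) < t0 := h0.1
  have hc : Continuous fun p : ℝ × F => ((p.1 - t0 / 2, K (t0 / 2) p.2) : ℝ × E) := by fun_prop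
  have h1 : ContinuousAt (fun p : ℝ × E => P p.1 p.2) (t0 - t0 / 2, K (t0 / 2) f0) :=
    hK.P_cont₂.continuousAt (prod_mem_nhds (Ici_mem_nhds (by linarith)) univ_mem)
  refine ((ContinuousAt.comp (f := fun p : ℝ × F => ((p.1 - t0 / 2, K (t0 / 2) p.2) : ℝ × E))
    (x := (t0, f0)) h1 hc.continuousAt).congr ?_).continuousWithinAt
  filter_upwards [(continuous_fst.tendsto ((t0, f0) : ℝ × F)).eventually
    (lt_mem_nhds (show t0 / 2 < t0 by linarith))] with p hp
  simp only [Function.comp_apply]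
  rw [hK.PK _ _ _ (by linarith) (by linarith), sub_add_cancel]

theorem gron_rpow (x : ℝ) : 1 / √x = x ^ (-(1 / 2) : ℝ) := by
  rcases le_or_gt 0 x with h | h
  · rw [Real.rpow_neg h, Real.sqrt_eq_rpow, one_div]
  · rw [Real.sqrt_eq_zero'.2 h.le, Real.rpow_def_of_neg h, neg_mul, Real.cos_neg,
      show (1 / 2 : ℝ) * Real.pi = Real.pi / 2 by ring, Real.cos_pi_div_two]
    simp

theorem gron_int (a b : ℝ) : IntervalIntegrable (fun r => 1 + 1 / √r) volume a b := by
  simp only [gron_rpow]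
  exact intervalIntegrable_const.add (intervalIntegral.intervalIntegrable_rpow' (by norm_num))

theorem sing_int (θ : ℝ) : IntervalIntegrable (fun s => 1 + 1 / √(θ - s)) volume 0 θ := by
  simpa using ((gron_int θ 0).comp_sub_left θ)

theorem sing_val {θ : ℝ} (hθ : 0 ≤ θ) : ∫ s in (0 : ℝ)..θ, (1 + 1 / √(θ - s)) = θ + 2 * √θ := by
  rw [intervalIntegral.integral_comp_sub_left (fun r => 1 + 1 / √r) θ, sub_self, sub_zero]
  simp only [gron_rpow]
  rw [intervalIntegral.integral_add intervalIntegrable_const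
    (intervalIntegral.intervalIntegrable_rpow' (by norm_num)),
    integral_rpow (Or.inl (by norm_num)), Real.zero_rpow (by norm_num), Real.sqrt_eq_rpow]
  norm_num
  ring

theorem Ker.int (hK : Ker P K C) {f : ℝ → F} {θ : ℝ} (hθ : 0 ≤ θ)
    (hf : ContinuousOn f (Icc 0 θ)) :
    IntervalIntegrable (fun s => K (θ - s) (f s)) volume 0 θ := by
  obtain ⟨M, hM⟩ := isCompact_Icc.exists_bound_of_continuousOn hf
  have h1 := ((sing_int θ).const_mul C).mul_const M
  rw [intervalIntegrable_iff_integrableOn_Ioo_of_le hθ] at h1 ⊢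
  refine Integrable.mono' h1 (ContinuousOn.aestronglyMeasurable ?_ measurableSet_Ioo)
    (ae_restrict_of_forall_mem measurableSet_Ioo fun s hs => ?_)
  · exact hK.K_cont₂.comp (f := fun s => (θ - s, f s))
      ((continuousOn_const.sub continuousOn_id).prodMk (hf.mono Ioo_subset_Icc_self))
      fun s hs => ⟨sub_pos.2 hs.2, trivial⟩
  · have := hK.hC
    exact (hK.Knorm _ _ (sub_pos.2 hs.2)).trans
      (mul_le_mul_of_nonneg_left (hM s (Ioo_subset_Icc_self hs)) (by positivity))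

theorem Ker.duh_norm (hK : Ker P K C) {f : ℝ → F} {φ : ℝ → ℝ} {θ : ℝ} (hθ : 0 ≤ θ)
    (hφ : ContinuousOn φ (Icc 0 θ)) (hle : ∀ s ∈ Icc 0 θ, ‖f s‖ ≤ φ s) :
    ‖∫ s in (0 : ℝ)..θ, K (θ - s) (f s)‖ ≤ ∫ s in (0 : ℝ)..θ, C * (1 + 1 / √(θ - s)) * φ s := by
  refine intervalIntegral.norm_integral_le_of_norm_le hθ ?_
    (((sing_int θ).const_mul C).mul_continuousOn (by rwa [uIcc_of_le hθ]))
  filter_upwards [(countable_singleton θ).ae_notMem volume] with s hs h
  have h1 : s < θ := lt_of_le_of_ne h.2 hs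
  have := hK.hC
  exact (hK.Knorm _ _ (sub_pos.2 h1)).trans
    (mul_le_mul_of_nonneg_left (hle s (Ioc_subset_Icc_self h)) (by positivity))

theorem Ker.duh_bound (hK : Ker P K C) {f : ℝ → F} {M θ : ℝ} (hθ : 0 ≤ θ)
    (hle : ∀ s ∈ Icc 0 θ, ‖f s‖ ≤ M) :
    ‖∫ s in (0 : ℝ)..θ, K (θ - s) (f s)‖ ≤ C * (θ + 2 * √θ) * M := by
  refine (hK.duh_norm hθ (φ := fun _ => M) continuousOn_const hle).trans (le_of_eq ?_)
  rw [intervalIntegral.integral_mul_const, intervalIntegral.integral_const_mul, sing_val hθ]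

theorem Ker.duh_cont (hK : Ker P K C) {f : ℝ → F} (hf : ContinuousOn f (Icc 0 T)) :
    ContinuousOn (fun θ => ∫ s in (0 : ℝ)..θ, K (θ - s) (f s)) (Icc 0 T) := by
  intro θ0 h0
  have hT : (0 : ℝ) ≤ T := h0.1.trans h0.2
  obtain ⟨M, hM⟩ := isCompact_Icc.exists_bound_of_continuousOn hf
  have hC := hK.hC
  have hM0 : 0 ≤ M := (norm_nonneg _).trans (hM _ h0)
  set g : ℝ → F := fun s => f (projIcc 0 T hT s) with hg
  have gc : Continuous g :=
    hf.comp_continuous (continuous_subtype_val.comp continuous_projIcc) fun s => (projIcc 0 T hT s).2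
  have h1 := intervalIntegral.continuousAt_parametric_primitive_of_dominated (μ := volume)
    (F := fun x : ℝ => (Ioi 0).indicator fun t => K t (g (x - t)))
    (fun t => C * (1 + 1 / √t) * M) (-1) (T + 1) (a₀ := 0) (b₀ := θ0) (x₀ := θ0)
    (fun x => by
      rw [aestronglyMeasurable_indicator_iff measurableSet_Ioi,
        Measure.restrict_restrict measurableSet_Ioi]
      refine ContinuousOn.aestronglyMeasurable ?_ (measurableSet_Ioi.inter measurableSet_uIoc)
      exact hK.K_cont₂.comp (f := fun t => (t, g (x - t))) (Continuous.continuousOn (by fun_prop))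
        fun s hs => ⟨hs.1, trivial⟩)
    (Eventually.of_forall fun x => Eventually.of_forall fun t => by
      by_cases ht : t ∈ Ioi (0 : ℝ)
      · rw [indicator_of_mem ht]
        exact (hK.Knorm _ _ ht).trans
          (mul_le_mul_of_nonneg_left (hM _ (projIcc 0 T hT _).2) (by positivity))
      · rw [indicator_of_notMem ht, norm_zero]
        positivity)
    (((gron_int _ _).const_mul C).mul_const M)
    (Eventually.of_forall fun t => by
      by_cases ht : t ∈ Ioi (0 : ℝ)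
      · simp only [indicator_of_mem ht]
        exact Continuous.continuousAt (by fun_prop)
      · simp only [indicator_of_notMem ht]
        exact continuousAt_const)
    ⟨by linarith, by linarith⟩ ⟨by linarith [h0.1], by linarith [h0.2]⟩ (measure_singleton _)
  have h2 := (ContinuousAt.comp (f := fun x : ℝ => (x, x)) (x := θ0) h1
    (by fun_prop)).continuousWithinAt (s := Icc 0 T)
  have key : ∀ θ ∈ Icc 0 T, ∫ s in (0 : ℝ)..θ, K (θ - s) (f s) =
      ∫ t in (0 : ℝ)..θ, (Ioi 0).indicator (fun t => K t (g (θ - t))) t := by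
    intro θ hθ
    have e := intervalIntegral.integral_comp_sub_left (fun s => K (θ - s) (f s)) θ (a := 0) (b := θ)
    rw [sub_self, sub_zero] at e
    rw [← e]
    refine intervalIntegral.integral_congr_ae (Eventually.of_forall fun t ht => ?_)
    rw [uIoc_of_le hθ.1] at ht
    rw [indicator_of_mem (show t ∈ Ioi (0 : ℝ) from ht.1), sub_sub_cancel, hg]
    simp only
    rw [projIcc_of_mem hT ⟨by linarith [ht.2], by linarith [ht.1, hθ.2]⟩]
  exact h2.congr key (key _ h0)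

theorem gron_small {C T : ℝ} (hC : 0 ≤ C) (hT : 0 ≤ T) : ∃ la : ℝ, 0 ≤ la ∧ ∀ θ ∈ Icc 0 T,
    ∫ r in (0 : ℝ)..θ, C * (1 + 1 / √r) * Real.exp (-la * r) ≤ 1 / 2 := by
  have hi : ∀ la a b : ℝ, IntervalIntegrable (fun r => C * (1 + 1 / √r) * Real.exp (-la * r))
      volume a b := fun la a b =>
    ((gron_int a b).const_mul C).mul_continuousOn (by fun_prop)
  have h := intervalIntegral.tendsto_integral_filter_of_dominated_convergence (μ := volume)
    (a := 0) (b := T) (l := atTop) (f := fun _ => (0 : ℝ))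
    (F := fun la r : ℝ => C * (1 + 1 / √r) * Real.exp (-la * r)) (fun r => C * (1 + 1 / √r))
    (Eventually.of_forall fun la => (hi la 0 T).def'.aestronglyMeasurable)
    ((eventually_ge_atTop 0).mono fun la hla => Eventually.of_forall fun r hr => by
      rw [uIoc_of_le hT] at hr
      rw [Real.norm_of_nonneg (by positivity)]
      refine mul_le_of_le_one_right (by positivity) (Real.exp_le_one_iff.2 ?_)
      nlinarith [hr.1])
    ((gron_int 0 T).const_mul C)
    (Eventually.of_forall fun r hr => by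
      rw [uIoc_of_le hT] at hr
      have h1 : Tendsto (fun la : ℝ => -la * r) atTop atBot :=
        tendsto_neg_atTop_atBot.atBot_mul_const hr.1
      simpa using (Real.tendsto_exp_atBot.comp h1).const_mul (C * (1 + 1 / √r)))
  rw [intervalIntegral.integral_zero] at h
  obtain ⟨la, h1, h2⟩ := ((eventually_ge_atTop 0).and
    (h.eventually (ge_mem_nhds (show (0 : ℝ) < 1 / 2 by norm_num)))).exists
  refine ⟨la, h1, fun θ hθ => le_trans ?_ h2⟩
  exact intervalIntegral.integral_mono_interval le_rfl hθ.1 hθ.2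
    (Eventually.of_forall fun r => by positivity) (hi la 0 T)

/-- Gronwall inequality with a weakly singular kernel -/
theorem gronwall_sing {C : ℝ} (hC : 0 ≤ C) (T : ℝ) : ∃ M : ℝ, 0 ≤ M ∧
    ∀ (T' a : ℝ) (φ : ℝ → ℝ), T' ≤ T → 0 ≤ a → ContinuousOn φ (Icc 0 T') →
      (∀ θ ∈ Icc 0 T', 0 ≤ φ θ) →
      (∀ θ ∈ Icc 0 T', φ θ ≤ a + ∫ s in (0 : ℝ)..θ, C * (1 + 1 / √(θ - s)) * φ s) →
      ∀ θ ∈ Icc 0 T', φ θ ≤ M * a := by
  obtain ⟨la, hla, hI⟩ := gron_small hC (le_max_right T 0)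
  refine ⟨2 * Real.exp (la * max T 0), by positivity, fun T' a φ hT ha hφ h0 hle θ hθ => ?_⟩
  obtain ⟨θ0, hθ0, hmax⟩ := isCompact_Icc.exists_isMaxOn ⟨θ, hθ⟩
    (f := fun s => Real.exp (-la * s) * φ s) (ContinuousOn.mul (by fun_prop) hφ)
  set m := Real.exp (-la * θ0) * φ θ0 with hm
  have hm0 : 0 ≤ m := mul_nonneg (Real.exp_pos _).le (h0 _ hθ0)
  have hb : ∀ s ∈ Icc 0 T', φ s ≤ Real.exp (la * s) * m := fun s hs => by
    have h1 : Real.exp (-la * s) * φ s ≤ m := hmax hs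
    have h2 : φ s = Real.exp (la * s) * (Real.exp (-la * s) * φ s) := by
      rw [← mul_assoc, ← Real.exp_add]; simp
    rw [h2]
    exact mul_le_mul_of_nonneg_left h1 (Real.exp_pos _).le
  have hsub : uIcc 0 θ0 ⊆ Icc 0 T' := by
    rw [uIcc_of_le hθ0.1]; exact Icc_subset_Icc_right hθ0.2
  have h3 : ∫ s in (0 : ℝ)..θ0, C * (1 + 1 / √(θ0 - s)) * φ s ≤ ∫ s in (0 : ℝ)..θ0,
      Real.exp (la * θ0) * m * (C * (1 + 1 / √(θ0 - s)) * Real.exp (-la * (θ0 - s))) := by
    refine intervalIntegral.integral_mono_on hθ0.1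
      (((sing_int θ0).const_mul C).mul_continuousOn (hφ.mono hsub))
      ((((sing_int θ0).const_mul C).mul_continuousOn (by fun_prop)).const_mul _) fun s hs => ?_
    have e : Real.exp (la * s) = Real.exp (la * θ0) * Real.exp (-la * (θ0 - s)) := by
      rw [← Real.exp_add]; congr 1; ring
    calc C * (1 + 1 / √(θ0 - s)) * φ s ≤ C * (1 + 1 / √(θ0 - s)) * (Real.exp (la * s) * m) :=
          mul_le_mul_of_nonneg_left (hb s ⟨hs.1, hs.2.trans hθ0.2⟩) (by positivity)
      _ = _ := by rw [e]; ring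
  rw [intervalIntegral.integral_const_mul, intervalIntegral.integral_comp_sub_left
    (fun r => C * (1 + 1 / √r) * Real.exp (-la * r)) θ0, sub_self, sub_zero] at h3
  have h4 := hI θ0 ⟨hθ0.1, hθ0.2.trans (hT.trans (le_max_left _ _))⟩
  have h5 : φ θ0 = Real.exp (la * θ0) * m := by
    rw [hm, ← mul_assoc, ← Real.exp_add]; simp
  have h6 := hle θ0 hθ0
  have h7 := mul_le_mul_of_nonneg_left h4 (mul_nonneg (Real.exp_pos (la * θ0)).le hm0)
  have h8 : 1 ≤ Real.exp (la * θ0) := Real.one_le_exp (mul_nonneg hla hθ0.1)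
  have h9 : m ≤ 2 * a := by nlinarith
  have h10 : Real.exp (la * θ) ≤ Real.exp (la * max T 0) := Real.exp_le_exp.2
    (mul_le_mul_of_nonneg_left (hθ.2.trans (hT.trans (le_max_left _ _))) hla)
  calc φ θ ≤ Real.exp (la * θ) * m := hb θ hθ
    _ ≤ Real.exp (la * max T 0) * (2 * a) := mul_le_mul h10 h9 hm0 (Real.exp_pos _).le
    _ = _ := by ring

end Vale.Agent.P244B
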