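import Vale.Agent.P244B.Base
import Vale.Agent.P244B.Gron
import Vale.Agent.P234.Flow

/-! A class of nonlinear maps of order zero. -/

open Set Filter
open scoped ContDiff Topology unitInterval

noncomputable section

namespace Vale.Agent.P244B

/-- maps built from the unknowns by algebra, smooth functions and good linear operators -/
inductive Good {ι : Type} : ((ι → B) → B) → Prop
  | var (i : ι) : Good fun U => U i
  | vid : Good fun _ => vv
  | add {G H : (ι → B) → B} : Good G → Good H → Good fun U => G U + H U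
  | mul {G H : (ι → B) → B} : Good G → Good H → Good fun U => G U * H U
  | app (φ : C(ℝ, ℝ)) (hφ : ContDiff ℝ ∞ φ) {G : (ι → B) → B} : Good G → Good fun U => φ.comp (G U)
  | lin (T : ℕ → B →L[ℝ] B) (hT : ∀ k f g, IsD f g → IsD (T k f) (T (k + 1) g))
      {G : (ι → B) → B} : Good G → Good fun U => T 0 (G U)

variable {ι κ : Type} {G H : (ι → B) → B}

theorem Good.ex_congr (h : Good G) (e : ∀ U, H U = G U) : Good H := by
  rw [funext e]
  exact h

theorem Good.const (c : ℝ) : Good fun _ : ι → B => cst c :=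
  (Good.app (ContinuousMap.const ℝ c) contDiff_const Good.vid).ex_congr fun _ => by
    ext v
    rfl

theorem Good.one : Good fun _ : ι → B => (1 : B) :=
  (Good.const 1).ex_congr fun _ => by
    ext v
    rfl

theorem Good.zero : Good fun _ : ι → B => (0 : B) :=
  (Good.const 0).ex_congr fun _ => by
    ext v
    rfl

theorem Good.smul (c : ℝ) (h : Good G) : Good fun U => c • G U :=
  ((Good.const c).mul h).ex_congr fun _ => by
    ext v
    rfl

theorem Good.neg (h : Good G) : Good fun U => -G U :=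
  (h.smul (-1)).ex_congr fun _ => (neg_one_smul ℝ _).symm

theorem Good.sub (h : Good G) (h' : Good H) : Good fun U => G U - H U :=
  (h.add h'.neg).ex_congr fun _ => sub_eq_add_neg _ _

theorem Good.pow (h : Good G) (n : ℕ) : Good fun U => G U ^ n := by
  induction n with
  | zero => exact Good.one.ex_congr fun _ => pow_zero _
  | succ n ih => exact (ih.mul h).ex_congr fun _ => pow_succ _ _

theorem Good.aa : Good fun _ : ι → B => aa :=
  Good.vid.mul (Good.one.sub Good.vid)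

theorem Good.bb (α β : ℝ) : Good fun _ : ι → B => bb α β :=
  ((Good.const α).mul (Good.one.sub Good.vid)).sub ((Good.const β).mul Good.vid)

/-- a constant that depends linearly on the argument -/
theorem Good.cstL (Λ : B →L[ℝ] ℝ) (h : Good G) : Good fun U => cst (Λ (G U)) := by
  refine Good.lin (fun k => Nat.casesOn k (cst.comp Λ) fun _ => 0) (fun k f g _ => ?_) h
  cases k with
  | zero => exact isD_cst _
  | succ k => exact isD_zero

theorem Good.subst (h : Good G) {A : ι → (κ → B) → B} (hA : ∀ i, Good (A i)) :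
    Good fun V => G fun i => A i V := by
  induction h with
  | var i => exact hA i
  | vid => exact Good.vid
  | add _ _ h1 h2 => exact h1.add h2
  | mul _ _ h1 h2 => exact h1.mul h2
  | app φ hφ _ h1 => exact Good.app φ hφ h1
  | lin T hT _ h1 => exact Good.lin T hT h1

theorem Ex_lip {φ : ℝ → ℝ} (hφ : ContDiff ℝ ∞ φ) (M : ℝ) :
    ∃ K : ℝ, 0 ≤ K ∧ ∀ x y, ‖x‖ ≤ M → ‖y‖ ≤ M → ‖φ x - φ y‖ ≤ K * ‖x - y‖ := by
  obtain ⟨K, hK⟩ := (isCompact_closedBall (0 : ℝ) M).exists_bound_of_continuousOn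
    (hφ.continuous_deriv (by simp)).continuousOn
  refine ⟨max K 0, le_max_right _ _, fun x y hx hy => ?_⟩
  exact (convex_closedBall (0 : ℝ) M).norm_image_sub_le_of_norm_deriv_le
    (fun z _ => hφ.differentiable (by simp) z) (fun z hz => (hK z hz).trans (le_max_left _ _))
    (mem_closedBall_zero_iff.2 hy) (mem_closedBall_zero_iff.2 hx)

theorem Good.bl [Fintype ι] (h : Good G) : BL G := by
  induction h with
  | var i =>
    refine fun R => ⟨1, zero_le_one, fun u v _ _ => ?_⟩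
    rw [one_mul]
    exact norm_le_pi_norm (u - v) i
  | vid => exact fun R => ⟨0, le_rfl, fun u v _ _ => by simp⟩
  | @add G H _ _ h1 h2 =>
    intro R
    obtain ⟨L1, p1, q1⟩ := h1 R
    obtain ⟨L2, p2, q2⟩ := h2 R
    refine ⟨L1 + L2, add_nonneg p1 p2, fun u v hu hv => ?_⟩
    have e : G u + H u - (G v + H v) = (G u - G v) + (H u - H v) := by abel
    rw [e, add_mul]
    exact (norm_add_le _ _).trans (add_le_add (q1 u v hu hv) (q2 u v hu hv))
  | @mul G H _ _ h1 h2 =>
    intro R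
    obtain ⟨L1, p1, q1⟩ := h1 R
    obtain ⟨L2, p2, q2⟩ := h2 R
    obtain ⟨M1, r1, s1⟩ := h1.bound R
    obtain ⟨M2, r2, s2⟩ := h2.bound R
    refine ⟨L1 * M2 + M1 * L2, by positivity, fun u v hu hv => ?_⟩
    have e : G u * H u - G v * H v = (G u - G v) * H u + G v * (H u - H v) := by ring
    rw [e]
    have a1 : ‖(G u - G v) * H u‖ ≤ L1 * ‖u - v‖ * M2 := (norm_mul_le _ _).trans
      (mul_le_mul (q1 u v hu hv) (s2 u hu) (norm_nonneg _) (by positivity))
    have a2 : ‖G v * (H u - H v)‖ ≤ M1 * (L2 * ‖u - v‖) := (norm_mul_le _ _).trans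
      (mul_le_mul (s1 v hv) (q2 u v hu hv) (norm_nonneg _) r1)
    refine (norm_add_le _ _).trans ?_
    linarith
  | @app φ hφ G _ h1 =>
    intro R
    obtain ⟨L, p1, q1⟩ := h1 R
    obtain ⟨M, r1, s1⟩ := h1.bound R
    obtain ⟨K, hK0, hK⟩ := Ex_lip hφ M
    refine ⟨K * L, mul_nonneg hK0 p1, fun u v hu hv => ?_⟩
    refine (ContinuousMap.norm_le _ (by positivity)).2 fun x => ?_
    have a1 := hK (G u x) (G v x) (((G u).norm_coe_le_norm x).trans (s1 u hu))
      (((G v).norm_coe_le_norm x).trans (s1 v hv))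
    have a2 : ‖G u x - G v x‖ ≤ L * ‖u - v‖ :=
      ((G u - G v).norm_coe_le_norm x).trans (q1 u v hu hv)
    calc _ = ‖φ (G u x) - φ (G v x)‖ := rfl
      _ ≤ K * (L * ‖u - v‖) := a1.trans (mul_le_mul_of_nonneg_left a2 hK0)
      _ = _ := by ring
  | @lin T hT G _ h1 =>
    intro R
    obtain ⟨L, p1, q1⟩ := h1 R
    refine ⟨‖T 0‖ * L, by positivity, fun u v hu hv => ?_⟩
    rw [← map_sub, mul_assoc]
    exact ((T 0).le_opNorm _).trans (mul_le_mul_of_nonneg_left (q1 u v hu hv) (norm_nonneg _))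

theorem Good.contDiff [Fintype ι] (h : Good G) : ContDiff ℝ ∞ G := by
  induction h with
  | var i => exact contDiff_apply ℝ B i
  | vid => exact contDiff_const
  | add _ _ h1 h2 => exact h1.add h2
  | mul _ _ h1 h2 => exact h1.mul h2
  | app φ hφ _ h1 =>
    exact (contDiff_infty.2 fun n =>
      P234.contDiff_nemytskii (K := I) n φ (contDiff_infty.1 hφ n)).comp h1
  | lin T hT _ h1 => exact (T 0).contDiff.comp h1

theorem Good.ex_inl (h : Good G) : Good fun V : ι ⊕ ι → B => G fun i => V (.inl i) :=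
  h.subst (A := fun i (V : ι ⊕ ι → B) => V (.inl i)) fun i => Good.var (Sum.inl i)

theorem Good.ex_bound_inl [Fintype ι] (h : Good G) (R : ℝ) : ∃ M : ℝ, 0 ≤ M ∧
    ∀ V : ι ⊕ ι → B, (∀ i, ‖V (.inl i)‖ ≤ R) → ‖G fun i => V (.inl i)‖ ≤ M := by
  obtain ⟨M, h0, hM⟩ := h.bl.bound (max R 0)
  exact ⟨M, h0, fun V hV => hM _ ((pi_norm_le_iff_of_nonneg (le_max_right _ _)).2
    fun i => (hV i).trans (le_max_left _ _))⟩

/-- the derivative is a good map of the unknowns and their derivatives, with linear growth in the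
derivatives -/
theorem Good.deriv [Fintype ι] (h : Good G) : ∃ G' : (ι ⊕ ι → B) → B, Good G' ∧
    (∀ R : ℝ, ∃ C : ℝ, 0 ≤ C ∧ ∀ V : ι ⊕ ι → B, (∀ i, ‖V (.inl i)‖ ≤ R) →
      ‖G' V‖ ≤ C * (1 + ‖V‖)) ∧
    ∀ V : ι ⊕ ι → B, (∀ i, IsD (V (.inl i)) (V (.inr i))) →
      IsD (G fun i => V (.inl i)) (G' V) := by
  induction h with
  | var i =>
    refine ⟨fun V => V (.inr i), Good.var _, fun R => ⟨1, zero_le_one, fun V _ => ?_⟩,
      fun V hV => hV i⟩
    have := norm_le_pi_norm V (.inr i)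
    linarith
  | vid =>
    refine ⟨fun _ => 1, Good.one, fun R => ⟨1, zero_le_one, fun V _ => ?_⟩, fun V _ => isD_vv⟩
    have h1 : ‖(1 : B)‖ ≤ 1 := (ContinuousMap.norm_le _ zero_le_one).2 fun x => by simp
    have := norm_nonneg V
    linarith
  | add _ _ h1 h2 =>
    obtain ⟨G', g1, b1, d1⟩ := h1
    obtain ⟨H', g2, b2, d2⟩ := h2
    refine ⟨fun V => G' V + H' V, g1.add g2, fun R => ?_, fun V hV => (d1 V hV).add (d2 V hV)⟩
    obtain ⟨C1, p1, q1⟩ := b1 R
    obtain ⟨C2, p2, q2⟩ := b2 R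
    refine ⟨C1 + C2, add_nonneg p1 p2, fun V hV => ?_⟩
    rw [add_mul]
    exact (norm_add_le _ _).trans (add_le_add (q1 V hV) (q2 V hV))
  | @mul G H hG hH h1 h2 =>
    obtain ⟨G', g1, b1, d1⟩ := h1
    obtain ⟨H', g2, b2, d2⟩ := h2
    refine ⟨fun V => G' V * H (fun i => V (.inl i)) + G (fun i => V (.inl i)) * H' V,
      (g1.mul hH.ex_inl).add (hG.ex_inl.mul g2), fun R => ?_, fun V hV => (d1 V hV).mul (d2 V hV)⟩
    obtain ⟨C1, p1, q1⟩ := b1 R
    obtain ⟨C2, p2, q2⟩ := b2 R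
    obtain ⟨M1, r1, s1⟩ := hG.ex_bound_inl R
    obtain ⟨M2, r2, s2⟩ := hH.ex_bound_inl R
    refine ⟨C1 * M2 + M1 * C2, by positivity, fun V hV => ?_⟩
    have a1 : ‖G' V * H (fun i => V (.inl i))‖ ≤ C1 * (1 + ‖V‖) * M2 := (norm_mul_le _ _).trans
      (mul_le_mul (q1 V hV) (s2 V hV) (norm_nonneg _) (by positivity))
    have a2 : ‖G (fun i => V (.inl i)) * H' V‖ ≤ M1 * (C2 * (1 + ‖V‖)) := (norm_mul_le _ _).trans
      (mul_le_mul (s1 V hV) (q2 V hV) (norm_nonneg _) r1)
    refine (norm_add_le _ _).trans ?_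
    linarith
  | @app φ hφ G hG h1 =>
    obtain ⟨G', g1, b1, d1⟩ := h1
    have hφ' : ContDiff ℝ ∞ (_root_.deriv φ) := (contDiff_infty_iff_deriv.1 hφ).2
    let φ' : C(ℝ, ℝ) := ⟨_root_.deriv φ, hφ'.continuous⟩
    have hg : Good fun U => φ'.comp (G U) := Good.app φ' hφ' hG
    refine ⟨fun V => φ'.comp (G fun i => V (.inl i)) * G' V, hg.ex_inl.mul g1, fun R => ?_,
      fun V hV => (d1 V hV).comp φ φ' fun x => (hφ.differentiable (by simp) x).hasDerivAt⟩
    obtain ⟨C1, p1, q1⟩ := b1 R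
    obtain ⟨M, r1, s1⟩ := hg.ex_bound_inl R
    refine ⟨M * C1, by positivity, fun V hV => ?_⟩
    rw [mul_assoc]
    exact (norm_mul_le _ _).trans (mul_le_mul (s1 V hV) (q1 V hV) (norm_nonneg _) r1)
  | @lin T hT G hG h1 =>
    obtain ⟨G', g1, b1, d1⟩ := h1
    refine ⟨fun V => T 1 (G' V), Good.lin (fun k => T (k + 1)) (fun k => hT (k + 1)) g1,
      fun R => ?_, fun V hV => hT 0 _ _ (d1 V hV)⟩
    obtain ⟨C1, p1, q1⟩ := b1 R
    refine ⟨‖T 1‖ * C1, by positivity, fun V hV => ?_⟩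
    rw [mul_assoc]
    exact ((T 1).le_opNorm _).trans (mul_le_mul_of_nonneg_left (q1 V hV) (norm_nonneg _))

end Vale.Agent.P244B
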