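import Vale.Agent.P244B.Ids
import Vale.Agent.P244B.Cls

/-! The flow of the concrete system in normalised time. -/

open Set Filter
open scoped ContDiff Topology unitInterval

noncomputable section

namespace Vale.Agent.P244B

/-- classical solutions in normalised time -/
structure Cl (q : ℕ) (J : Set ℝ) (U : ℝ → Fin 5 → B) : Prop where
  ti : TI J
  pos : ∀ θ ∈ J, 0 < mu (eta (U θ 0))
  sm : ∀ i, SmT J fun θ => U θ i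
  smi : SmT J fun θ => binv (eta (U θ 0))
  c2 : ∀ θ ∈ J, U θ 2 = cst (U θ 2 0)
  c3 : ∀ θ ∈ J, U θ 3 = cst (U θ 3 0)
  c4 : ∀ θ ∈ J, U θ 4 = cst (U θ 4 0)
  eqη : ∀ θ ∈ J, HasDerivWithinAt (fun θ => eta (U θ 0))
    ((1 / 4 : ℝ) • Xi q (U θ 0) (Dv (U θ 0)) (U θ 1) (binv (eta (U θ 0)))) J θ
  eqF : ∀ θ ∈ J, HasDerivWithinAt (fun θ => Fh (U θ 1) (U θ 2) + cst (U θ 3 0))
    ((1 / 4 : ℝ) • Psi q (U θ 0) (U θ 1) (Dv (U θ 1)) (U θ 2) (binv (eta (U θ 0)))) J θ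
  eql : ∀ θ ∈ J, HasDerivWithinAt (fun θ => U θ 3 0)
    (1 / 4 * avg (gg q (U θ 0) (U θ 1) (binv (eta (U θ 0))))) J θ
  eqt : ∀ θ ∈ J, HasDerivWithinAt (fun θ => U θ 4 0) (1 / 4 * Real.exp (2 * U θ 3 0)) J θ

/-- admissible initial values -/
structure Adm (u : Fin 5 → B) : Prop where
  pos : 0 < mu (eta (u 0))
  sm : ∀ i, Sm (u i)
  c2 : ∃ k, u 2 = cst k
  c3 : ∃ l, u 3 = cst l
  c4 : u 4 = cst 0

theorem flow_const {ι : Type} [Fintype ι] (S : Sys ι) (U : ι → B) (i : ι) {c : ℝ}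
    (hc : U i = cst c) (hγ : S.γ i = 0) (hM : S.M i U = 0) : S.rhs U i = S.N i U := by
  rw [Sys.rhs, hM, hγ, hc, dv_cst, isD_zero.dv]
  simp

theorem flow_loc (q : ℕ) {ε T : ℝ} {U : ℝ → Fin 5 → B} (hε : 0 < ε) (hT : 0 < T)
    (h : (sys q ε).Sol T U) (hreg : ∀ θ ∈ Icc 0 T, ε ≤ mu (eta (U θ 0))) (hA : Adm (U 0)) :
    (∀ i, SmT (Icc 0 T) fun θ => U θ i) ∧ (SmT (Icc 0 T) fun θ => binv (eta (U θ 0))) ∧
    ∀ θ ∈ Icc 0 T, U θ 2 = cst (U θ 2 0) ∧ U θ 3 = cst (U θ 3 0) ∧ U θ 4 = cst (U θ 4 0) ∧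
      HasDerivWithinAt (fun θ => eta (U θ 0))
        ((1 / 4 : ℝ) • Xi q (U θ 0) (Dv (U θ 0)) (U θ 1) (binv (eta (U θ 0)))) (Icc 0 T) θ ∧
      HasDerivWithinAt (fun θ => Fh (U θ 1) (U θ 2) + cst (U θ 3 0))
        ((1 / 4 : ℝ) • Psi q (U θ 0) (U θ 1) (Dv (U θ 1)) (U θ 2) (binv (eta (U θ 0))))
        (Icc 0 T) θ ∧
      HasDerivWithinAt (fun θ => U θ 3 0)
        (1 / 4 * avg (gg q (U θ 0) (U θ 1) (binv (eta (U θ 0))))) (Icc 0 T) θ ∧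
      HasDerivWithinAt (fun θ => U θ 4 0) (1 / 4 * Real.exp (2 * U θ 3 0)) (Icc 0 T) θ := by
  have hs := (sys q ε).smooth hT h hA.sm
  have hi : ∀ θ ∈ Icc 0 T, ii ε (U θ) = binv (eta (U θ 0)) := fun θ hθ => iot_comp hε (hreg θ hθ)
  refine ⟨fun i => (hs i).1, (SmT.good (good_ii ε) fun i => (hs i).1).congr
    fun θ hθ => (hi θ hθ).symm, fun θ hθ => ?_⟩
  have c2 := (sys q ε).const_comp h (i := 2) (fun _ => rfl)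
    (fun W => ⟨(sys q ε).N 2 W 0, ContinuousMap.ext fun _ => rfl⟩) hA.c2 θ hθ
  have c3 := (sys q ε).const_comp h (i := 3) (fun _ => rfl)
    (fun W => ⟨(sys q ε).N 3 W 0, ContinuousMap.ext fun _ => rfl⟩) hA.c3 θ hθ
  have c4 := (sys q ε).const_comp h (i := 4) (fun _ => rfl)
    (fun W => ⟨(sys q ε).N 4 W 0, ContinuousMap.ext fun _ => rfl⟩) ⟨0, hA.c4⟩ θ hθ
  have sm : ∀ i, Sm (U θ i) := fun i => (hs i).1.1 θ hθ
  have hv : ∀ v, ii ε (U θ) v * eta (U θ 0) v = 1 := fun v => by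
    rw [hi θ hθ]
    exact binv_mul (hε.trans_le (hreg θ hθ)) v
  have d0 := (hs 0).2 θ hθ
  have d1 := (hs 1).2 θ hθ
  have d2 := (hs 2).2 θ hθ
  have d3 := (hs 3).2 θ hθ
  have d4 := (hs 4).2 θ hθ
  rw [flow_const _ _ _ c2 rfl rfl] at d2
  rw [flow_const _ _ _ c3 rfl rfl] at d3
  rw [flow_const _ _ _ c4 rfl rfl] at d4
  have z : ∀ i, (sys q ε).γ i • U θ i = 0 := fun i => zero_smul ℝ _
  rw [Sys.rhs, z, sub_zero] at d0 d1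
  rw [← hi θ hθ]
  refine ⟨c2, c3, c4, ?_, ?_, ev0.hasFDerivAt.comp_hasDerivWithinAt θ d3,
    ev0.hasFDerivAt.comp_hasDerivWithinAt θ d4⟩
  · exact (((ContinuousLinearMap.mul ℝ B vv ∘L HH 2).hasFDerivAt.comp_hasDerivWithinAt θ
      d0).const_add 1).congr_deriv (eta_rhs q (sm 0).isD (sm 0).dv.isD (sm 1).isD hv
        (Sm.good ((sys q ε).gM 0) sm).isD)
  · exact ((((cst ∘L ev0).hasFDerivAt.comp_hasDerivWithinAt θ d2).add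
      (prim.hasFDerivAt.comp_hasDerivWithinAt θ d1)).add
      ((cst ∘L ev0).hasFDerivAt.comp_hasDerivWithinAt θ d3)).congr_deriv
        (F_rhs q (sm 0).isD (sm 1).isD (sm 1).dv.isD hv (Sm.good ((sys q ε).gM 1) sm).isD)

theorem flow (q : ℕ) : ∃ (J : (Fin 5 → B) → Set ℝ) (Φ : (Fin 5 → B) → ℝ → Fin 5 → B),
    (∀ u, Adm u → Cl q (J u) (Φ u) ∧ Φ u 0 = u ∧
      (BddAbove (J u) → ∀ R ε : ℝ, 0 < ε →
        ¬ ∀ θ ∈ J u, ‖Φ u θ‖ ≤ R ∧ ε ≤ mu (eta (Φ u θ 0)))) ∧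
    (∀ u, ∀ T ∈ J u, ∀ᶠ u' in 𝓝 u, T ∈ J u') ∧
    ContinuousOn (fun p : (Fin 5 → B) × ℝ => Φ p.1 p.2) {p | p.2 ∈ J p.1} := by
  obtain ⟨C, hK⟩ := ker_PP (sys q 1).hα (sys q 1).hβ (sys q 1).hγ
  have hc : Continuous fun U : Fin 5 → B => mu (eta (U 0)) :=
    continuous_mu.comp (Good.var (0 : Fin 5)).eta.bl.continuous
  obtain ⟨J, Φ, h1, h2, h3, h4, h5⟩ := maxflow hK (fun ε => (sys q ε).GG)
    (fun ε _ => (sys q ε).bl) _ hc fun ε ε' u hε hε' a a' => by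
      have e : ii ε u = ii ε' u := (iot_comp hε a).trans (iot_comp hε' a').symm
      refine Prod.ext (funext fun i => ?_) (funext fun i => ?_) <;> fin_cases i <;>
        simp [Sys.GG, sys, e]
  refine ⟨J, Φ, fun u hu => ⟨?_, (h1 u hu.pos).2, h3 u hu.pos⟩, h4, h5⟩
  obtain ⟨hJ, h0⟩ := h1 u hu.pos
  have key := fun T (hT : T ∈ J u) (hT' : 0 < T) =>
    (h2 u T hT).elim fun ε h => flow_loc q h.1 hT' h.2.1 h.2.2 (h0.symm ▸ hu)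
  have loc : ∀ θ ∈ J u, ∃ T ∈ J u, 0 < T ∧ θ ∈ Icc 0 T ∧ Icc 0 T ∈ 𝓝[J u] θ := fun θ hθ => by
    obtain ⟨T, a1, a2, a3⟩ := hJ.loc hθ
    exact ⟨T, a1, (hJ.nonneg θ hθ).trans_lt a2, ⟨hJ.nonneg θ hθ, a2.le⟩,
      a3 ▸ self_mem_nhdsWithin⟩
  choose T a1 a2 a3 a4 using loc
  have k := fun θ hθ => (key _ (a1 θ hθ) (a2 θ hθ)).2.2 θ (a3 θ hθ)
  refine ⟨hJ, fun θ hθ => ?_, fun i => SmT.of_loc hJ fun T hT hT' => (key T hT hT').1 i,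
    SmT.of_loc hJ fun T hT hT' => (key T hT hT').2.1, fun θ hθ => (k θ hθ).1,
    fun θ hθ => (k θ hθ).2.1, fun θ hθ => (k θ hθ).2.2.1,
    fun θ hθ => (k θ hθ).2.2.2.1.mono_of_mem_nhdsWithin (a4 θ hθ),
    fun θ hθ => (k θ hθ).2.2.2.2.1.mono_of_mem_nhdsWithin (a4 θ hθ),
    fun θ hθ => (k θ hθ).2.2.2.2.2.1.mono_of_mem_nhdsWithin (a4 θ hθ),
    fun θ hθ => (k θ hθ).2.2.2.2.2.2.mono_of_mem_nhdsWithin (a4 θ hθ)⟩
  obtain ⟨ε, b1, -, b2⟩ := h2 u θ hθ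
  exact b1.trans_le (b2 θ ⟨hJ.nonneg θ hθ, le_rfl⟩)

end Vale.Agent.P244B
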