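import Vale.Agent.P244B.Eqs

/-! The integrated forms of the equations for `b` and `c`. -/

open Set Filter
open scoped ContDiff Topology unitInterval

noncomputable section

namespace Vale.Agent.P244B

theorem IsD.sq' {f f' : B} (h : IsD f f') : IsD (f ^ 2) (f' * f + f * f') := by
  rw [pow_two]
  exact h.mul h

theorem isD_gg (q : ℝ) {b b1 c c1 i : B} (hb : IsD b b1) (hc : IsD c c1)
    (hi : ∀ v, i v * eta b v = 1) : ∃ g1, IsD (gg q b c i) g1 := by
  have h := isD_inv (isD_eta b) hi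
  exact ⟨_, (((isD_cst 8).mul isD_aa).mul hc.sq').add ((isD_cst q).mul
    (((((isD_one.sub isD_vv).mul hb).mul (isD_one.add (isD_vv.mul hb))).mul h.sq').sub h))⟩

theorem ids_int {X X1 f : B} (h : IsD X X1)
    (e : ∀ v : I, v * (4 * f v) = X v + 2 * v * X1 v) : vv * HH 2 f = (1 / 4 : ℝ) • X := by
  have h1 : vv * f = (1 / 4 : ℝ) • (cst (((0 : ℕ) : ℝ) + 1) * X + cst 2 * vv * X1) := by
    ext v
    have := e v
    simp only [ContinuousMap.mul_apply, ContinuousMap.smul_apply, ContinuousMap.add_apply,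
      cst_apply, vv_apply, smul_eq_mul, Nat.cast_zero]
    linarith
  rw [← HH_vv 0 f, h1, map_smul, HH_D 0 h]

theorem eta_rhs (q : ℝ) {b b1 b2 c c1 i m : B} (hb : IsD b b1) (hb1 : IsD b1 b2) (hc : IsD c c1)
    (hi : ∀ v, i v * eta b v = 1) (hm : IsD (Mb q b c i) m) :
    vv * HH 2 (aa * b2 + bb ((q + 3) / 2) (3 / 2) * b1 +
      (aa * m + bb ((q + 3) / 2) (3 / 2) * Mb q b c i) + Nb q b c i) =
      (1 / 4 : ℝ) • Xi q b b1 c i := by
  have h := isD_inv (isD_eta b) hi
  obtain ⟨g1, hg⟩ := isD_gg q hb hc hi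
  obtain ⟨j, hj, hj'⟩ := Jop_D hg
  have hH := hb.HH 2
  have h1 := isD_one.sub isD_vv
  have h2 := isD_one.add (isD_vv.mul hb)
  have hM : IsD (Mb q b c i) _ := (((isD_cst (-(1 / 2))).mul
    (((((isD_cst q).mul hH).mul h).add hj).sub (((isD_cst 2).mul hH).mul h))).mul hb).sub
    (((isD_cst (1 / 2)).mul hb.sq').mul h)
  have hX : IsD (Xi q b b1 c i) _ := ((((((isD_cst (avg (gg q b c i))).mul (isD_eta b)).neg.sub
    ((h1.mul ((((isD_cst q).mul hb).mul h).add hj)).mul h2)).sub (((isD_cst (q - 1)).mul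
    (isD_one.sub ((h1.mul hb).mul ((isD_cst 2).add (isD_vv.mul hb))))).mul h)).sub h2).add
    (((isD_cst 2).mul h1).mul (hb.add (isD_vv.mul hb1))))
  rw [hm.unique hM]
  refine ids_int hX fun v => ?_
  have e1 := hi v
  have e2 := hj' v
  have e3 := DFunLike.congr_fun (HH_D' 2 hb) v
  simp only [Xi, Nb, Mb, A2, aA, AA, ContinuousMap.add_apply]
  generalize avg (gg q b c i) = gb at e2 ⊢
  simp only [ContinuousMap.add_apply, ContinuousMap.mul_apply, ContinuousMap.sub_apply,
    ContinuousMap.neg_apply, ContinuousMap.pow_apply, ContinuousMap.one_apply,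
    ContinuousMap.zero_apply, cst_apply, vv_apply, aa_apply, bb_apply] at e3 ⊢
  generalize Jop (gg q b c i) v = J at e2 ⊢
  simp only [gg, eta, ContinuousMap.add_apply, ContinuousMap.mul_apply, ContinuousMap.sub_apply,
    ContinuousMap.pow_apply, ContinuousMap.one_apply, cst_apply, vv_apply, aa_apply] at e1 e2 ⊢
  have hne : 1 + v * HH 2 b v ≠ 0 := right_ne_zero_of_mul_eq_one e1
  have e4 : gb = 8 * (v * (1 - v)) * c v ^ 2 + q * ((1 - v) * b v * (1 + v * b v) * i v ^ 2 - i v) -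
    (2 * (v * (1 - v)) * j v + (1 - 2 * v) * J) := by linarith
  have e5 : b v = 3 * HH 2 b v + 2 * v * HH (2 + 2) b1 v := by
    rw [← e3]
    push_cast
    ring
  rw [e4, eq_inv_of_mul_eq_one_left e1]
  generalize HH 2 b v = H at hne e5 ⊢
  rw [e5]
  field_simp
  ring

theorem F_rhs (q : ℝ) {b b1 c c1 c2 k i m : B} (_hb : IsD b b1) (hc : IsD c c1) (hc1 : IsD c1 c2)
    (_hi : ∀ v, i v * eta b v = 1) (hm : IsD (Mc q b c i) m) :
    cst (Nk q b c k i 0) + prim (aa * c2 + bb ((q + 3) / 2) (3 / 2) * c1 +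
      (aa * m + bb ((q + 3) / 2) (3 / 2) * Mc q b c i) + Nc q b c k i) + cst (Nl q b c i 0) =
      (1 / 4 : ℝ) • Psi q b c c1 k i := by
  have he : IsD (eF c k) _ := IsD.comp expC expC Real.hasDerivAt_exp
    ((isD_cst (-2)).mul (isD_Fh c k))
  have h := (((isD_aa.mul hc1).add ((isD_bb ((q + 1) / 2) (1 / 2)).mul hc)).add
    (isD_aa.mul hm)).sub ((isD_cst ((q - 1) / 4)).mul he)
  have e1 : (1 / 4 : ℝ) • Psi q b c c1 k i = aa * c1 + bb ((q + 1) / 2) (1 / 2) * c +
      aa * Mc q b c i - cst ((q - 1) / 4) * eF c k := by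
    ext v
    simp only [Psi, Mc, ContinuousMap.add_apply, ContinuousMap.mul_apply, ContinuousMap.sub_apply,
      ContinuousMap.smul_apply, cst_apply, smul_eq_mul]
    ring
  rw [e1, isD_iff.1 h, add_right_comm, ← map_add]
  congr 2
  · have h0 : prim c 0 = 0 := by simp [prim_apply]
    simp only [Nk, Nl, eF, Fh, ContinuousMap.add_apply, ContinuousMap.mul_apply,
      ContinuousMap.sub_apply, ContinuousMap.comp_apply, cst_apply, aa_apply, bb_apply, ev0_apply,
      h0, Icc.coe_zero]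
    ring_nf
  · ext v
    simp only [Nc, Mc, eF, ContinuousMap.add_apply, ContinuousMap.mul_apply,
      ContinuousMap.sub_apply, ContinuousMap.one_apply, ContinuousMap.zero_apply, cst_apply,
      vv_apply, aa_apply, bb_apply]
    ring

end Vale.Agent.P244B
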