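import Vale.Agent.P244B.Whit

/-! The constant speed parameter of the initial metric. -/

open Set Filter
open scoped ContDiff Topology

noncomputable section

namespace Vale.Agent.P244B

variable {E : Type} [NormedAddCommGroup E] [NormedSpace ℝ E] [CompleteSpace E]

omit [CompleteSpace E] in
theorem init1_int {g : E × ℝ → ℝ} (hg : ContDiff ℝ ∞ g) :
    ContDiff ℝ ∞ fun p : E × ℝ => ∫ s in (0 : ℝ)..p.2, g (p.1, s) := by
  have e : (fun p : E × ℝ => ∫ s in (0 : ℝ)..p.2, g (p.1, s)) =
      fun p : E × ℝ => p.2 * ∫ s in (0 : ℝ)..1, g (p.1, p.2 * s) := by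
    funext p
    have := intervalIntegral.smul_integral_comp_mul_left (a := 0) (b := 1) (fun s => g (p.1, s)) p.2
    simpa using this.symm
  rw [e]
  refine contDiff_snd.mul (contDiff_iff_contDiffAt.2 fun p => Vale.Agent.P264.had_integral
    (f := fun z : (E × ℝ) × ℝ => g (z.1.1, z.1.2 * z.2)) zero_le_one fun t _ => ?_)
  exact (hg.comp (contDiff_fst.fst.prodMk (contDiff_fst.snd.mul contDiff_snd))).contDiffAt

theorem init_param {Z : E × ℝ → ℝ}
    (hZ : ∀ d, ∀ r ∈ Icc (0 : ℝ) 1, ContDiffAt ℝ ∞ Z (d, r) ∧ 0 < Z (d, r)) :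
    ∃ (l : E → ℝ) (y : E × ℝ → ℝ), Continuous l ∧ (∀ d, 0 < l d) ∧ ContDiff ℝ ∞ y ∧
      (∀ d x, y (d, -x) = -y (d, x)) ∧ (∀ d x, y (d, Real.pi - x) = Real.pi - y (d, x)) ∧
      (∀ d, StrictMono fun x => y (d, x)) ∧
      ∀ d x, HasDerivAt (fun x => y (d, x)) (l d * √(Z (d, Real.sin (y (d, x)) ^ 2))) x := by
  have hm : ∀ x : ℝ, Real.sin x ^ 2 ∈ Icc (0 : ℝ) 1 := fun x =>
    ⟨sq_nonneg _, Real.sin_sq_le_one x⟩
  set g : E × ℝ → ℝ := fun p => (√(Z (p.1, Real.sin p.2 ^ 2)))⁻¹ with hgd
  have hsq : ∀ d x, 0 < √(Z (d, Real.sin x ^ 2)) := fun d x => Real.sqrt_pos.2 (hZ d _ (hm x)).2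
  have hgp : ∀ p, 0 < g p := fun p => inv_pos.2 (hsq p.1 p.2)
  have hg : ContDiff ℝ ∞ g := contDiff_iff_contDiffAt.2 fun p =>
    ((((hZ p.1 _ (hm p.2)).1.comp p (f := fun p : E × ℝ => (p.1, Real.sin p.2 ^ 2))
      (contDiff_fst.prodMk ((Real.contDiff_sin.comp contDiff_snd).pow 2)).contDiffAt).sqrt
      (hZ p.1 _ (hm p.2)).2.ne').inv (hsq p.1 p.2).ne')
  have hgc : ∀ d, Continuous fun s => g (d, s) := fun d =>
    hg.continuous.comp (Continuous.prodMk_right d)
  set A : E × ℝ → ℝ := fun p => ∫ s in (0 : ℝ)..p.2, g (p.1, s) with hAd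
  have hA : ContDiff ℝ ∞ A := init1_int hg
  have hAD : ∀ d x, HasDerivAt (fun x => A (d, x)) (g (d, x)) x := fun d x =>
    ((hgc d).integral_hasStrictDerivAt 0 x).hasDerivAt
  have hA0 : ∀ d, A (d, 0) = 0 := fun d => intervalIntegral.integral_same
  have hpi := Real.pi_pos
  have hAp : ∀ d, 0 < A (d, Real.pi / 2) := fun d =>
    intervalIntegral.intervalIntegral_pos_of_pos ((hgc d).intervalIntegrable _ _)
      (fun x => hgp _) (by positivity)
  have hodd : ∀ d x, A (d, -x) = -A (d, x) := fun d x => by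
    have h : ∀ x, HasDerivAt (fun x => A (d, -x) + A (d, x)) 0 x := fun x => by
      refine (((hAD d (-x)).comp x (hasDerivAt_neg x)).add (hAD d x)).congr_deriv ?_
      simp [hgd]
    have := is_const_of_deriv_eq_zero (fun x => (h x).differentiableAt) (fun x => (h x).deriv) x 0
    simp only [neg_zero, hA0] at this
    linarith
  have hrf : ∀ d x, A (d, Real.pi - x) = 2 * A (d, Real.pi / 2) - A (d, x) := fun d x => by
    have h : ∀ x, HasDerivAt (fun x => A (d, Real.pi - x) + A (d, x)) 0 x := fun x => by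
      refine (((hAD d (Real.pi - x)).comp x ((hasDerivAt_id x).const_sub Real.pi)).add
        (hAD d x)).congr_deriv ?_
      simp [hgd]
    have := is_const_of_deriv_eq_zero (fun x => (h x).differentiableAt) (fun x => (h x).deriv) x
      (Real.pi / 2)
    rw [show Real.pi - Real.pi / 2 = Real.pi / 2 by ring] at this
    linarith
  set l : E → ℝ := fun d => 2 / Real.pi * A (d, Real.pi / 2) with hld
  have hl : ContDiff ℝ ∞ l := contDiff_const.mul (hA.comp (contDiff_id.prodMk contDiff_const))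
  have hlp : ∀ d, 0 < l d := fun d => mul_pos (by positivity) (hAp d)
  set s : E × ℝ → ℝ := fun p => A p / l p.1 with hsd
  have hs : ContDiff ℝ ∞ s := hA.div (hl.comp contDiff_fst) fun p => (hlp p.1).ne'
  have hsD : ∀ d x, HasDerivAt (fun x => s (d, x)) (g (d, x) / l d) x := fun d x =>
    (hAD d x).div_const (l d)
  have hso : ∀ d x, s (d, -x) = -s (d, x) := fun d x => by simp only [hsd, hodd, neg_div]
  have hsr : ∀ d x, s (d, Real.pi - x) = Real.pi - s (d, x) := fun d x => by
    have := hAp d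
    simp only [hsd, hrf, hld]
    field_simp
  have hmono : ∀ d, StrictMono fun x => s (d, x) := fun d =>
    strictMono_of_deriv_pos fun x => by rw [(hsD d x).deriv]; exact div_pos (hgp _) (hlp d)
  have hnat : ∀ d (n : ℕ), s (d, n * Real.pi) = n * Real.pi := fun d n => by
    induction n with
    | zero => simp [hsd, hA0]
    | succ n ih =>
      have := hsr d (-(n * Real.pi))
      rw [hso, ih] at this
      push_cast
      rw [show ((n : ℝ) + 1) * Real.pi = Real.pi - -(n * Real.pi) by ring, this]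
  have hsurj : ∀ d, Function.Surjective fun x => s (d, x) := fun d z => by
    obtain ⟨n, hn⟩ := exists_nat_ge (|z| / Real.pi)
    rw [div_le_iff₀ hpi] at hn
    have hc : Continuous fun x => s (d, x) := hs.continuous.comp (Continuous.prodMk_right d)
    have h1 : z ∈ Icc (s (d, -(n * Real.pi))) (s (d, n * Real.pi)) := by
      rw [hso, hnat]
      exact abs_le.1 hn
    exact mem_range_of_exists_le_of_exists_ge hc ⟨_, h1.1⟩ ⟨_, h1.2⟩
  obtain ⟨y, hy, h1, h2⟩ := param_inverse hs
    (fun d x => by rw [(hsD d x).deriv]; exact div_pos (hgp _) (hlp d)) hsurj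
  refine ⟨l, y, hl.continuous, hlp, hy, fun d x => (hmono d).injective ?_,
    fun d x => (hmono d).injective ?_, fun d a b hab => (hmono d).lt_iff_lt.1 ?_, fun d x => ?_⟩
  · simp only [hso, h1]
  · simp only [hsr, h1]
  · simpa only [h1] using hab
  · have hc : Continuous fun x => y (d, x) := hy.continuous.comp (Continuous.prodMk_right d)
    refine ((hsD d (y (d, x))).of_local_left_inverse hc.continuousAt
      (div_pos (hgp _) (hlp d)).ne' (Eventually.of_forall (h1 d))).congr_deriv ?_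
    simp only [hgd]
    field_simp

end Vale.Agent.P244B
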