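import Vale.Agent.P244B.Init1
import Vale.Agent.P244B.Flow

/-! Initial values of the unknowns. -/

open Set Filter
open scoped ContDiff Topology unitInterval

noncomputable section

namespace Vale.Agent.P244B

open Vale.Agent.P244

theorem init2_div {E : Type} [NormedAddCommGroup E] [NormedSpace ℝ E] {a : E × ℝ → ℝ}
    (ha : ContDiff ℝ ∞ a) (h1 : ∀ d x, a (d, -x) = a (d, x))
    (h2 : ∀ d x, a (d, Real.pi - x) = -a (d, x)) :
    ∃ A : E × ℝ → ℝ, EvE A ∧ ∀ d x, a (d, x) = Real.cos x * A (d, x) := by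
  obtain ⟨A, hA, e⟩ := div_cosE ha fun d x hx => by
    obtain ⟨y, hy, h3⟩ := whit_mem x
    have h4 := h3 (fun x => Real.cos x ^ 2) (fun x => by simp) (fun x => by simp)
    have h5 := h3 (fun x => a (d, x) ^ 2) (fun x => by simp [h1]) (fun x => by simp [h2])
    have h6 : y = Real.pi / 2 := by
      by_contra h7
      have h8 := Real.cos_pos_of_mem_Ioo (x := y)
        ⟨by linarith [hy.1, Real.pi_pos], lt_of_le_of_ne hy.2 h7⟩
      rw [hx] at h4
      nlinarith
    have h9 := h2 d (Real.pi / 2)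
    rw [show Real.pi - Real.pi / 2 = Real.pi / 2 by ring] at h9
    rw [h6, show a (d, Real.pi / 2) = 0 by linarith] at h5
    simpa using h5
  have hc : ∀ (d : E) (g : ℝ → ℝ), Continuous g →
      (∀ x, Real.cos x * A (d, g x) = Real.cos x * A (d, x)) → ∀ x, A (d, g x) = A (d, x) :=
    fun d g hg h x => sub_eq_zero.1 (P264.had_cancel (u := fun x => A (d, g x) - A (d, x))
      ((hA.continuous.comp (by fun_prop)).sub (hA.continuous.comp (by fun_prop)))
      (fun x => by rw [Real.sin_two_mul, mul_assoc, mul_sub, h, sub_self, mul_zero]) x)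
  refine ⟨A, ⟨hA, fun d => hc d _ continuous_neg fun x => ?_,
    fun d => hc d (fun x => Real.pi - x) (by fun_prop) fun x => ?_⟩, e⟩
  · rw [← e, ← h1, e, Real.cos_neg]
  · have h3 := h2 d x
    rw [e, e, Real.cos_pi_sub] at h3
    linarith

theorem init_data (Z F0 : Par × ℝ → ℝ)
    (hZ : ∀ d, ∀ r ∈ Icc (0 : ℝ) 1,
      ContDiffAt ℝ ∞ Z (d, r) ∧ ContDiffAt ℝ ∞ F0 (d, r) ∧ 0 < Z (d, r))
    (h1 : ∀ d, Z (d, 0) = 1) :
    ∃ u : Par → Fin 5 → B, Continuous u ∧ ∀ d, Adm (u d) ∧ ∀ (q : ℕ) (W : ℝ → Fin 5 → B),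
      W 0 = u d → Init (mkPre q W) (fun r => Z (d, r)) fun r => F0 (d, r) := by
  obtain ⟨l, y, cl, l0, sy, yn, yr, ym, yd⟩ := init_param (Z := Z)
    fun d r hr => ⟨(hZ d r hr).1, (hZ d r hr).2.2⟩
  have y0 : ∀ d, y (d, 0) = 0 := fun d => by
    have h := yn d 0
    rw [neg_zero] at h
    linarith
  have yh : ∀ d, y (d, Real.pi / 2) = Real.pi / 2 := fun d => by
    have h := yr d (Real.pi / 2)
    rw [show Real.pi - Real.pi / 2 = Real.pi / 2 by ring] at h
    linarith
  have hI : ∀ s : ℝ, Real.sin s ^ 2 ∈ Icc (0 : ℝ) 1 := fun s => (sq s).2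
  have sr : ContDiff ℝ ∞ fun p : Par × ℝ => (p.1, Real.sin (y p) ^ 2) :=
    contDiff_fst.prodMk (sy.sin.pow 2)
  have sZ : ContDiff ℝ ∞ fun p : Par × ℝ => Z (p.1, Real.sin (y p) ^ 2) :=
    contDiff_iff_contDiffAt.2 fun p => (hZ p.1 _ (hI _)).1.comp p sr.contDiffAt
  have sF : ContDiff ℝ ∞ fun p : Par × ℝ => F0 (p.1, Real.sin (y p) ^ 2) :=
    contDiff_iff_contDiffAt.2 fun p => (hZ p.1 _ (hI _)).2.1.comp p sr.contDiffAt
  obtain ⟨A, hA, eA⟩ := init2_div
    (a := fun p : Par × ℝ => Real.cos (y p) * √(Z (p.1, Real.sin (y p) ^ 2)))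
    (sy.cos.mul (sZ.sqrt fun p => (hZ p.1 _ (hI _)).2.2.ne')) (fun d x => by simp [yn])
    fun d x => by simp [yr]
  simp only at eA
  obtain ⟨fA, -, cA, mA, vA⟩ := whitney hA
  obtain ⟨fF, cF, cF', mF, vF⟩ := whitney (u := fun p : Par × ℝ => F0 (p.1, Real.sin (y p) ^ 2))
    ⟨sF, fun d x => by simp [yn], fun d x => by simp [yr]⟩
  simp only at vF
  let b : Par → B := fun d => cst 2 * HH 1 (Dv (fA d))
  have A0 : ∀ d, fA d 0 = 1 := fun d => by
    have h := eA d 0
    rw [← vA, sq_zero, y0] at h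
    simpa [h1] using h.symm
  have ea : ∀ d x, Real.cos x * (1 + Real.sin x ^ 2 * b d (sq x)) =
      Real.cos (y (d, x)) * √(Z (d, Real.sin (y (d, x)) ^ 2)) := fun d x => by
    have h := congrArg (fun f : B => f (sq x)) (isD_iff.1 (mA d).isD)
    simp only [prim_eq, A0, ContinuousMap.add_apply, ContinuousMap.mul_apply, cst_apply, vv_apply,
      sq_coe] at h
    rw [eA, ← vA, h]
    simp only [b, ContinuousMap.mul_apply, cst_apply]
    ring
  have eh : ∀ d x, l d * Real.sin x * eta (b d) (sq x) = Real.sin (y (d, x)) := fun d x => by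
    have h : ∀ x, HasDerivAt (fun x => l d * (Real.sin x * eta (b d) (sq x)) - Real.sin (y (d, x)))
        0 x := fun x => (((hasDerivAt_hh (b d) x).const_mul (l d)).sub (yd d x).sin).congr_deriv
      (by rw [ea]; ring)
    have h2 := is_const_of_deriv_eq_zero (fun x => (h x).differentiableAt)
      (fun x => (h x).deriv) x 0
    simp only [y0, Real.sin_zero, zero_mul, mul_zero, sub_zero] at h2
    rw [mul_assoc]
    exact sub_eq_zero.1 h2
  refine ⟨fun d => ![b d, Dv (fF d), cst (fF d 0 - Real.log (l d)), cst (Real.log (l d)), cst 0],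
    continuous_pi fun i => ?_, fun d => ⟨⟨mu_pos fun v => ?_, fun i => ?_, ⟨_, rfl⟩, ⟨_, rfl⟩, rfl⟩,
      fun q W hW => ?_⟩⟩
  · have c1 : Continuous fun d => Real.log (l d) := cl.log fun d => (l0 d).ne'
    fin_cases i
    exacts [continuous_const.mul ((HH 1).continuous.comp cA), cF',
      cst.continuous.comp ((ev0.continuous.comp cF).sub c1), cst.continuous.comp c1,
      continuous_const]
  · change 0 < eta (b d) v
    rcases v.2.1.eq_or_lt with h | h
    · simp [eta, ← h]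
    have a1 : 0 < √(v : ℝ) := Real.sqrt_pos.2 h
    have a2 : √(v : ℝ) ≤ 1 := Real.sqrt_le_one.2 v.2.2
    have a3 := Real.sin_arcsin (by linarith : -1 ≤ √(v : ℝ)) a2
    have a4 : sq (Real.arcsin √(v : ℝ)) = v := Subtype.ext (by rw [sq_coe, a3, Real.sq_sqrt h.le])
    have a5 := eh d (Real.arcsin √(v : ℝ))
    have a6 := ym d (Real.arcsin_pos.2 a1)
    have a7 := (ym d).monotone (Real.arcsin_le_pi_div_two √(v : ℝ))
    simp only [y0, yh] at a6 a7
    have a8 := Real.sin_pos_of_pos_of_lt_pi a6 (by linarith [Real.pi_pos])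
    rw [← a5, a3, a4] at a8
    exact (pos_iff_pos_of_mul_pos a8).1 (mul_pos (l0 d) a1)
  · fin_cases i
    exacts [Sm.good (U := fun _ : Unit => Dv (fA d)) ((Good.const 2).mul ((Good.var ()).HH 1))
      fun _ => (mA d).dv, (mF d).dv, sm_cst _, sm_cst _, sm_cst _]
  have el : (mkPre q W).ℓ 0 = l d := by
    change Real.exp (W 0 3 0) = _
    rw [hW]
    exact Real.exp_log (l0 d)
  have e1 : ∀ x, (mkPre q W).h (0, x) = Real.sin (y (d, x)) := fun x => by
    rw [Pre.h, el, ← eh]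
    change _ * eta (W 0 0) (sq x) = _
    rw [hW]
    rfl
  have e2 : ∀ x, (mkPre q W).a (0, x) =
      Real.cos (y (d, x)) * √(Z (d, Real.sin (y (d, x)) ^ 2)) := fun x => by
    rw [mkPre_a, hW, ← ea]
    rfl
  intro x
  have hz := (hZ d _ (hI (y (d, x)))).2.2
  have hq := Real.sqrt_pos.2 hz
  have dZ : HasDerivAt (fun r => Z (d, r)) (deriv (fun r => Z (d, r)) (Real.sin (y (d, x)) ^ 2))
      (Real.sin (y (d, x)) ^ 2) := (((hZ d _ (hI _)).1.differentiableAt (by simp)).comp _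
    ((differentiableAt_const d).prodMk differentiableAt_id)).hasDerivAt
  rw [e1, e1, e2, yh]
  refine ⟨?_, ?_, ?_, Real.sin_sq_le_one _, fun hx => ?_, Real.sin_pi_div_two⟩
  · change Fh (W 0 1) (W 0 2) (sq x) + W 0 3 0 = _
    have h := congrArg (fun f : B => f (sq x)) (isD_iff.1 (mF d).isD)
    simp only [vF, ContinuousMap.add_apply, cst_apply] at h
    rw [hW]
    change fF d 0 - Real.log (l d) + prim (Dv (fF d)) (sq x) + Real.log (l d) = F0 _
    rw [h]
    ring
  · rw [mul_pow, Real.sq_sqrt hz.le, Real.cos_sq']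
  · have d1 := (yd d x).cos.mul ((HasDerivAt.comp (h := fun x => Real.sin (y (d, x)) ^ 2) x dZ
      ((yd d x).sin.pow 2)).sqrt hz.ne')
    have d2 := ((hasDerivAt_id _).const_sub 1).mul dZ
    have d3 : deriv (fun r => (1 - r) * Z (d, r)) (Real.sin (y (d, x)) ^ 2) = _ := d2.deriv
    have d4 : dx (mkPre q W).a (0, x) = _ := (congrArg (deriv · x) (funext e2)).trans d1.deriv
    rw [Pre.Ds, el, d3, d4, div_eq_iff (l0 d).ne']
    simp only [Function.comp_apply, id]
    have h := Real.sq_sqrt hz.le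
    rw [← Real.cos_sq']
    generalize √(Z (d, Real.sin (y (d, x)) ^ 2)) = s at h hq
    rw [← h]
    field_simp
    ring
  · have a6 := (ym d).monotone hx.1
    have a7 := ym d hx.2
    simp only [y0, yh] at a6 a7
    exact mul_pos (Real.cos_pos_of_mem_Ioo ⟨by linarith [Real.pi_pos], a7⟩) hq

end Vale.Agent.P244B
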