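import Mathlib

/-! The Jacobi operator on polynomials and its exponential. -/

open Polynomial

noncomputable section

namespace Vale.Agent.P244B

/-- `x (1 - x)` -/
def aP : ℝ[X] := X * (1 - X)

/-- `α (1 - x) - β x` -/
def bP (α β : ℝ) : ℝ[X] := C α * (1 - X) - C β * X

/-- `p ↦ a p' + b p` -/
def Dsp (α β : ℝ) : ℝ[X] →ₗ[ℝ] ℝ[X] :=
  LinearMap.mulLeft ℝ aP ∘ₗ derivative + LinearMap.mulLeft ℝ (bP α β)

/-- the Jacobi operator `p ↦ a p'' + b p'` -/
def Lp (α β : ℝ) : ℝ[X] →ₗ[ℝ] ℝ[X] := Dsp α β ∘ₗ derivative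

theorem Dsp_apply (α β : ℝ) (p : ℝ[X]) : Dsp α β p = aP * derivative p + bP α β * p := rfl

theorem Lp_apply (α β : ℝ) (p : ℝ[X]) :
    Lp α β p = aP * derivative (derivative p) + bP α β * derivative p := rfl

/-- eigenvalues -/
def lam (α β : ℝ) (k : ℕ) : ℝ := -(k * (k - 1 + α + β))

theorem jac_LX0 (α β : ℝ) : Lp α β (X ^ 0) = lam α β 0 • X ^ 0 := by
  simp [Lp_apply, lam]

theorem jac_LX (α β : ℝ) (k : ℕ) :
    Lp α β (X ^ (k + 1)) = lam α β (k + 1) • X ^ (k + 1) + ((k + 1) * (k + α)) • X ^ k := by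
  rw [Lp_apply]
  cases k with
  | zero =>
    simp only [lam, aP, bP, smul_eq_C_mul]
    simp
    ring
  | succ k =>
    have h1 : derivative (X ^ (k + 1 + 1) : ℝ[X]) = C ((k : ℝ) + 1 + 1) * X ^ (k + 1) := by
      rw [derivative_X_pow_succ]; push_cast; rfl
    have h2 : derivative (X ^ (k + 1) : ℝ[X]) = C ((k : ℝ) + 1) * X ^ k := by
      rw [derivative_X_pow_succ]
    rw [h1, derivative_C_mul, h2]
    simp only [lam, aP, bP, smul_eq_C_mul]
    push_cast
    simp only [map_add, map_mul, map_neg, map_sub, map_one]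
    ring

theorem jac_lam_ne {α β : ℝ} (h : 0 < α + β) {j k : ℕ} (hjk : j ≠ k) :
    lam α β j ≠ lam α β k := by
  have key : ∀ j k : ℕ, j < k → lam α β k < lam α β j := by
    intro j k hjk
    have h1 : (j : ℝ) + 1 ≤ k := by exact_mod_cast hjk
    have h0 : (0 : ℝ) ≤ j := Nat.cast_nonneg j
    have : lam α β j - lam α β k = (k - j) * (k + j - 1 + (α + β)) := by
      unfold lam; ring
    have h2 : 0 < ((k : ℝ) - j) * (k + j - 1 + (α + β)) := mul_pos (by linarith) (by linarith)
    linarith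
  rcases lt_or_gt_of_ne hjk with h1 | h1
  · exact (key _ _ h1).ne'
  · exact (key _ _ h1).ne

theorem jac_solve {α β : ℝ} (h : 0 < α + β) (k : ℕ) :
    ∀ j < k, ∃ r : ℝ[X], r ∈ degreeLT ℝ k ∧ Lp α β r - lam α β k • r = X ^ j := by
  intro j
  induction j with
  | zero =>
    intro hj
    have hne : lam α β 0 - lam α β k ≠ 0 := sub_ne_zero.2 (jac_lam_ne h hj.ne)
    refine ⟨(lam α β 0 - lam α β k)⁻¹ • X ^ 0, ?_, ?_⟩
    · refine Submodule.smul_mem _ _ ?_
      rw [mem_degreeLT, degree_X_pow]; exact_mod_cast hj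
    · rw [map_smul, jac_LX0, smul_comm (lam α β k), ← smul_sub, ← sub_smul, smul_smul,
        inv_mul_cancel₀ hne, one_smul]
  | succ j ih =>
    intro hj
    obtain ⟨r, hr, hr'⟩ := ih (by omega)
    have hne : lam α β (j + 1) - lam α β k ≠ 0 := sub_ne_zero.2 (jac_lam_ne h hj.ne)
    refine ⟨(lam α β (j + 1) - lam α β k)⁻¹ • (X ^ (j + 1) - (((j : ℝ) + 1) * (j + α)) • r),
      ?_, ?_⟩
    · refine Submodule.smul_mem _ _ (Submodule.sub_mem _ ?_ (Submodule.smul_mem _ _ hr))
      rw [mem_degreeLT, degree_X_pow]; exact_mod_cast hj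
    · have e : Lp α β (X ^ (j + 1) - (((j : ℝ) + 1) * (j + α)) • r) -
          lam α β k • (X ^ (j + 1) - (((j : ℝ) + 1) * (j + α)) • r) =
          (lam α β (j + 1) - lam α β k) • X ^ (j + 1) := by
        rw [map_sub, map_smul, jac_LX, ← hr']
        module
      rw [map_smul, smul_comm (lam α β k), ← smul_sub, e, smul_smul, inv_mul_cancel₀ hne, one_smul]

theorem jac_eig {α β : ℝ} (h : 0 < α + β) (k : ℕ) :
    ∃ p : ℝ[X], p.degree = k ∧ Lp α β p = lam α β k • p := by
  cases k with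
  | zero => exact ⟨X ^ 0, by simp, jac_LX0 α β⟩
  | succ k =>
    obtain ⟨r, hr, hr'⟩ := jac_solve h (k + 1) k (Nat.lt_succ_self k)
    refine ⟨X ^ (k + 1) - (((k : ℝ) + 1) * (k + α)) • r, ?_, ?_⟩
    · have h1 : ((((k : ℝ) + 1) * (k + α)) • r).degree < (X ^ (k + 1) : ℝ[X]).degree := by
        rw [degree_X_pow]
        exact mem_degreeLT.1 (Submodule.smul_mem _ _ hr)
      rw [degree_sub_eq_left_of_degree_lt h1, degree_X_pow]
    · rw [map_sub, map_smul, jac_LX, ← hr']
      module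

theorem exists_basis {α β : ℝ} (h : 0 < α + β) :
    ∃ J : Module.Basis ℕ ℝ ℝ[X], ∀ k, Lp α β (J k) = lam α β k • J k := by
  choose p hp hp' using jac_eig h
  let S : Polynomial.Sequence ℝ := ⟨p, hp⟩
  have hS : ∀ i, IsUnit (S i).leadingCoeff := fun i =>
    IsUnit.mk0 _ (leadingCoeff_ne_zero.2 (S.ne_zero i))
  refine ⟨S.basis hS, fun k => ?_⟩
  rw [S.basis_eq_self hS]
  exact hp' k

open Classical in
/-- a basis of eigenfunctions -/
def jb (α β : ℝ) : Module.Basis ℕ ℝ ℝ[X] :=
  if h : 0 < α + β then (exists_basis h).choose else basisMonomials ℝ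

/-- the exponential of the Jacobi operator -/
def Pp (α β t : ℝ) : ℝ[X] →ₗ[ℝ] ℝ[X] :=
  (jb α β).constr ℝ fun k => Real.exp (lam α β k * t) • jb α β k

variable {α β : ℝ}

theorem jac_jb (h : 0 < α + β) (k : ℕ) : Lp α β (jb α β k) = lam α β k • jb α β k := by
  unfold jb
  rw [dif_pos h]
  exact (exists_basis h).choose_spec k

theorem jac_Pp_jb (t : ℝ) (k : ℕ) :
    Pp α β t (jb α β k) = Real.exp (lam α β k * t) • jb α β k := by
  unfold Pp
  rw [Module.Basis.constr_basis]

theorem jac_sum (t : ℝ) (p : ℝ[X]) : Pp α β t p =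
    ∑ j ∈ ((jb α β).repr p).support,
      (((jb α β).repr p j) * Real.exp (lam α β j * t)) • jb α β j := by
  conv_lhs => rw [← (jb α β).linearCombination_repr p]
  rw [Finsupp.linearCombination_apply, Finsupp.sum, map_sum]
  refine Finset.sum_congr rfl fun j _ => ?_
  rw [map_smul, jac_Pp_jb, smul_smul]

theorem jac_repr_L (h : 0 < α + β) (p : ℝ[X]) (j : ℕ) :
    (jb α β).repr (Lp α β p) j = lam α β j * (jb α β).repr p j := by
  have e : ((jb α β).coord j) ∘ₗ Lp α β = lam α β j • (jb α β).coord j := by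
    refine (jb α β).ext fun k => ?_
    simp only [LinearMap.comp_apply, jac_jb h, map_smul, LinearMap.smul_apply,
      Module.Basis.coord_apply, Module.Basis.repr_self, smul_eq_mul]
    by_cases hk : k = j
    · subst hk; rfl
    · rw [Finsupp.single_eq_of_ne (Ne.symm hk)]; simp
  have := LinearMap.congr_fun e p
  simpa using this

theorem Pp_zero (p : ℝ[X]) : Pp α β 0 p = p := by
  have e : Pp α β 0 = LinearMap.id := by
    refine (jb α β).ext fun k => ?_
    rw [jac_Pp_jb]; simp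
  rw [e]; rfl

theorem Pp_add (s t : ℝ) (p : ℝ[X]) : Pp α β (s + t) p = Pp α β s (Pp α β t p) := by
  have e : Pp α β (s + t) = Pp α β s ∘ₗ Pp α β t := by
    refine (jb α β).ext fun k => ?_
    rw [LinearMap.comp_apply, jac_Pp_jb, jac_Pp_jb, map_smul, jac_Pp_jb, smul_smul,
      ← Real.exp_add]
    congr 2; ring
  rw [e]; rfl

theorem Pp_eig (h : 0 < α + β) {p : ℝ[X]} {μ : ℝ} (hp : Lp α β p = μ • p) (t : ℝ) :
    Pp α β t p = Real.exp (μ * t) • p := by
  rw [jac_sum]
  conv_rhs => rw [← (jb α β).linearCombination_repr p]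
  rw [Finsupp.linearCombination_apply, Finsupp.sum, Finset.smul_sum]
  refine Finset.sum_congr rfl fun j hj => ?_
  have h1 := jac_repr_L h p j
  rw [hp, map_smul, Finsupp.smul_apply, smul_eq_mul] at h1
  have h2 : μ = lam α β j := mul_right_cancel₀ (Finsupp.mem_support_iff.1 hj) h1
  rw [smul_smul, h2, mul_comm]

theorem Pp_C (h : 0 < α + β) (c t : ℝ) : Pp α β t (C c) = C c := by
  have h0 : Lp α β (C c) = (0 : ℝ) • C c := by simp [Lp_apply]
  rw [Pp_eig h h0]; simp

theorem Pp_L (h : 0 < α + β) (t : ℝ) (p : ℝ[X]) : Lp α β (Pp α β t p) = Pp α β t (Lp α β p) := by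
  have e : Lp α β ∘ₗ Pp α β t = Pp α β t ∘ₗ Lp α β := by
    refine (jb α β).ext fun k => ?_
    simp only [LinearMap.comp_apply, jac_Pp_jb, map_smul, jac_jb h, smul_smul, mul_comm]
  exact LinearMap.congr_fun e p

theorem deriv_Dsp (p : ℝ[X]) :
    derivative (Dsp α β p) = Dsp (α + 1) (β + 1) (derivative p) - (α + β) • p := by
  simp only [Dsp_apply, aP, bP, smul_eq_C_mul, derivative_mul, derivative_sub,
    derivative_X, derivative_one, derivative_C, map_add, map_one]
  ring

theorem Pp_deriv (h : 0 < α + β) (t : ℝ) (p : ℝ[X]) :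
    derivative (Pp α β t p) =
      Real.exp (-(α + β) * t) • Pp (α + 1) (β + 1) t (derivative p) := by
  have h' : 0 < α + 1 + (β + 1) := by linarith
  have e : derivative ∘ₗ Pp α β t =
      Real.exp (-(α + β) * t) • (Pp (α + 1) (β + 1) t ∘ₗ derivative) := by
    refine (jb α β).ext fun k => ?_
    have h1 : Lp (α + 1) (β + 1) (derivative (jb α β k)) =
        (lam α β k + (α + β)) • derivative (jb α β k) := by
      have h2 := deriv_Dsp (α := α) (β := β) (derivative (jb α β k))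
      have h3 : Dsp α β (derivative (jb α β k)) = lam α β k • jb α β k := jac_jb h k
      rw [h3, map_smul] at h2
      change Dsp (α + 1) (β + 1) (derivative (derivative (jb α β k))) = _
      rw [add_smul, h2]; abel
    simp only [LinearMap.comp_apply, LinearMap.smul_apply, jac_Pp_jb, map_smul]
    rw [Pp_eig h' h1, smul_smul, ← Real.exp_add]
    congr 2; ring
  exact LinearMap.congr_fun e p

theorem Pp_Dsp (h : 0 < α + β) (t : ℝ) (p : ℝ[X]) :
    Pp α β t (Dsp α β p) = Real.exp (-(α + β) * t) • Dsp α β (Pp (α + 1) (β + 1) t p) := by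
  have h' : 0 < α + 1 + (β + 1) := by linarith
  have e : Pp α β t ∘ₗ Dsp α β =
      Real.exp (-(α + β) * t) • (Dsp α β ∘ₗ Pp (α + 1) (β + 1) t) := by
    refine (jb (α + 1) (β + 1)).ext fun k => ?_
    have h1 : Lp α β (Dsp α β (jb (α + 1) (β + 1) k)) =
        (lam (α + 1) (β + 1) k - (α + β)) • Dsp α β (jb (α + 1) (β + 1) k) := by
      change Dsp α β (derivative (Dsp α β (jb (α + 1) (β + 1) k))) = _
      have h3 : Dsp (α + 1) (β + 1) (derivative (jb (α + 1) (β + 1) k)) =
          lam (α + 1) (β + 1) k • jb (α + 1) (β + 1) k := jac_jb h' k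
      rw [deriv_Dsp, h3, ← sub_smul, map_smul]
    simp only [LinearMap.comp_apply, LinearMap.smul_apply, jac_Pp_jb, map_smul]
    rw [Pp_eig h h1, smul_smul, ← Real.exp_add]
    congr 2; ring
  exact LinearMap.congr_fun e p

/-- time derivative, seen through any linear map into a normed space -/
theorem Pp_hasDerivAt (h : 0 < α + β) {F : Type} [NormedAddCommGroup F] [NormedSpace ℝ F]
    (φ : ℝ[X] →ₗ[ℝ] F) (p : ℝ[X]) (t : ℝ) :
    HasDerivAt (fun t => φ (Pp α β t p)) (φ (Lp α β (Pp α β t p))) t := by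
  have e : (fun t => φ (Pp α β t p)) = fun t => ∑ j ∈ ((jb α β).repr p).support,
      (((jb α β).repr p j) * Real.exp (lam α β j * t)) • φ (jb α β j) := by
    funext t
    rw [jac_sum, map_sum]
    simp only [map_smul]
  have e2 : φ (Lp α β (Pp α β t p)) = ∑ j ∈ ((jb α β).repr p).support,
      (((jb α β).repr p j) * (Real.exp (lam α β j * t) * lam α β j)) • φ (jb α β j) := by
    rw [jac_sum, map_sum, map_sum]
    refine Finset.sum_congr rfl fun j _ => ?_
    rw [map_smul, jac_jb h, smul_smul, map_smul, mul_assoc]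
  rw [e, e2]
  refine HasDerivAt.fun_sum fun j _ => ?_
  have h1 : HasDerivAt (fun t => lam α β j * t) (lam α β j) t := by
    simpa using (hasDerivAt_id t).const_mul (lam α β j)
  exact ((h1.exp).const_mul _).smul_const _

/-- joint continuity, for any linear image in the polynomials -/
theorem Pp_cont (φ : ℝ[X] →ₗ[ℝ] ℝ[X]) (p : ℝ[X]) :
    Continuous fun z : ℝ × ℝ => (φ (Pp α β z.1 p)).eval z.2 := by
  have e : (fun z : ℝ × ℝ => (φ (Pp α β z.1 p)).eval z.2) = fun z : ℝ × ℝ =>
      ∑ j ∈ ((jb α β).repr p).support,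
      (((jb α β).repr p j) * Real.exp (lam α β j * z.1)) * (φ (jb α β j)).eval z.2 := by
    funext z
    rw [jac_sum, map_sum, eval_finsetSum]
    simp only [map_smul, eval_smul, smul_eq_mul]
  rw [e]
  refine continuous_finsetSum _ fun j _ => ?_
  have := (φ (jb α β j)).continuous
  fun_prop

end Vale.Agent.P244B
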