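import Vale.Agent.P244B.Ids
import Vale.Agent.P244B.Joint

/-! Classical solutions in true time solve the reduced flow. -/

open Set Filter
open scoped ContDiff Topology unitInterval

noncomputable section

namespace Vale.Agent.P244B

open Vale.Agent.P244

/-- classical solutions in true time -/
structure ClT (q : ℕ) (T : ℝ) (W : ℝ → Fin 5 → B) : Prop where
  pos : ∀ t ∈ Ico 0 T, 0 < mu (eta (W t 0))
  sm : ∀ i, SmT (Ico 0 T) fun t => W t i
  smi : SmT (Ico 0 T) fun t => binv (eta (W t 0))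
  eqη : ∀ t ∈ Ioo 0 T, HasDerivAt (fun t => eta (W t 0))
    (Real.exp (-2 * W t 3 0) • Xi q (W t 0) (Dv (W t 0)) (W t 1) (binv (eta (W t 0)))) t
  eqF : ∀ t ∈ Ioo 0 T, HasDerivAt (fun t => Fh (W t 1) (W t 2) + cst (W t 3 0))
    (Real.exp (-2 * W t 3 0) •
      Psi q (W t 0) (W t 1) (Dv (W t 1)) (W t 2) (binv (eta (W t 0)))) t
  eql : ∀ t ∈ Ioo 0 T, HasDerivAt (fun t => W t 3 0)
    (Real.exp (-2 * W t 3 0) * avg (gg q (W t 0) (W t 1) (binv (eta (W t 0))))) t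

variable {q : ℕ} {T : ℝ} {W : ℝ → Fin 5 → B}

theorem red_ev {u : ℝ → B} {u' : B} {t : ℝ} (h : HasDerivAt u u' t) (v : I) :
    HasDerivAt (fun t => u t v) (u' v) t :=
  (ContinuousMap.evalCLM ℝ v : B →L[ℝ] ℝ).hasFDerivAt.comp_hasDerivAt t h

theorem red_exp (l : ℝ) : Real.exp (-2 * l) = ((Real.exp l) ^ 2)⁻¹ := by
  rw [← Real.exp_nat_mul, ← Real.exp_neg]
  congr 1
  push_cast
  ring

theorem red_X (q : ℕ) (W : ℝ → Fin 5 → B) (p : ℝ × ℝ) : (mkPre q W).X p =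
    2 * Real.sin p.2 * Real.cos p.2 * W p.1 1 (sq p.2) / Real.exp (W p.1 3 0) := by
  rw [Pre.X, Pre.Ds, mkPre_Fx]
  rfl

theorem red_DX (q : ℕ) (W : ℝ → Fin 5 → B) (p : ℝ × ℝ) {c1 : B} (hc : IsD (W p.1 1) c1) :
    (mkPre q W).Ds (mkPre q W).X p =
      (2 * (Real.cos p.2 ^ 2 - Real.sin p.2 ^ 2) * W p.1 1 (sq p.2) +
        4 * (Real.sin p.2 * Real.cos p.2) ^ 2 * c1 (sq p.2)) / Real.exp (W p.1 3 0) ^ 2 := by
  have h := ((((Real.hasDerivAt_sin p.2).const_mul 2).mul (Real.hasDerivAt_cos p.2)).mul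
    (hc.hasDerivAt_sq p.2)).div_const (Real.exp (W p.1 3 0))
  have e : (fun x => (mkPre q W).X (p.1, x)) =
      fun x => 2 * Real.sin x * Real.cos x * W p.1 1 (sq x) / Real.exp (W p.1 3 0) :=
    funext fun x => red_X q W (p.1, x)
  rw [Pre.Ds, dx, e]
  erw [h.deriv]
  have := Real.exp_pos (W p.1 3 0)
  change _ / Real.exp (W p.1 3 0) = _
  simp only [Pi.mul_apply]
  field_simp
  ring

theorem red_dG (q : ℕ) (W : ℝ → Fin 5 → B) {t x : ℝ} (hp : 0 < mu (eta (W t 0)))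
    (hx : x ∈ Ioo 0 Real.pi) : dx (mkPre q W).G (t, x) =
      Real.cos x * (1 + Real.sin x ^ 2 * W t 0 (sq x)) / (Real.sin x * eta (W t 0) (sq x)) := by
  have hs := Real.sin_pos_of_mem_Ioo hx
  have hη : 0 < eta (W t 0) (sq x) := hp.trans_le (le_mu.1 le_rfl _)
  have hl := Real.exp_pos (W t 3 0)
  have h := ((hasDerivAt_hh (W t 0) x).const_mul (Real.exp (W t 3 0))).log (by positivity)
  have e : (fun y => (mkPre q W).G (t, y)) =
      fun y => Real.log (Real.exp (W t 3 0) * (Real.sin y * eta (W t 0) (sq y))) :=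
    funext fun y => by rw [← mul_assoc]; rfl
  rw [dx, e, h.deriv]
  field_simp

theorem red_Y (q : ℕ) (W : ℝ → Fin 5 → B) {t x : ℝ} (hp : 0 < mu (eta (W t 0)))
    (hx : x ∈ Ioo 0 Real.pi) : (mkPre q W).Y (t, x) =
      Real.cos x * (1 + Real.sin x ^ 2 * W t 0 (sq x)) / (Real.sin x * eta (W t 0) (sq x)) /
        Real.exp (W t 3 0) := by
  rw [Pre.Y, Pre.Ds, red_dG q W hp hx]
  rfl

theorem red_DY (q : ℕ) (W : ℝ → Fin 5 → B) {t x : ℝ} (hp : 0 < mu (eta (W t 0)))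
    (hx : x ∈ Ioo 0 Real.pi) {b1 : B} (hb : IsD (W t 0) b1) :
    (mkPre q W).Ds (mkPre q W).Y (t, x) =
      ((-(1 + Real.sin x ^ 2 * W t 0 (sq x)) +
          2 * Real.cos x ^ 2 * (W t 0 (sq x) + Real.sin x ^ 2 * b1 (sq x))) / eta (W t 0) (sq x) -
        (Real.cos x * (1 + Real.sin x ^ 2 * W t 0 (sq x)) /
          (Real.sin x * eta (W t 0) (sq x))) ^ 2) / Real.exp (W t 3 0) ^ 2 := by
  have hs := Real.sin_pos_of_mem_Ioo hx
  have hη : 0 < eta (W t 0) (sq x) := hp.trans_le (le_mu.1 le_rfl _)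
  have hl := Real.exp_pos (W t 3 0)
  have h := (((Real.hasDerivAt_cos x).mul ((((Real.hasDerivAt_sin x).pow 2).mul
    (hb.hasDerivAt_sq x)).const_add 1)).div (hasDerivAt_hh (W t 0) x) (by positivity)).div_const
    (Real.exp (W t 3 0))
  have e : (fun y => (mkPre q W).Y (t, y)) =ᶠ[𝓝 x] fun y =>
      Real.cos y * (1 + Real.sin y ^ 2 * W t 0 (sq y)) / (Real.sin y * eta (W t 0) (sq y)) /
        Real.exp (W t 3 0) :=
    (isOpen_Ioo.eventually_mem hx).mono fun y hy => red_Y q W hp hy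
  rw [Pre.Ds, dx, e.deriv_eq]
  erw [h.deriv]
  change _ / Real.exp (W t 3 0) = _
  simp only [Pi.mul_apply, Pi.pow_apply]
  field_simp
  ring

theorem red_xi (q : ℕ) (W : ℝ → Fin 5 → B) (p : ℝ × ℝ) : (mkPre q W).ξ p =
    -(Real.exp (-2 * W p.1 3 0) * (Real.sin p.2 * Real.cos p.2 *
      ww q (W p.1 0) (W p.1 1) (binv (eta (W p.1 0))) (sq p.2))) := by
  change Real.sin p.2 * -(_ * _ * _) = _
  ring

theorem red_dxi (q : ℕ) (W : ℝ → Fin 5 → B) (p : ℝ × ℝ) {w1 : B}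
    (hw : IsD (ww q (W p.1 0) (W p.1 1) (binv (eta (W p.1 0)))) w1) :
    dx (mkPre q W).ξ p = -(Real.exp (-2 * W p.1 3 0) *
      ((Real.cos p.2 ^ 2 - Real.sin p.2 ^ 2) *
        ww q (W p.1 0) (W p.1 1) (binv (eta (W p.1 0))) (sq p.2) +
        2 * (Real.sin p.2 * Real.cos p.2) ^ 2 * w1 (sq p.2))) := by
  have h := ((((Real.hasDerivAt_sin p.2).mul (Real.hasDerivAt_cos p.2)).mul
    (hw.hasDerivAt_sq p.2)).const_mul (Real.exp (-2 * W p.1 3 0))).neg
  have e : (fun x => (mkPre q W).ξ (p.1, x)) = fun x => -(Real.exp (-2 * W p.1 3 0) *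
      (Real.sin x * Real.cos x * ww q (W p.1 0) (W p.1 1) (binv (eta (W p.1 0))) (sq x))) :=
    funext fun x => red_xi q W (p.1, x)
  rw [dx, e]
  erw [h.deriv]
  simp only [Pi.mul_apply]
  ring

theorem red_inv {f : B} (h : 0 < mu f) (v : I) : binv f v = (f v)⁻¹ :=
  eq_inv_of_mul_eq_one_left (binv_mul h v)

theorem red_eta (b : B) (v : I) : eta b v = 1 + v * HH 2 b v := rfl

theorem ClT.red_eqF (h : ClT q T W) : ∀ p ∈ Om T,
    (mkPre q W).Dt (mkPre q W).F p = -(mkPre q W).ρ1 q p := by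
  rintro ⟨t, x⟩ ⟨ht, hx⟩
  replace ht : t ∈ Ioo 0 T := ht
  replace hx : x ∈ Ioo 0 Real.pi := hx
  have ht' : t ∈ Ico 0 T := Ioo_subset_Ico_self ht
  have hp := h.pos t ht'
  have hs := Real.sin_pos_of_mem_Ioo hx
  have hη : 0 < eta (W t 0) (sq x) := hp.trans_le (le_mu.1 le_rfl _)
  have hl := Real.exp_pos (W t 3 0)
  have h1 : dt (mkPre q W).F (t, x) = _ := (red_ev (h.eqF t ht) (sq x)).deriv
  have h2 : Real.exp (-2 * (mkPre q W).F (t, x)) =
      (Real.exp (W t 3 0) ^ 2)⁻¹ * eF (W t 1) (W t 2) (sq x) := by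
    rw [← red_exp]
    change Real.exp (-2 * (_ + _)) = _ * Real.exp (-2 * _)
    rw [← Real.exp_add]
    congr 1
    ring
  have h3 := red_DX q W (t, x) ((h.sm 1).1 t ht').isD
  have h4 := red_X q W (t, x)
  have h5 := red_Y q W hp hx
  have hc : Real.cos x ^ 2 = 1 - Real.sin x ^ 2 := Real.cos_sq' x
  rw [Pre.Dt, Pre.ρ1, Pre.lap, Pre.H, h1, h2, red_xi, mkPre_Fx, h5]
  change _ = -(_ - ((mkPre q W).Ds (mkPre q W).X (t, x) + _ * (mkPre q W).X (t, x)))
  rw [h3, h4, red_exp]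
  simp only [Psi, ww, AA, ContinuousMap.smul_apply, ContinuousMap.sub_apply,
    ContinuousMap.add_apply, ContinuousMap.mul_apply, cst_apply, aa_apply, bb_apply, sq_coe,
    red_inv hp, smul_eq_mul]
  rw [red_eta] at hη ⊢
  rw [sq_coe] at hη ⊢
  field_simp
  ring_nf
  simp only [hc]
  ring

theorem ClT.red_eqG (h : ClT q T W) : ∀ p ∈ Om T,
    (mkPre q W).Dt (mkPre q W).G p = -(mkPre q W).ρ2 q p := by
  rintro ⟨t, x⟩ ⟨ht, hx⟩
  replace ht : t ∈ Ioo 0 T := ht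
  replace hx : x ∈ Ioo 0 Real.pi := hx
  have ht' : t ∈ Ico 0 T := Ioo_subset_Ico_self ht
  have hp := h.pos t ht'
  have hs := Real.sin_pos_of_mem_Ioo hx
  have hη : 0 < eta (W t 0) (sq x) := hp.trans_le (le_mu.1 le_rfl _)
  have hl := Real.exp_pos (W t 3 0)
  have h1 : dt (mkPre q W).G (t, x) = _ := ((((h.eql t ht).exp.mul_const (Real.sin x)).mul
    (red_ev (h.eqη t ht) (sq x))).log (mul_pos (mul_pos hl hs) hη).ne').deriv
  have h3 := red_DY q W hp hx ((h.sm 0).1 t ht').isD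
  have h4 := red_X q W (t, x)
  have h5 := red_Y q W hp hx
  have hc : Real.cos x ^ 2 = 1 - Real.sin x ^ 2 := Real.cos_sq' x
  rw [Pre.Dt, Pre.ρ2, Pre.lap, Pre.H, h1, red_xi, red_dG q W hp hx]
  change _ = -(_ / (Real.exp (W t 3 0) * Real.sin x * eta (W t 0) (sq x)) ^ 2 -
    ((mkPre q W).Ds (mkPre q W).Y (t, x) + _ * (mkPre q W).Y (t, x)))
  rw [h3, h4, h5, red_exp]
  simp only [Xi, ww, ContinuousMap.smul_apply, ContinuousMap.sub_apply, ContinuousMap.neg_apply,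
    ContinuousMap.add_apply, ContinuousMap.mul_apply, ContinuousMap.one_apply, cst_apply,
    vv_apply, sq_coe, red_inv hp, smul_eq_mul, Pi.mul_apply]
  field_simp
  ring_nf
  simp only [hc]
  ring

theorem ClT.red_eql (h : ClT q T W) : ∀ p ∈ Om T,
    dx (mkPre q W).ξ p - deriv (mkPre q W).ℓ p.1 / (mkPre q W).ℓ p.1 = (mkPre q W).ρ0 q p := by
  rintro ⟨t, x⟩ ⟨ht, hx⟩
  replace ht : t ∈ Ioo 0 T := ht
  replace hx : x ∈ Ioo 0 Real.pi := hx
  have ht' : t ∈ Ico 0 T := Ioo_subset_Ico_self ht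
  have hp := h.pos t ht'
  have hs := Real.sin_pos_of_mem_Ioo hx
  have hη : 0 < eta (W t 0) (sq x) := hp.trans_le (le_mu.1 le_rfl _)
  have hl := Real.exp_pos (W t 3 0)
  have hb : IsD (W t 0) (Dv (W t 0)) := ((h.sm 0).1 t ht').isD
  have hc1 : IsD (W t 1) (Dv (W t 1)) := ((h.sm 1).1 t ht').isD
  have hi := isD_inv (isD_eta (W t 0)) (binv_mul hp)
  obtain ⟨g1, hg⟩ := isD_gg q hb hc1 (binv_mul hp)
  obtain ⟨j, hj, hj'⟩ := Jop_D hg
  have hw := red_dxi q W (t, x)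
    ((((((isD_cst q).mul hb).mul hi).add hj).add ((isD_cst 4).mul hc1)))
  have h1 : deriv (mkPre q W).ℓ t = _ := (h.eql t ht).exp.deriv
  have h2 := red_DX q W (t, x) hc1
  have h3 := red_DY q W hp hx hb
  have h4 := red_X q W (t, x)
  have h5 := red_Y q W hp hx
  have hc : Real.cos x ^ 2 = 1 - Real.sin x ^ 2 := Real.cos_sq' x
  have h6 := hj' (sq x)
  rw [Pre.ρ0, hw, h1, h2, h3, h4, h5, red_exp]
  change _ - _ / Real.exp (W t 3 0) = _
  generalize avg (gg q (W t 0) (W t 1) (binv (eta (W t 0)))) = gb at h6 ⊢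
  have h8 : gb = gg q (W t 0) (W t 1) (binv (eta (W t 0))) (sq x) - (2 * (sq x * (1 - sq x)) * j (sq x) +
    (1 - 2 * sq x) * Jop (gg q (W t 0) (W t 1) (binv (eta (W t 0)))) (sq x)) := by linarith
  rw [h8]
  simp only [ww, ContinuousMap.add_apply]
  generalize Jop (gg q (W t 0) (W t 1) (binv (eta (W t 0)))) (sq x) = Jv
  simp only [gg, ContinuousMap.sub_apply, ContinuousMap.neg_apply, ContinuousMap.pow_apply,
    ContinuousMap.add_apply, ContinuousMap.mul_apply, ContinuousMap.one_apply, cst_apply,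
    ContinuousMap.zero_apply, vv_apply, aa_apply, sq_coe, red_inv hp]
  rw [red_eta] at hη ⊢
  rw [sq_coe] at hη ⊢
  field_simp
  ring_nf
  simp only [hc]
  ring

theorem ClT.isSol (h : ClT q T W) : IsSol q T (mkPre q W) := by
  have hU : UniqueDiffOn ℝ (Ico 0 T) := uniqueDiffOn_Ico 0 T
  have hl : ContDiffOn ℝ ∞ (fun t => W t 3 0) (Ico 0 T) :=
    ev0.contDiff.comp_contDiffOn (h.sm 3).contDiffOn
  have hl' : ContDiffOn ℝ ∞ (fun p : ℝ × ℝ => W p.1 3 0) (Ico 0 T ×ˢ univ) :=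
    hl.comp contDiffOn_fst fun p hp => hp.1
  have hw : SmT (Ico 0 T) fun t => ww q (W t 0) (W t 1) (binv (eta (W t 0))) :=
    SmT.good (Good.ww q (Good.var (0 : Fin 3)) (Good.var 1) (Good.var 2))
      (U := fun t => ![W t 0, W t 1, binv (eta (W t 0))]) fun i => by
        fin_cases i
        exacts [h.sm 0, h.sm 1, h.smi]
  refine ⟨hl.exp, (SmT.good (Good.var 0).eta h.sm).joint_sq hU,
    ((SmT.good ((Good.var 1).Fh (Good.var 2)) h.sm).joint_sq hU).add hl',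
    (((contDiffOn_const.mul hl').exp.mul
      (Real.contDiff_cos.comp contDiff_snd).contDiffOn).mul (hw.joint_sq hU)).neg,
    fun t _ => Real.exp_pos _, fun t ht x => (h.pos t ht).trans_le (le_mu.1 le_rfl _),
    fun t _ => ?_, fun t x => ?_, fun t x => ?_, fun t x => ?_, fun t x => ?_, fun t x => ?_,
    fun t x => ?_, h.red_eqF, h.red_eqG, h.red_eql⟩
  · simp [mkPre, sq_zero, red_eta]
  · simp only [mkPre, sq_neg]
  · simp only [mkPre, sq_neg]
  · simp only [mkPre, sq_neg, Real.cos_neg]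
  · simp only [mkPre, sq_refl]
  · simp only [mkPre, sq_refl]
  · simp only [mkPre, sq_refl, Real.cos_pi_sub]
    ring

end Vale.Agent.P244B
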