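import Vale.Agent.P244B.MaxF

/-! Change of time. -/

open Set Filter
open scoped ContDiff Topology

noncomputable section

namespace Vale.Agent.P244B

theorem time_change {X : Type} [TopologicalSpace X] (J : X → Set ℝ) (τ ψ : X → ℝ → ℝ) {T : ℝ}
    (hT : 0 < T) (hJ : ∀ d, TI (J d)) (h0 : ∀ d, τ d 0 = 0)
    (hd : ∀ d, ∀ θ ∈ J d, HasDerivWithinAt (τ d) (ψ d θ) (J d) θ)
    (hψ : ∀ d, ContDiffOn ℝ ∞ (ψ d) (J d)) (hpos : ∀ d, ∀ θ ∈ J d, 0 < ψ d θ)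
    (hop : ∀ d, ∀ θ ∈ J d, ∀ᶠ d' in 𝓝 d, θ ∈ J d')
    (hc : ContinuousOn (fun p : X × ℝ => τ p.1 p.2) {p | p.2 ∈ J p.1}) :
    ∃ (Tm : X → ℝ) (ϑ : X → ℝ → ℝ),
      (∀ d, 0 < Tm d ∧ Tm d ≤ T ∧ ϑ d 0 = 0 ∧ MapsTo (ϑ d) (Ico 0 (Tm d)) (J d) ∧
        ContDiffOn ℝ ∞ (ϑ d) (Ico 0 (Tm d)) ∧
        (∀ t ∈ Ioo 0 (Tm d), 0 < ϑ d t ∧ HasDerivAt (ϑ d) (ψ d (ϑ d t))⁻¹ t) ∧
        (Tm d < T → ∀ θ ∈ J d, τ d θ ∈ Ico 0 (Tm d) ∧ ϑ d (τ d θ) = θ ∧ (0 < θ → 0 < τ d θ))) ∧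
      LowerSemicontinuous Tm ∧
      ContinuousOn (fun p : X × ℝ => ϑ p.1 p.2) {p | 0 ≤ p.2 ∧ p.2 < Tm p.1} := by
  have cont : ∀ d, ContinuousOn (τ d) (J d) := fun d θ h => (hd d θ h).continuousWithinAt
  have mono : ∀ d, StrictMonoOn (τ d) (J d) := fun d =>
    strictMonoOn_of_hasDerivWithinAt_pos (hJ d).convex (cont d)
      (fun x hx => (hd d x (interior_subset hx)).mono interior_subset)
      fun x hx => hpos d x (interior_subset hx)
  let Tm : X → ℝ := fun d => sSup ((fun θ => min T (τ d θ)) '' J d)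
  let ϑ : X → ℝ → ℝ := fun d => Function.invFunOn (τ d) (J d)
  have bdd : ∀ d, BddAbove ((fun θ => min T (τ d θ)) '' J d) := fun d =>
    ⟨T, by rintro _ ⟨θ, -, rfl⟩; exact min_le_left _ _⟩
  have ne : ∀ d, ((fun θ => min T (τ d θ)) '' J d).Nonempty := fun d =>
    ⟨_, 0, (hJ d).zero, rfl⟩
  have lt : ∀ d t, t < Tm d ↔ t < T ∧ ∃ θ ∈ J d, t < τ d θ := fun d t => by
    rw [lt_csSup_iff (bdd d) (ne d)]
    constructor
    · rintro ⟨_, ⟨θ, h, rfl⟩, h'⟩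
      exact ⟨(lt_min_iff.1 h').1, θ, h, (lt_min_iff.1 h').2⟩
    · rintro ⟨h1, θ, h, h'⟩
      exact ⟨_, ⟨θ, h, rfl⟩, lt_min h1 h'⟩
  have le : ∀ d, Tm d ≤ T := fun d => csSup_le (ne d) (by
    rintro _ ⟨θ, -, rfl⟩; exact min_le_left _ _)
  have key : ∀ d t, 0 ≤ t → t < Tm d → ϑ d t ∈ J d ∧ τ d (ϑ d t) = t := fun d t h1 h2 => by
    obtain ⟨-, θ, h, h'⟩ := (lt d t).1 h2
    obtain ⟨x, hx, hx'⟩ := intermediate_value_Icc ((hJ d).nonneg θ h)
      ((cont d).mono ((hJ d).sub θ h)) (show t ∈ Icc (τ d 0) (τ d θ) from ⟨(h0 d).trans_le h1, h'.le⟩)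
    exact Function.invFunOn_pos ⟨x, (hJ d).sub θ h hx, hx'⟩
  have inv : ∀ d, ∀ θ ∈ J d, ϑ d (τ d θ) = θ := fun d θ h =>
    (mono d).injOn.leftInvOn_invFunOn h
  have tend : ∀ d, ∀ θ ∈ J d, Tendsto (fun d' => τ d' θ) (𝓝 d) (𝓝 (τ d θ)) := fun d θ h =>
    (hc (d, θ) h).tendsto.comp (tendsto_nhdsWithin_iff.2
      ⟨(continuous_id.prodMk continuous_const).tendsto d, hop d θ h⟩)
  have cj : ContinuousOn (fun p : X × ℝ => ϑ p.1 p.2) {p | 0 ≤ p.2 ∧ p.2 < Tm p.1} := by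
    rintro ⟨d, t⟩ ⟨h1, h2⟩
    obtain ⟨k1, k2⟩ := key d t h1 h2
    have ev : ∀ θ ∈ J d, ∀ᶠ p : X × ℝ in 𝓝 (d, t), θ ∈ J p.1 := fun θ h =>
      (continuous_fst.tendsto (d, t)).eventually (hop d θ h)
    have td : ∀ θ ∈ J d, Tendsto (fun p : X × ℝ => τ p.1 θ - p.2) (𝓝 (d, t)) (𝓝 (τ d θ - t)) :=
      fun θ h => ((tend d θ h).comp (continuous_fst.tendsto (d, t))).sub
        (continuous_snd.tendsto (d, t))
    refine tendsto_order.2 ⟨fun a ha => ?_, fun b hb => ?_⟩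
    · rcases lt_or_ge a 0 with a0 | a0
      · filter_upwards [self_mem_nhdsWithin] with p hp
        exact a0.trans_le ((hJ _).nonneg _ (key p.1 p.2 hp.1 hp.2).1)
      · have aJ : a ∈ J d := (hJ d).sub _ k1 ⟨a0, ha.le⟩
        have := mono d aJ k1 ha
        filter_upwards [self_mem_nhdsWithin, nhdsWithin_le_nhds (ev a aJ), nhdsWithin_le_nhds
          ((td a aJ).eventually_lt_const (show τ d a - t < 0 by linarith))] with p hp e1 e2
        obtain ⟨l1, l2⟩ := key p.1 p.2 hp.1 hp.2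
        exact ((mono p.1).lt_iff_lt e1 l1).1 (by linarith [show τ p.1 a - p.2 < 0 from e2])
    · obtain ⟨θ, hθ, h'⟩ := (hJ d).more _ k1
      have c1 : ϑ d t < min b θ := lt_min hb h'
      have cJ : min b θ ∈ J d := (hJ d).sub _ hθ
        ⟨((hJ d).nonneg _ k1).trans c1.le, min_le_right _ _⟩
      have := mono d k1 cJ c1
      filter_upwards [self_mem_nhdsWithin, nhdsWithin_le_nhds (ev _ cJ), nhdsWithin_le_nhds
        ((td _ cJ).eventually_const_lt (show 0 < τ d (min b θ) - t by linarith))] with p hp e1 e2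
      obtain ⟨l1, l2⟩ := key p.1 p.2 hp.1 hp.2
      exact (((mono p.1).lt_iff_lt l1 e1).1
        (by linarith [show 0 < τ p.1 (min b θ) - p.2 from e2])).trans_le (min_le_left _ _)
  refine ⟨Tm, ϑ, fun d => ?_, fun d y hy => ?_, cj⟩
  · have maps : MapsTo (ϑ d) (Ico 0 (Tm d)) (J d) := fun t ht => (key d t ht.1 ht.2).1
    have c1 : ContinuousOn (ϑ d) (Ico 0 (Tm d)) :=
      cj.comp (f := fun t => (d, t)) (Continuous.continuousOn (by fun_prop)) fun t ht => ht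
    have der : ∀ t ∈ Ico 0 (Tm d),
        HasDerivWithinAt (ϑ d) (ψ d (ϑ d t))⁻¹ (Ico 0 (Tm d)) t := fun t ht => by
      have h1 := (hpos d _ (maps ht)).ne'
      have h2 : HasFDerivWithinAt (τ d) (ContinuousLinearEquiv.unitsEquivAut ℝ
          (Units.mk0 _ h1) : ℝ →L[ℝ] ℝ) (J d) (ϑ d t) := by
        refine (hd d _ (maps ht)).hasFDerivWithinAt.congr_fderiv ?_
        ext
        simp
      exact h2.of_local_left_inverse ((c1 t ht).tendsto_nhdsWithin maps) ht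
        (eventually_nhdsWithin_of_forall fun x hx => (key d x hx.1 hx.2).2)
    have z : ϑ d 0 = 0 := by simpa [h0] using inv d 0 (hJ d).zero
    obtain ⟨θ1, a1, a2⟩ := (hJ d).more 0 (hJ d).zero
    have pos : ∀ θ ∈ J d, 0 < θ → 0 < τ d θ := fun θ h h' => h0 d ▸ mono d (hJ d).zero h h'
    refine ⟨(lt d 0).2 ⟨hT, θ1, a1, pos θ1 a1 a2⟩, le d, z, maps, contDiffOn_infty.2 fun n => ?_,
      fun t ht => ⟨?_, (der t ⟨ht.1.le, ht.2⟩).hasDerivAt (Ico_mem_nhds ht.1 ht.2)⟩,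
      fun hlt θ h => ⟨⟨?_, ?_⟩, inv d θ h, pos θ h⟩⟩
    · induction n with
      | zero => exact contDiffOn_zero.2 c1
      | succ n ih =>
        rw [Nat.cast_succ, contDiffOn_succ_iff_derivWithin (uniqueDiffOn_Ico _ _)]
        refine ⟨fun t ht => (der t ht).differentiableWithinAt, by simp, ?_⟩
        refine ((((hψ d).of_le (by norm_cast; exact le_top)).comp ih maps).inv
          fun t ht => (hpos d _ (maps ht)).ne').congr fun t ht => ?_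
        exact (der t ht).derivWithin (uniqueDiffOn_Ico _ _ t ht)
    · obtain ⟨k1, k2⟩ := key d t ht.1.le ht.2
      refine ((mono d).lt_iff_lt (hJ d).zero k1).1 ?_
      rw [k2, h0]; exact ht.1
    · rw [← h0 d]
      exact (mono d).monotoneOn (hJ d).zero h ((hJ d).nonneg θ h)
    · obtain ⟨θ', b1, b2⟩ := (hJ d).more θ h
      have e1 := mono d h b1 b2
      have e2 : min T (τ d θ') ≤ Tm d := le_csSup (bdd d) ⟨θ', b1, rfl⟩
      rcases min_le_iff.1 e2 with e | e <;> linarith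
  · obtain ⟨h1, θ, h, h'⟩ := (lt d y).1 hy
    filter_upwards [hop d θ h, (tend d θ h).eventually_const_lt h'] with d' e1 e2
    exact (lt d' y).2 ⟨h1, θ, e1, e2⟩

end Vale.Agent.P244B
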