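import Vale.Agent.P244B.Blow
import Vale.Agent.P244B.Init2
import Vale.Agent.P244B.Red
import Vale.Agent.P244B.Time

/-! Step B. -/

open Set Filter
open scoped ContDiff Topology unitInterval

noncomputable section

namespace Vale.Agent.P244B

open Vale.Agent.P244

theorem main_scale (l : ℝ) : (1 / 4 * Real.exp (2 * l))⁻¹ * (1 / 4) = Real.exp (-2 * l) := by
  rw [show -2 * l = -(2 * l) by ring, Real.exp_neg]
  have := Real.exp_pos (2 * l)
  field_simp

theorem Cl.toT {q : ℕ} {J : Set ℝ} {U : ℝ → Fin 5 → B} (h : Cl q J U) {T : ℝ} {ϑ : ℝ → ℝ}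
    (hm : MapsTo ϑ (Ico 0 T) J) (hs : ContDiffOn ℝ ∞ ϑ (Ico 0 T))
    (hd : ∀ t ∈ Ioo 0 T, 0 < ϑ t ∧ HasDerivAt ϑ (1 / 4 * Real.exp (2 * U (ϑ t) 3 0))⁻¹ t) :
    ClT q T fun t => U (ϑ t) := by
  have hn : ∀ t ∈ Ioo 0 T, J ∈ 𝓝 (ϑ t) := fun t ht =>
    h.ti.nhds (hm (Ioo_subset_Ico_self ht)) (hd t ht).1
  refine ⟨fun t ht => h.pos _ (hm ht), fun i => (h.sm i).comp hs hm, h.smi.comp hs hm,
    fun t ht => ?_, fun t ht => ?_, fun t ht => ?_⟩
  · have h1 := ((h.eqη _ (hm (Ioo_subset_Ico_self ht))).hasDerivAt (hn t ht)).scomp t (hd t ht).2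
    rw [smul_smul, main_scale] at h1
    exact h1
  · have h1 := ((h.eqF _ (hm (Ioo_subset_Ico_self ht))).hasDerivAt (hn t ht)).scomp t (hd t ht).2
    rw [smul_smul, main_scale] at h1
    exact h1
  · have h1 := ((h.eql _ (hm (Ioo_subset_Ico_self ht))).hasDerivAt (hn t ht)).scomp t (hd t ht).2
    rw [smul_eq_mul, ← mul_assoc, main_scale] at h1
    exact h1

theorem main_ev : Continuous fun p : B × ℝ => p.1 (sq p.2) :=
  continuous_eval.comp (continuous_fst.prodMk (continuous_sq.comp continuous_snd))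

theorem main_eta : Continuous eta :=
  continuous_const.add (continuous_const.mul (HH 2).continuous)

theorem main_Fh : Continuous fun p : B × B => Fh p.1 p.2 :=
  (cst.continuous.comp (ev0.continuous.comp continuous_snd)).add
    (prim.continuous.comp continuous_fst)

theorem main_cont : Continuous fun y : (Fin 5 → B) × ℝ =>
    (Real.exp (y.1 3 0), Real.exp (y.1 3 0) * Real.sin y.2 * eta (y.1 0) (sq y.2),
      Real.cos y.2 * (1 + Real.sin y.2 ^ 2 * y.1 0 (sq y.2)),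
      Fh (y.1 1) (y.1 2) (sq y.2) + y.1 3 0) := by
  have hc : ∀ i, Continuous fun y : (Fin 5 → B) × ℝ => y.1 i := fun i =>
    (continuous_apply i).comp continuous_fst
  have h3 : Continuous fun y : (Fin 5 → B) × ℝ => y.1 3 0 := ev0.continuous.comp (hc 3)
  have h0 : Continuous fun y : (Fin 5 → B) × ℝ => y.1 0 (sq y.2) :=
    main_ev.comp ((hc 0).prodMk continuous_snd)
  have he : Continuous fun y : (Fin 5 → B) × ℝ => eta (y.1 0) (sq y.2) :=
    main_ev.comp ((main_eta.comp (hc 0)).prodMk continuous_snd)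
  have hF : Continuous fun y : (Fin 5 → B) × ℝ => Fh (y.1 1) (y.1 2) (sq y.2) :=
    main_ev.comp ((main_Fh.comp ((hc 1).prodMk (hc 2))).prodMk continuous_snd)
  have hs : Continuous fun y : (Fin 5 → B) × ℝ => Real.sin y.2 :=
    Real.continuous_sin.comp continuous_snd
  have hk : Continuous fun y : (Fin 5 → B) × ℝ => Real.cos y.2 :=
    Real.continuous_cos.comp continuous_snd
  exact h3.rexp.prodMk (((h3.rexp.mul hs).mul he).prodMk
    ((hk.mul (continuous_const.add ((hs.pow 2).mul h0))).prodMk (hF.add h3)))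

theorem stepB : StepB := by
  intro q T Z F0 hq hT hZ h1
  obtain ⟨u, hu, hA⟩ := init_data Z F0 hZ h1
  obtain ⟨J, Φ, hΦ, hop, hc⟩ := flow q
  have hCl : ∀ d, Cl q (J (u d)) (Φ (u d)) := fun d => (hΦ _ (hA d).1).1
  have hΦ0 : ∀ d, Φ (u d) 0 = u d := fun d => (hΦ _ (hA d).1).2.1
  have hτ0 : ∀ d, Φ (u d) 0 4 0 = 0 := fun d => by rw [hΦ0, (hA d).1.c4]; rfl
  have hc' : ContinuousOn (fun p : Par × ℝ => Φ (u p.1) p.2) {p | p.2 ∈ J (u p.1)} :=
    hc.comp (f := fun p : Par × ℝ => (u p.1, p.2))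
      ((hu.comp continuous_fst).prodMk continuous_snd).continuousOn fun p hp => hp
  obtain ⟨Tm, ϑ, hT1, hls, hϑ⟩ := time_change (fun d => J (u d)) (fun d θ => Φ (u d) θ 4 0)
    (fun d θ => 1 / 4 * Real.exp (2 * Φ (u d) θ 3 0)) hT (fun d => (hCl d).ti) hτ0
    (fun d => (hCl d).eqt)
    (fun d => contDiffOn_const.mul (contDiffOn_const.mul
      (ev0.contDiff.comp_contDiffOn ((hCl d).sm 3).contDiffOn)).exp)
    (fun d θ _ => by positivity)
    (fun d θ hθ => hu.continuousAt.eventually (hop _ θ hθ))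
    (ev0.continuous.comp_continuousOn ((continuous_apply (4 : Fin 5)).comp_continuousOn hc'))
  have hsol : ∀ d, IsSol q (Tm d) (mkPre q fun t => Φ (u d) (ϑ d t)) := fun d =>
    ((hCl d).toT (hT1 d).2.2.2.1 (hT1 d).2.2.2.2.1 (hT1 d).2.2.2.2.2.1).isSol
  refine ⟨Tm, fun d => mkPre q fun t => Φ (u d) (ϑ d t), fun d => ⟨(hT1 d).1, (hT1 d).2.1, hsol d,
    (hA d).2 q _ (by rw [(hT1 d).2.2.1, hΦ0]), fun hlt hR => ?_⟩, hls, ?_⟩
  · obtain ⟨hb, R, ε, hε, hbd⟩ := blow hq (hCl d) (hT1 d).1 (hτ0 d) ((hT1 d).2.2.2.2.2.2 hlt)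
      (hsol d) hR
    exact (hΦ _ (hA d).1).2.2 hb R ε hε hbd
  · have hW : ContinuousOn (fun y : Par × ℝ × ℝ => Φ (u y.1) (ϑ y.1 y.2.1))
        {y | 0 ≤ y.2.1 ∧ y.2.1 < Tm y.1} :=
      hc'.comp (f := fun y : Par × ℝ × ℝ => (y.1, ϑ y.1 y.2.1))
        (continuousOn_fst.prodMk (hϑ.comp (f := fun y : Par × ℝ × ℝ => (y.1, y.2.1))
          (continuous_fst.prodMk continuous_snd.fst).continuousOn fun y hy => hy))
        fun y hy => (hT1 y.1).2.2.2.1 hy
    refine (main_cont.comp_continuousOn (hW.prodMk continuous_snd.snd.continuousOn)).congr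
      fun y _ => ?_
    simp only [Function.comp_apply, mkPre_a]
    rfl

end Vale.Agent.P244B
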