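import Vale.Agent.P244B.Gron

/-! Restriction, shift, concatenation, stability of mild solutions. -/

open Set Filter MeasureTheory
open scoped Topology

noncomputable section

namespace Vale.Agent.P244B

variable {E F : Type} [NormedAddCommGroup E] [NormedSpace ℝ E] [CompleteSpace E]
  [NormedAddCommGroup F] [NormedSpace ℝ F]
  {P : ℝ → E →L[ℝ] E} {K : ℝ → F →L[ℝ] E} {C : ℝ} {G : E → F} {T : ℝ} {U V : ℝ → E}

omit [CompleteSpace E] in
theorem Mild.mono (h : Mild P K G T U) {T' : ℝ} (hT : T' ≤ T) : Mild P K G T' U :=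
  ⟨h.1.mono (Icc_subset_Icc_right hT), fun θ hθ => h.2 θ (Icc_subset_Icc_right hT hθ)⟩

omit [CompleteSpace E] in
theorem Mild.congr (h : Mild P K G T U) (e : EqOn V U (Icc 0 T)) : Mild P K G T V := by
  refine ⟨h.1.congr e, fun θ hθ => ?_⟩
  rw [e hθ, e ⟨le_rfl, hθ.1.trans hθ.2⟩, h.2 θ hθ]
  congr 1
  refine intervalIntegral.integral_congr fun s hs => ?_
  rw [uIcc_of_le hθ.1] at hs
  show K (θ - s) (G (U s)) = K (θ - s) (G (V s))
  rw [e ⟨hs.1, hs.2.trans hθ.2⟩]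

omit [CompleteSpace E] in
theorem Mild.congrG (h : Mild P K G T U) {G' : E → F} (e : ∀ θ ∈ Icc 0 T, G' (U θ) = G (U θ)) :
    Mild P K G' T U := by
  refine ⟨h.1, fun θ hθ => ?_⟩
  rw [h.2 θ hθ]
  congr 1
  refine intervalIntegral.integral_congr fun s hs => ?_
  rw [uIcc_of_le hθ.1] at hs
  show K (θ - s) (G (U s)) = K (θ - s) (G' (U s))
  rw [e s ⟨hs.1, hs.2.trans hθ.2⟩]

omit [CompleteSpace E] in
theorem mild_zero (hK : Ker P K C) (U : ℝ → E) : Mild P K G 0 U := by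
  refine ⟨by rw [Icc_self]; exact continuousOn_singleton _ _, fun θ hθ => ?_⟩
  have h0 : θ = 0 := le_antisymm hθ.2 hθ.1
  rw [h0, hK.P0, intervalIntegral.integral_same, add_zero]

theorem mild_split (hK : Ker P K C) {f : ℝ → F} {a r : ℝ} (ha : 0 ≤ a) (hr : 0 ≤ r)
    (hf : ContinuousOn f (Icc 0 (a + r))) :
    ∫ s in (0 : ℝ)..(a + r), K (a + r - s) (f s) =
      P r (∫ s in (0 : ℝ)..a, K (a - s) (f s)) + ∫ s in (0 : ℝ)..r, K (r - s) (f (a + s)) := by
  have hi := hK.int (add_nonneg ha hr) hf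
  have h1 : IntervalIntegrable (fun s => K (a + r - s) (f s)) volume 0 a := by
    refine hi.mono_set ?_
    rw [uIcc_of_le ha, uIcc_of_le (add_nonneg ha hr)]
    exact Icc_subset_Icc_right (by linarith)
  have h2 : IntervalIntegrable (fun s => K (a + r - s) (f s)) volume a (a + r) := by
    refine hi.mono_set ?_
    rw [uIcc_of_le (by linarith), uIcc_of_le (add_nonneg ha hr)]
    exact Icc_subset_Icc_left ha
  rw [← intervalIntegral.integral_add_adjacent_intervals h1 h2]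
  congr 1
  · rw [← (P r).intervalIntegral_comp_comm
      (hK.int ha (hf.mono (Icc_subset_Icc_right (by linarith))))]
    refine intervalIntegral.integral_congr_ae ?_
    filter_upwards [(countable_singleton a).ae_notMem volume] with s hs hs2
    rw [uIoc_of_le ha] at hs2
    have h3 : 0 < a - s := sub_pos.2 (lt_of_le_of_ne hs2.2 hs)
    rw [hK.PK r (a - s) _ hr h3]
    congr 2
    ring
  · have h4 := intervalIntegral.integral_comp_add_left (a := 0) (b := r)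
      (fun s => K (a + r - s) (f s)) a
    rw [add_zero] at h4
    rw [← h4]
    refine intervalIntegral.integral_congr fun s _ => ?_
    show K (a + r - (a + s)) (f (a + s)) = K (r - s) (f (a + s))
    rw [add_sub_add_left_eq_sub]

theorem Mild.shift (hK : Ker P K C) (hG : Continuous G) (h : Mild P K G T U) {a : ℝ}
    (ha : a ∈ Icc 0 T) : Mild P K G (T - a) fun θ => U (a + θ) := by
  have hm : ∀ θ ∈ Icc 0 (T - a), a + θ ∈ Icc 0 T := fun θ hθ =>
    ⟨add_nonneg ha.1 hθ.1, by linarith [hθ.2]⟩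
  refine ⟨h.1.comp (continuous_const.add continuous_id).continuousOn hm, fun θ hθ => ?_⟩
  have hf : ContinuousOn (fun s => G (U s)) (Icc 0 (a + θ)) :=
    hG.comp_continuousOn (h.1.mono (Icc_subset_Icc_right (hm θ hθ).2))
  show U (a + θ) = P θ (U (a + 0)) + ∫ s in (0 : ℝ)..θ, K (θ - s) (G (U (a + s)))
  rw [add_zero, h.2 _ (hm θ hθ), mild_split hK ha.1 hθ.1 hf, h.2 a ha, map_add, add_comm a θ,
    hK.Padd θ a _ hθ.1 ha.1, add_assoc]

theorem Mild.concat (hK : Ker P K C) (hG : Continuous G) {T' : ℝ} (hT : 0 ≤ T) (hT' : 0 ≤ T')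
    (hU : Mild P K G T U) (hV : Mild P K G T' V) (e : V 0 = U T) :
    Mild P K G (T + T') fun θ => if θ ≤ T then U θ else V (θ - T) := by
  set W : ℝ → E := fun θ => if θ ≤ T then U θ else V (θ - T) with hW
  have e1 : EqOn W U (Icc 0 T) := fun θ hθ => if_pos hθ.2
  have e2 : ∀ r, 0 ≤ r → W (T + r) = V r := by
    intro r hr
    rcases hr.eq_or_lt with h0 | h0
    · rw [← h0, add_zero, e, e1 ⟨hT, le_rfl⟩]
    · have h1 : ¬ (T + r ≤ T) := by linarith
      show (if T + r ≤ T then U (T + r) else V (T + r - T)) = V r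
      rw [if_neg h1, add_sub_cancel_left]
  have hWU : Mild P K G T W := hU.congr e1
  have hc : ContinuousOn W (Icc 0 (T + T')) := by
    rw [← Icc_union_Icc_eq_Icc hT (by linarith : T ≤ T + T')]
    refine ContinuousOn.union_of_isClosed hWU.1 ?_ isClosed_Icc isClosed_Icc
    have hm : ∀ θ ∈ Icc T (T + T'), θ - T ∈ Icc 0 T' := fun θ hθ =>
      ⟨by linarith [hθ.1], by linarith [hθ.2]⟩
    refine (hV.1.comp (continuous_id.sub continuous_const).continuousOn hm).congr fun θ hθ => ?_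
    have h2 := e2 (θ - T) (hm θ hθ).1
    rw [add_sub_cancel] at h2
    exact h2
  refine ⟨hc, fun θ hθ => ?_⟩
  by_cases hθT : θ ≤ T
  · exact hWU.2 θ ⟨hθ.1, hθT⟩
  · obtain ⟨r, rfl⟩ : ∃ r, θ = T + r := ⟨θ - T, by ring⟩
    have hr : r ∈ Icc 0 T' := ⟨by linarith [not_le.1 hθT], by linarith [hθ.2]⟩
    have hf : ContinuousOn (fun s => G (W s)) (Icc 0 (T + r)) :=
      hG.comp_continuousOn (hc.mono (Icc_subset_Icc_right hθ.2))
    have e3 : V 0 = W T := by rw [e, e1 ⟨hT, le_rfl⟩]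
    rw [mild_split hK hT hr.1 hf, e2 r hr.1, hV.2 r hr, e3, hWU.2 T ⟨hT, le_rfl⟩, map_add,
      add_comm T r, hK.Padd r T _ hr.1 hT, add_assoc]
    congr 2
    refine intervalIntegral.integral_congr fun s hs => ?_
    rw [uIcc_of_le hr.1] at hs
    show K (r - s) (G (V s)) = K (r - s) (G (W (T + s)))
    rw [e2 s hs.1]

omit [CompleteSpace E] in
theorem mild_stab (hK : Ker P K C) (hG : BL G) (R T : ℝ) : ∃ M : ℝ, 0 ≤ M ∧
    ∀ (T' : ℝ) (U V : ℝ → E), T' ≤ T → Mild P K G T' U → Mild P K G T' V →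
      (∀ θ ∈ Icc 0 T', ‖U θ‖ ≤ R) → (∀ θ ∈ Icc 0 T', ‖V θ‖ ≤ R) →
      ∀ θ ∈ Icc 0 T', ‖U θ - V θ‖ ≤ M * ‖U 0 - V 0‖ := by
  obtain ⟨L, hL, hLip⟩ := hG R
  obtain ⟨M, hM, hgr⟩ := gronwall_sing (mul_nonneg hK.hC hL) T
  refine ⟨M, hM, fun T' U V hT hU hV bU bV => ?_⟩
  have hc : ContinuousOn (fun θ => ‖U θ - V θ‖) (Icc 0 T') := (hU.1.sub hV.1).norm
  refine hgr T' _ _ hT (norm_nonneg _) hc (fun _ _ => norm_nonneg _) fun θ hθ => ?_
  have hs : Icc 0 θ ⊆ Icc 0 T' := Icc_subset_Icc_right hθ.2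
  have iU := hK.int hθ.1 (hG.continuous.comp_continuousOn (hU.1.mono hs))
  have iV := hK.int hθ.1 (hG.continuous.comp_continuousOn (hV.1.mono hs))
  have e : U θ - V θ = P θ (U 0 - V 0) +
      ∫ s in (0 : ℝ)..θ, K (θ - s) (G (U s) - G (V s)) := by
    have e1 : ∫ s in (0 : ℝ)..θ, K (θ - s) (G (U s) - G (V s)) =
        (∫ s in (0 : ℝ)..θ, K (θ - s) (G (U s))) - ∫ s in (0 : ℝ)..θ, K (θ - s) (G (V s)) := by
      simp only [map_sub]
      exact intervalIntegral.integral_sub iU iV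
    rw [e1, map_sub]
    conv_lhs => rw [hU.2 θ hθ, hV.2 θ hθ]
    abel
  have hd := hK.duh_norm (f := fun s => G (U s) - G (V s)) (φ := fun s => L * ‖U s - V s‖) hθ.1
    (continuousOn_const.mul (hc.mono hs))
    (fun s hs' => hLip _ _ (bU s (hs hs')) (bV s (hs hs')))
  have e2 : ∫ s in (0 : ℝ)..θ, C * (1 + 1 / √(θ - s)) * (L * ‖U s - V s‖) =
      ∫ s in (0 : ℝ)..θ, C * L * (1 + 1 / √(θ - s)) * ‖U s - V s‖ :=
    intervalIntegral.integral_congr fun s _ => by ring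
  rw [e2] at hd
  calc ‖U θ - V θ‖ ≤ ‖P θ (U 0 - V 0)‖ +
        ‖∫ s in (0 : ℝ)..θ, K (θ - s) (G (U s) - G (V s))‖ := by
        rw [e]; exact norm_add_le _ _
    _ ≤ _ := add_le_add (hK.Pnorm θ _ hθ.1) hd

omit [CompleteSpace E] in
theorem Mild.unique (hK : Ker P K C) (hG : BL G) (hU : Mild P K G T U) (hV : Mild P K G T V)
    (e : U 0 = V 0) : EqOn U V (Icc 0 T) := by
  obtain ⟨R1, h1⟩ := isCompact_Icc.exists_bound_of_continuousOn hU.1
  obtain ⟨R2, h2⟩ := isCompact_Icc.exists_bound_of_continuousOn hV.1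
  obtain ⟨M, _, h⟩ := mild_stab hK hG (max R1 R2) T
  intro θ hθ
  have h3 := h T U V le_rfl hU hV (fun s hs => (h1 s hs).trans (le_max_left _ _))
    (fun s hs => (h2 s hs).trans (le_max_right _ _)) θ hθ
  rw [e, sub_self, norm_zero, mul_zero] at h3
  exact sub_eq_zero.1 (norm_le_zero_iff.1 h3)

omit [CompleteSpace E] in
/-- bound under linear growth along the solution -/
theorem mild_lin (hK : Ker P K C) {L : ℝ} (hL : 0 ≤ L) (T : ℝ) : ∃ M : ℝ,
    ∀ (T' : ℝ) (G : E → F) (U : ℝ → E), T' ≤ T → Mild P K G T' U →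
      (∀ θ ∈ Icc 0 T', ‖G (U θ)‖ ≤ L * (1 + ‖U θ‖)) →
      ∀ θ ∈ Icc 0 T', ‖U θ‖ ≤ M * (1 + ‖U 0‖) := by
  obtain ⟨M, _, hgr⟩ := gronwall_sing (mul_nonneg hK.hC hL) T
  refine ⟨M, fun T' G U hT hU hlin θ0 hθ0 => ?_⟩
  have hc : ContinuousOn (fun θ => 1 + ‖U θ‖) (Icc 0 T') := continuousOn_const.add hU.1.norm
  have key := hgr T' (1 + ‖U 0‖) _ hT (by positivity) hc (fun _ _ => by positivity)
    (fun θ hθ => by
      have hs : Icc 0 θ ⊆ Icc 0 T' := Icc_subset_Icc_right hθ.2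
      have hd := hK.duh_norm (f := fun s => G (U s)) (φ := fun s => L * (1 + ‖U s‖)) hθ.1
        (continuousOn_const.mul (hc.mono hs)) (fun s hs' => hlin s (hs hs'))
      have e2 : ∫ s in (0 : ℝ)..θ, C * (1 + 1 / √(θ - s)) * (L * (1 + ‖U s‖)) =
          ∫ s in (0 : ℝ)..θ, C * L * (1 + 1 / √(θ - s)) * (1 + ‖U s‖) :=
        intervalIntegral.integral_congr fun s _ => by ring
      rw [e2] at hd
      have h3 : ‖U θ‖ ≤ ‖P θ (U 0)‖ + ‖∫ s in (0 : ℝ)..θ, K (θ - s) (G (U s))‖ := by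
        conv_lhs => rw [hU.2 θ hθ]
        exact norm_add_le _ _
      linarith [hK.Pnorm θ (U 0) hθ.1]) θ0 hθ0
  linarith

end Vale.Agent.P244B
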