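import Vale.Agent.P244B.Ops

/-! The differential equation of the operator `J`. -/

open Set Filter
open scoped ContDiff Topology unitInterval

noncomputable section

namespace Vale.Agent.P244B

/-- the derivative of a smooth function, as a continuous map -/
def opJD (φ : C(ℝ, ℝ)) (h : ContDiff ℝ ∞ φ) : C(ℝ, ℝ) :=
  ⟨deriv φ, h.continuous_deriv (by simp)⟩

theorem opJ_deriv (φ : C(ℝ, ℝ)) (h : ContDiff ℝ ∞ φ) (x : ℝ) : HasDerivAt φ (opJD φ h x) x :=
  (h.differentiable (by simp) x).hasDerivAt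

theorem opJ_isD (φ : C(ℝ, ℝ)) (h : ContDiff ℝ ∞ φ) : IsD (φ.comp vv) ((opJD φ h).comp vv) :=
  (isD_vv.comp φ _ (opJ_deriv φ h)).congr (mul_one _)

theorem opJ_phi_pos (x : ℝ) : 0 < phiC x :=
  inv_pos.2 (Real.sqrt_pos.2 (rho_pos (by norm_num) _))

theorem opJ_phi_sq {x : ℝ} (hx : x ≤ 3 / 4) : phiC x ^ 2 * (1 - x) = 1 := by
  have h : phiC x = (√(1 - x))⁻¹ := by
    change (√(rho (1 / 4) (1 - x)))⁻¹ = _
    rw [rho_eq (by norm_num) (by linarith)]
  rw [h, inv_pow, Real.sq_sqrt (by linarith), inv_mul_cancel₀ (by linarith)]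

theorem opJ_phi_deriv {x : ℝ} (hx : x ≤ 3 / 4) :
    2 * (1 - x) * opJD phiC phiC_smooth x = phiC x := by
  have h1 := ((opJ_deriv phiC phiC_smooth x).pow 2).mul ((hasDerivAt_id x).const_sub 1)
  have h2 : HasDerivWithinAt (fun y => phiC y ^ 2 * (1 - y)) 0 (Iic (3 / 4)) x :=
    (hasDerivWithinAt_const x (Iic (3 / 4)) (1 : ℝ)).congr (fun y hy => opJ_phi_sq hy)
      (opJ_phi_sq hx)
  have h3 := (uniqueDiffOn_Iic (3 / 4 : ℝ) x hx).eq_deriv _ h1.hasDerivWithinAt h2
  simp only [Pi.pow_apply, id, Nat.cast_ofNat, Nat.add_one_sub_one, pow_one] at h3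
  refine mul_left_cancel₀ (opJ_phi_pos x).ne' ?_
  linear_combination h3

theorem Jl_D {g g' : B} (h : IsD g g') : ∃ j : B, IsD (Jl g) j ∧ ∀ v : I, (v : ℝ) ≤ 3 / 4 →
    2 * (v * (1 - v)) * j v + (1 - 2 * v) * Jl g v = g v := by
  have h1 := (opJ_isD phiC phiC_smooth).mul h
  refine ⟨_, (opJ_isD phiC phiC_smooth).mul (h1.HH 0), fun v hv => ?_⟩
  have h3 := DFunLike.congr_fun (HH_D' 0 h1) v
  have h4 := opJ_phi_deriv hv
  have h5 := opJ_phi_sq hv
  simp only [Jl, ContinuousMap.add_apply, ContinuousMap.mul_apply, ContinuousMap.comp_apply,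
    vv_apply, cst_apply, Nat.cast_zero, zero_add] at h3 ⊢
  linear_combination (v * HH 0 (phiC.comp vv * g) v) * h4 + (1 - v) * phiC v * h3 + g v * h5

theorem opJ_Lam (g : B) : Lam g = HH 0 (phiC.comp vv * (g + RR g)) mid := rfl

theorem Lam_pos : 0 < Lam 1 := by
  rw [opJ_Lam, HH_apply]
  refine intervalIntegral.intervalIntegral_pos_of_pos
    (Continuous.intervalIntegrable ((continuous_pow 0).mul
      ((continuous_ex _).comp ((continuous_pow 2).mul continuous_const))) _ _) (fun s => ?_) one_pos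
  rw [pow_zero, one_mul]
  exact mul_pos (opJ_phi_pos _) (add_pos one_pos one_pos)

theorem opJ_Lam_zero (g : B) : Lam (g - cst (avg g)) = 0 := by
  have h1 : cst (avg g) = avg g • (1 : B) := by
    ext v
    simp
  have h2 : avg g = (Lam 1)⁻¹ * Lam g := rfl
  rw [h1, map_sub, map_smul, h2, smul_eq_mul, mul_right_comm, inv_mul_cancel₀ Lam_pos.ne', one_mul,
    sub_self]

theorem opJ_zero {D D' : B} (h : IsD D D') (h0 : D mid = 0)
    (he : ∀ v : I, 1 / 4 ≤ (v : ℝ) → (v : ℝ) ≤ 3 / 4 →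
      2 * (v * (1 - v)) * D' v + (1 - 2 * v) * D v = 0)
    (v : I) (h1 : 1 / 4 ≤ (v : ℝ)) (h2 : (v : ℝ) ≤ 3 / 4) : D v = 0 := by
  have h3 := isD_aa.mul (h.mul h)
  have h4 := constant_of_has_deriv_right_zero (a := 1 / 4) (b := 3 / 4)
    (continuous_ex (aa * (D * D))).continuousOn fun x hx => by
      have hx' : x ∈ Ioo (0 : ℝ) 1 := ⟨by linarith [hx.1], by linarith [hx.2]⟩
      have h5 := h3.hasDerivAt hx'
      have h6 := he ⟨x, Ioo_subset_Icc_self hx'⟩ hx.1 hx.2.le
      rw [ex_of_mem _ (Ioo_subset_Icc_self hx')] at h5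
      refine (h5.congr_deriv ?_).hasDerivWithinAt
      simp only [ContinuousMap.add_apply, ContinuousMap.mul_apply, ContinuousMap.sub_apply,
        ContinuousMap.one_apply, vv_apply, cst_apply, aa_apply] at h6 ⊢
      linear_combination D ⟨x, Ioo_subset_Icc_self hx'⟩ * h6
  have h5 := (h4 v ⟨h1, h2⟩).trans (h4 mid ⟨by norm_num [mid], by norm_num [mid]⟩).symm
  rw [ex_coe, ex_coe] at h5
  simp only [ContinuousMap.mul_apply, aa_apply, h0, mul_zero] at h5
  have h6 : 0 < (v : ℝ) * (1 - v) := mul_pos (by linarith) (by linarith)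
  exact mul_self_eq_zero.1 ((mul_eq_zero.1 h5).resolve_left h6.ne')

theorem opJ_chi_one {x : ℝ} (hx : x ≤ 1 / 4) : chiC x = 1 :=
  Real.smoothTransition.one_of_one_le (by linarith)

theorem opJ_chi_zero {x : ℝ} (hx : 3 / 4 ≤ x) : chiC x = 0 :=
  Real.smoothTransition.zero_of_nonpos (by linarith)

theorem opJ_chi_deriv {x : ℝ} (hx : x < 1 / 4 ∨ 3 / 4 < x) : opJD chiC chiC_smooth x = 0 := by
  refine (opJ_deriv chiC chiC_smooth x).unique ?_
  rcases hx with hx | hx
  · exact (hasDerivAt_const x (1 : ℝ)).congr_of_eventuallyEq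
      ((eventually_lt_nhds hx).mono fun y hy => opJ_chi_one (le_of_lt hy))
  · exact (hasDerivAt_const x (0 : ℝ)).congr_of_eventuallyEq
      ((eventually_gt_nhds hx).mono fun y hy => opJ_chi_zero (le_of_lt hy))

theorem Jop_D {g g' : B} (h : IsD g g') : ∃ j : B, IsD (Jop g) j ∧ ∀ v : I,
    2 * (v * (1 - v)) * j v + (1 - 2 * v) * Jop g v = g v - avg g := by
  have h0 := h.sub (isD_cst (avg g))
  have hL := opJ_Lam_zero g
  have hg : ∀ v : I, (g - cst (avg g)) v = g v - avg g := fun v => rfl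
  unfold Jop
  generalize g - cst (avg g) = f at h0 hL hg
  obtain ⟨j1, d1, e1⟩ := Jl_D h0
  obtain ⟨j2, d2, e2⟩ := Jl_D h0.RR
  have e3 : ∀ v : I, 1 / 4 ≤ (v : ℝ) →
      2 * (v * (1 - v)) * RR j2 v - (1 - 2 * v) * RR (Jl (RR f)) v = f v := fun v hv => by
    have := e2 (σ v) (by rw [unitInterval.coe_symm_eq]; linarith)
    rw [RR_apply f, unitInterval.symm_symm, unitInterval.coe_symm_eq] at this
    rw [RR_apply, RR_apply]
    linear_combination this
  have hm : σ mid = mid := Subtype.ext (by rw [unitInterval.coe_symm_eq]; norm_num [mid])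
  have hD := opJ_zero (d1.add d2.RR) (by
    rw [opJ_Lam, mul_add, map_add, ContinuousMap.add_apply] at hL
    rw [ContinuousMap.add_apply, RR_apply, hm]
    simp only [Jl, ContinuousMap.mul_apply]
    rw [← mul_add, hL, mul_zero]) fun v h1 h2 => by
      simp only [ContinuousMap.add_apply, ContinuousMap.neg_apply]
      linear_combination e1 v h2 - e3 v h1
  have hc := opJ_isD chiC chiC_smooth
  refine ⟨_, (hc.mul d1).sub ((isD_one.sub hc).mul d2.RR), fun v => ?_⟩
  rw [← hg]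
  simp only [ContinuousMap.add_apply, ContinuousMap.mul_apply, ContinuousMap.sub_apply,
    ContinuousMap.one_apply, ContinuousMap.comp_apply, ContinuousMap.neg_apply,
    ContinuousMap.zero_apply, vv_apply]
  by_cases h1 : (v : ℝ) < 1 / 4
  · rw [opJ_chi_deriv (Or.inl h1), opJ_chi_one h1.le]
    linear_combination e1 v (by linarith)
  by_cases h2 : 3 / 4 < (v : ℝ)
  · rw [opJ_chi_deriv (Or.inr h2), opJ_chi_zero h2.le]
    linear_combination e3 v (by linarith)
  have h3 := hD v (not_lt.1 h1) (not_lt.1 h2)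
  rw [ContinuousMap.add_apply] at h3
  linear_combination chiC v * e1 v (not_lt.1 h2) + (1 - chiC v) * e3 v (not_lt.1 h1) +
    2 * (v * (1 - v)) * opJD chiC chiC_smooth v * h3

end Vale.Agent.P244B
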