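import Vale.Agent.P244B.Ex

/-! Averaging operators, reflection, the operator `J`. -/

open Set Filter
open scoped ContDiff Topology unitInterval

noncomputable section

namespace Vale.Agent.P244B

private theorem ops_cont (k : ℕ) {F : ℝ → ℝ} (hF : Continuous F) (v : ℝ) :
    Continuous fun s : ℝ => s ^ k * F (s ^ 2 * v) :=
  (continuous_pow k).mul (hF.comp ((continuous_pow 2).mul continuous_const))

private theorem ops_mem {s : ℝ} (hs : s ∈ uIcc (0 : ℝ) 1) (v : I) :
    s ^ 2 * (v : ℝ) ∈ Icc (0 : ℝ) 1 := by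
  rw [uIcc_of_le zero_le_one] at hs
  exact ⟨mul_nonneg (sq_nonneg _) v.2.1,
    mul_le_one₀ (pow_le_one₀ hs.1 hs.2) v.2.1 v.2.2⟩

private theorem ops_isD_of {f g : B} {F : ℝ → ℝ} (hF : ∀ v : I, f v = F v)
    (h : ∀ v : I, HasDerivAt F (g v) v) : IsD f g := by
  intro x hx
  rw [ex_of_mem g hx]
  refine (h ⟨x, hx⟩).hasDerivWithinAt.congr (fun y hy => ?_) ?_
  · rw [ex_of_mem f hy, hF]
  · rw [ex_coe, hF]

private theorem ops_prim_deriv (g : B) (x : ℝ) :
    HasDerivAt (fun u => ∫ x in (0 : ℝ)..u, ex g x) (ex g x) x :=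
  intervalIntegral.integral_hasDerivAt_right ((continuous_ex g).intervalIntegrable _ _)
    ((continuous_ex g).stronglyMeasurableAtFilter _ _) (continuous_ex g).continuousAt

private theorem ops_ext {f g : B} (h : IsD f g) :
    ∃ F : ℝ → ℝ, (∀ x, HasDerivAt F (ex g x) x) ∧ ∀ x ∈ Icc (0 : ℝ) 1, ex f x = F x := by
  refine ⟨fun u => f 0 + ∫ x in (0 : ℝ)..u, ex g x,
    fun x => (ops_prim_deriv g x).const_add (f 0), fun x hx => ?_⟩
  rw [ex_of_mem f hx]
  exact DFunLike.congr_fun (isD_iff.1 h) ⟨x, hx⟩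

/-- `H k f (v) = ∫_0^1 s^k f (s² v) ds` -/
def HH (k : ℕ) : B →L[ℝ] B :=
  LinearMap.mkContinuous
    { toFun := fun f => ⟨fun v => ∫ s in (0 : ℝ)..1, s ^ k * ex f (s ^ 2 * v), by
        refine intervalIntegral.continuous_parametric_intervalIntegral_of_continuous'
          (f := fun (v : I) (s : ℝ) => s ^ k * ex f (s ^ 2 * v)) ?_ 0 1
        exact (continuous_snd.pow k).mul ((continuous_ex f).comp
          ((continuous_snd.pow 2).mul (continuous_subtype_val.comp continuous_fst)))⟩
      map_add' := by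
        intro f g
        ext v
        show ∫ s in (0 : ℝ)..1, s ^ k * ex (f + g) (s ^ 2 * v) =
          (∫ s in (0 : ℝ)..1, s ^ k * ex f (s ^ 2 * v)) +
            ∫ s in (0 : ℝ)..1, s ^ k * ex g (s ^ 2 * v)
        rw [← intervalIntegral.integral_add
          ((ops_cont k (continuous_ex f) v).intervalIntegrable _ _)
          ((ops_cont k (continuous_ex g) v).intervalIntegrable _ _)]
        refine intervalIntegral.integral_congr fun s _ => ?_
        exact mul_add (s ^ k) (ex f (s ^ 2 * v)) (ex g (s ^ 2 * v))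
      map_smul' := by
        intro c f
        ext v
        show ∫ s in (0 : ℝ)..1, s ^ k * ex (c • f) (s ^ 2 * v) =
          c * ∫ s in (0 : ℝ)..1, s ^ k * ex f (s ^ 2 * v)
        rw [← intervalIntegral.integral_const_mul]
        refine intervalIntegral.integral_congr fun s _ => ?_
        exact mul_left_comm (s ^ k) c (ex f (s ^ 2 * v)) } 1 (by
      intro f
      rw [one_mul]
      refine (ContinuousMap.norm_le _ (norm_nonneg f)).2 fun v => ?_
      show ‖∫ s in (0 : ℝ)..1, s ^ k * ex f (s ^ 2 * v)‖ ≤ ‖f‖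
      refine le_trans (intervalIntegral.norm_integral_le_of_norm_le_const (C := ‖f‖)
        (fun s hs => ?_)) (by simp)
      rw [uIoc_of_le zero_le_one] at hs
      rw [Real.norm_eq_abs, abs_mul, abs_of_nonneg (pow_nonneg hs.1.le k)]
      exact le_trans (mul_le_of_le_one_left (abs_nonneg _) (pow_le_one₀ hs.1.le hs.2))
        (ex_le f _))

theorem HH_apply (k : ℕ) (f : B) (v : I) :
    HH k f v = ∫ s in (0 : ℝ)..1, s ^ k * ex f (s ^ 2 * v) := rfl

/-- reflection -/
def RR : B →L[ℝ] B :=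
  LinearMap.mkContinuous
    { toFun := fun f => f.comp ⟨unitInterval.symm, unitInterval.continuous_symm⟩
      map_add' := fun _ _ => rfl
      map_smul' := fun _ _ => rfl } 1 (by
      intro f
      rw [one_mul]
      exact (ContinuousMap.norm_le _ (norm_nonneg f)).2 fun v => f.norm_coe_le_norm _)

theorem RR_apply (f : B) (v : I) : RR f v = f (σ v) := rfl

theorem IsD.HH {f g : B} (h : IsD f g) (k : ℕ) : IsD (HH k f) (HH (k + 2) g) := by
  obtain ⟨F, hF, hf⟩ := ops_ext h
  have hFc : Continuous F := continuous_iff_continuousAt.2 fun x => (hF x).continuousAt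
  refine ops_isD_of (F := fun v => ∫ s in (0 : ℝ)..1, s ^ k * F (s ^ 2 * v)) (fun v => ?_)
    (fun v => ?_)
  · rw [HH_apply]
    refine intervalIntegral.integral_congr fun s hs => ?_
    show s ^ k * ex f (s ^ 2 * v) = s ^ k * F (s ^ 2 * v)
    rw [hf _ (ops_mem hs v)]
  · rw [HH_apply]
    refine (intervalIntegral.hasDerivAt_integral_of_dominated_loc_of_deriv_le
      (F := fun (x s : ℝ) => s ^ k * F (s ^ 2 * x))
      (F' := fun (x s : ℝ) => s ^ (k + 2) * ex g (s ^ 2 * x)) (s := univ)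
      (bound := fun _ => ‖g‖) univ_mem
      (Eventually.of_forall fun x => (ops_cont k hFc x).aestronglyMeasurable)
      ((ops_cont k hFc v).intervalIntegrable _ _)
      (ops_cont (k + 2) (continuous_ex g) v).aestronglyMeasurable
      (Eventually.of_forall fun s hs x _ => ?_) intervalIntegrable_const
      (Eventually.of_forall fun s _ x _ => ?_)).2
    · rw [uIoc_of_le zero_le_one] at hs
      rw [Real.norm_eq_abs, abs_mul, abs_of_nonneg (pow_nonneg hs.1.le _)]
      exact le_trans (mul_le_of_le_one_left (abs_nonneg _) (pow_le_one₀ hs.1.le hs.2))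
        (ex_le g _)
    · have h1 : HasDerivAt (fun x : ℝ => s ^ 2 * x) (s ^ 2) x := by
        simpa using (hasDerivAt_id x).const_mul (s ^ 2)
      have h2 := ((hF (s ^ 2 * x)).comp x h1).const_mul (s ^ k)
      refine h2.congr_deriv ?_
      ring

theorem IsD.RR {f g : B} (h : IsD f g) : IsD (RR f) (-RR g) := by
  obtain ⟨F, hF, hf⟩ := ops_ext h
  refine ops_isD_of (F := fun v => F (1 - v)) (fun v => ?_) (fun v => ?_)
  · rw [RR_apply, ← ex_coe, hf _ (σ v).2, unitInterval.coe_symm_eq]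
  · have h1 : HasDerivAt (fun x : ℝ => 1 - x) (-1) (v : ℝ) := by
      simpa using (hasDerivAt_id (v : ℝ)).const_sub 1
    refine ((hF (1 - v)).comp (v : ℝ) h1).congr_deriv ?_
    rw [ContinuousMap.neg_apply, RR_apply, ← ex_coe g, unitInterval.coe_symm_eq]
    ring

theorem HH_vv (k : ℕ) (f : B) : HH k (vv * f) = vv * HH (k + 2) f := by
  ext v
  rw [ContinuousMap.mul_apply, HH_apply, HH_apply, vv_apply, ← intervalIntegral.integral_const_mul]
  refine intervalIntegral.integral_congr fun s hs => ?_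
  show s ^ k * ex (vv * f) (s ^ 2 * v) = v * (s ^ (k + 2) * ex f (s ^ 2 * v))
  rw [ex_of_mem _ (ops_mem hs v), ex_of_mem _ (ops_mem hs v), ContinuousMap.mul_apply, vv_apply]
  ring

theorem HH_D (k : ℕ) {f g : B} (h : IsD f g) : HH k (cst (k + 1) * f + cst 2 * vv * g) = f := by
  obtain ⟨F, hF, hf⟩ := ops_ext h
  have hFc : Continuous F := continuous_iff_continuousAt.2 fun x => (hF x).continuousAt
  ext v
  have hd : ∀ s : ℝ, HasDerivAt (fun s : ℝ => s ^ (k + 1) * F (s ^ 2 * v))
      (((k : ℝ) + 1) * (s ^ k * F (s ^ 2 * v)) + 2 * v * (s ^ (k + 2) * ex g (s ^ 2 * v))) s := by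
    intro s
    have h1 : HasDerivAt (fun s : ℝ => s ^ 2 * (v : ℝ)) (2 * s * v) s := by
      simpa using (hasDerivAt_pow 2 s).mul_const (v : ℝ)
    have h2 := (hasDerivAt_pow (k + 1) s).mul ((hF (s ^ 2 * v)).comp s h1)
    refine h2.congr_deriv ?_
    simp only [Function.comp_apply, Nat.add_sub_cancel, Nat.cast_add, Nat.cast_one]
    ring
  have hi := intervalIntegral.integral_eq_sub_of_hasDerivAt (a := (0 : ℝ)) (b := 1)
    (fun s _ => hd s) (((continuous_const.mul (ops_cont k hFc v)).add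
      (continuous_const.mul (ops_cont (k + 2) (continuous_ex g) v))).intervalIntegrable _ _)
  have he : (1 : ℝ) ^ (k + 1) * F (1 ^ 2 * v) - 0 ^ (k + 1) * F (0 ^ 2 * v) = f v := by
    rw [← ex_coe f, hf _ v.2]
    simp
  rw [HH_apply, ← he, ← hi]
  refine intervalIntegral.integral_congr fun s hs => ?_
  show s ^ k * ex (cst (k + 1) * f + cst 2 * vv * g) (s ^ 2 * v) =
    ((k : ℝ) + 1) * (s ^ k * F (s ^ 2 * v)) + 2 * v * (s ^ (k + 2) * ex g (s ^ 2 * v))
  rw [← hf _ (ops_mem hs v), ex_of_mem _ (ops_mem hs v), ex_of_mem _ (ops_mem hs v),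
    ex_of_mem _ (ops_mem hs v)]
  simp only [ContinuousMap.add_apply, ContinuousMap.mul_apply, cst_apply, vv_apply]
  ring

private theorem ops_cst_mul (c : ℝ) (f : B) : cst c * f = c • f := by
  ext v
  simp

theorem HH_D' (k : ℕ) {f g : B} (h : IsD f g) :
    cst (k + 1) * HH k f + cst 2 * vv * HH (k + 2) g = f := by
  have h1 := HH_D k h
  rw [mul_assoc, ops_cst_mul, ops_cst_mul, map_add, map_smul, map_smul, HH_vv] at h1
  rw [mul_assoc, ops_cst_mul, ops_cst_mul]
  exact h1

theorem prim_eq (f : B) : prim f = cst 2 * vv * HH 1 f := by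
  ext v
  have hd : ∀ s : ℝ, HasDerivAt (fun s : ℝ => ∫ x in (0 : ℝ)..(s ^ 2 * v), ex f x)
      (2 * v * (s ^ 1 * ex f (s ^ 2 * v))) s := by
    intro s
    have h1 : HasDerivAt (fun s : ℝ => s ^ 2 * (v : ℝ)) (2 * s * v) s := by
      simpa using (hasDerivAt_pow 2 s).mul_const (v : ℝ)
    refine ((ops_prim_deriv f (s ^ 2 * v)).comp s h1).congr_deriv ?_
    ring
  have hi := intervalIntegral.integral_eq_sub_of_hasDerivAt (a := (0 : ℝ)) (b := 1)
    (fun s _ => hd s)
    ((continuous_const.mul (ops_cont 1 (continuous_ex f) v)).intervalIntegrable _ _)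
  rw [intervalIntegral.integral_const_mul] at hi
  rw [ContinuousMap.mul_apply, ContinuousMap.mul_apply, HH_apply, prim_apply, cst_apply, vv_apply,
    hi]
  simp

theorem isD_vH2 (f : B) : IsD (vv * HH 2 f) (cst (1 / 2) * (f - HH 2 f)) := by
  refine dense_pl.induction_on f ?_ fun p => ?_
  · have hc : Continuous fun f : B => (vv * HH 2 f, cst (1 / 2) * (f - HH 2 f)) :=
      (continuous_const.mul (HH 2).continuous).prodMk
        (continuous_const.mul (continuous_id.sub (HH 2).continuous))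
    exact isClosed_isD.preimage hc
  · have h := isD_pl p
    refine (isD_vv.mul (h.HH 2)).congr ?_
    ext v
    have h1 := DFunLike.congr_fun (HH_D' 2 h) v
    simp only [ContinuousMap.add_apply, ContinuousMap.mul_apply, ContinuousMap.sub_apply,
      ContinuousMap.one_apply, cst_apply, vv_apply] at h1 ⊢
    push_cast at h1
    linarith

variable {ι : Type} {G : (ι → B) → B}

theorem Good.HH (k : ℕ) (h : Good G) : Good fun U => HH k (G U) := by
  exact Good.lin (fun j => P244B.HH (k + 2 * j)) (fun j _ _ hd => hd.HH (k + 2 * j)) h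

theorem Good.RR (h : Good G) : Good fun U => RR (G U) := by
  have h1 := Good.lin (fun j => (-1 : ℝ) ^ j • P244B.RR) (fun j f g hd => ?_) h
  · simpa using h1
  · refine (hd.RR.smul ((-1 : ℝ) ^ j)).congr ?_
    rw [smul_apply, pow_succ, mul_neg_one, neg_smul, smul_neg]

theorem Good.prim (h : Good G) : Good fun U => prim (G U) := by
  have h1 := ((Good.const 2).mul Good.vid).mul (h.HH 1)
  simpa only [prim_eq] using h1

/-- a positive smooth function (for `ε > 0`) which is the identity on `[ε, ∞)` -/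
def rho (ε x : ℝ) : ℝ :=
  Real.smoothTransition (2 * x / ε - 1) * x + (1 - Real.smoothTransition (2 * x / ε - 1)) * ε

theorem rho_smooth (ε : ℝ) : ContDiff ℝ ∞ (rho ε) := by
  have h1 : ContDiff ℝ ∞ fun x : ℝ => Real.smoothTransition (2 * x / ε - 1) :=
    Real.smoothTransition.contDiff.comp
      (((contDiff_const.mul contDiff_id).div_const ε).sub contDiff_const)
  exact (h1.mul contDiff_id).add ((contDiff_const.sub h1).mul contDiff_const)

theorem rho_pos {ε : ℝ} (hε : 0 < ε) (x : ℝ) : 0 < rho ε x := by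
  unfold rho
  have h0 := Real.smoothTransition.nonneg (2 * x / ε - 1)
  have h1 := Real.smoothTransition.le_one (2 * x / ε - 1)
  rcases le_or_gt x 0 with hx | hx
  · have h2 : 2 * x / ε - 1 ≤ 0 := by
      have : 2 * x / ε ≤ 0 := div_nonpos_of_nonpos_of_nonneg (by linarith) hε.le
      linarith
    rw [Real.smoothTransition.zero_of_nonpos h2]
    simpa using hε
  · rcases h0.eq_or_lt with h2 | h2
    · rw [← h2]
      simpa using hε
    · exact add_pos_of_pos_of_nonneg (mul_pos h2 hx) (mul_nonneg (by linarith) hε.le)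

theorem rho_eq {ε x : ℝ} (hε : 0 < ε) (hx : ε ≤ x) : rho ε x = x := by
  unfold rho
  have h2 : 1 ≤ 2 * x / ε - 1 := by
    rw [le_sub_iff_add_le, le_div_iff₀ hε]
    linarith
  rw [Real.smoothTransition.one_of_one_le h2]
  ring

open Classical in
/-- truncated inverse -/
def iot (ε : ℝ) : C(ℝ, ℝ) :=
  if h : 0 < ε then ⟨fun x => (rho ε x)⁻¹,
    (rho_smooth ε).continuous.inv₀ fun x => (rho_pos h x).ne'⟩ else 0

theorem iot_smooth (ε : ℝ) : ContDiff ℝ ∞ (iot ε) := by
  unfold iot
  split_ifs with h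
  · exact (rho_smooth ε).inv fun x => (rho_pos h x).ne'
  · exact contDiff_const

theorem iot_eq {ε x : ℝ} (hε : 0 < ε) (hx : ε ≤ x) : iot ε x = x⁻¹ := by
  unfold iot
  rw [dif_pos hε]
  show (rho ε x)⁻¹ = x⁻¹
  rw [rho_eq hε hx]

/-- the exponential -/
def expC : C(ℝ, ℝ) := ⟨Real.exp, Real.continuous_exp⟩

@[simp] theorem expC_apply (x : ℝ) : expC x = Real.exp x := rfl

theorem expC_smooth : ContDiff ℝ ∞ expC := Real.contDiff_exp

private theorem ops_phi : ContDiff ℝ ∞ fun x : ℝ => (√(rho (1 / 4) (1 - x)))⁻¹ := by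
  have h1 : ContDiff ℝ ∞ fun x : ℝ => rho (1 / 4) (1 - x) :=
    (rho_smooth (1 / 4)).comp (contDiff_const.sub contDiff_id)
  have h2 : ∀ x : ℝ, 0 < rho (1 / 4) (1 - x) := fun x => rho_pos (by norm_num) _
  exact (h1.sqrt fun x => (h2 x).ne').inv fun x => (Real.sqrt_pos.2 (h2 x)).ne'

private theorem ops_chi : ContDiff ℝ ∞ fun x : ℝ => Real.smoothTransition (3 / 2 - 2 * x) :=
  Real.smoothTransition.contDiff.comp (contDiff_const.sub (contDiff_const.mul contDiff_id))

/-- equal to the inverse square root of `1 - x` for `x ≤ 3/4` -/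
def phiC : C(ℝ, ℝ) := ⟨fun x => (√(rho (1 / 4) (1 - x)))⁻¹, by exact ops_phi.continuous⟩

theorem phiC_smooth : ContDiff ℝ ∞ phiC := by
  exact ops_phi

/-- equal to `1` for `x ≤ 1/4` and to `0` for `x ≥ 3/4` -/
def chiC : C(ℝ, ℝ) := ⟨fun x => Real.smoothTransition (3 / 2 - 2 * x), by exact ops_chi.continuous⟩

theorem chiC_smooth : ContDiff ℝ ∞ chiC := by
  exact ops_chi

/-- solution of `2 v (1 - v) j' + (1 - 2 v) j = g` on `[0, 3/4]` -/
def Jl (g : B) : B := phiC.comp vv * HH 0 (phiC.comp vv * g)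

/-- the midpoint -/
def mid : I := ⟨1 / 2, by norm_num, by norm_num⟩

/-- the defect at the midpoint -/
def Lam : B →L[ℝ] ℝ :=
  ContinuousMap.evalCLM ℝ mid ∘L HH 0 ∘L ContinuousLinearMap.mul ℝ B (phiC.comp vv) ∘L
    (ContinuousLinearMap.id ℝ B + RR)

/-- the mean value -/
def avg : B →L[ℝ] ℝ := (Lam 1)⁻¹ • Lam

/-- solution of `2 v (1 - v) j' + (1 - 2 v) j = g - avg g` on `[0, 1]` -/
def Jop (g : B) : B :=
  chiC.comp vv * Jl (g - cst (avg g)) - (1 - chiC.comp vv) * RR (Jl (RR (g - cst (avg g))))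

private theorem ops_Jl (h : Good G) : Good fun U => Jl (G U) :=
  (Good.app phiC phiC_smooth Good.vid).mul
    (Good.HH 0 ((Good.app phiC phiC_smooth Good.vid).mul h))

theorem Good.Jop (h : Good G) : Good fun U => Jop (G U) := by
  have h1 : Good fun U => G U - cst (avg (G U)) := h.sub (h.cstL avg)
  have h2 : Good fun _ : ι → B => chiC.comp vv := Good.app chiC chiC_smooth Good.vid
  exact (h2.mul (ops_Jl h1)).sub ((Good.one.sub h2).mul (ops_Jl h1.RR).RR)

end Vale.Agent.P244B
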