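import Vale.Agent.P244B.Base
import Vale.Agent.P264.Had

/-! Even functions of an angle are smooth functions of `sin²`; inverse functions with
parameters. -/

open Set Filter
open scoped ContDiff Topology unitInterval

noncomputable section

namespace Vale.Agent.P244B

variable {E : Type} [NormedAddCommGroup E] [NormedSpace ℝ E]

theorem whit_snd {F : E × ℝ → ℝ} (hF : ContDiff ℝ ∞ F) (d : E) (x : ℝ) :
    HasDerivAt (fun x => F (d, x)) (fderiv ℝ F (d, x) (0, 1)) x :=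
  (hF.differentiable (by simp) (d, x)).hasFDerivAt.comp_hasDerivAt x
    ((hasDerivAt_const x d).prodMk (hasDerivAt_id x))

theorem whit_dir {F : E × ℝ → ℝ} (hF : ContDiff ℝ ∞ F) (v : E × ℝ) :
    ContDiff ℝ ∞ fun p => fderiv ℝ F p v :=
  (hF.fderiv_right (m := ∞) le_rfl).clm_apply contDiff_const

theorem whit_val {F H : E × ℝ → ℝ} (hH : ContDiff ℝ ∞ H) {a : ℝ}
    (h : ∀ d x, F (d, x) = (x - a) * H (d, x)) (d : E) :
    HasDerivAt (fun x => F (d, x)) (H (d, a)) a := by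
  have h1 := ((hasDerivAt_id a).sub_const a).mul (whit_snd hH d a)
  simp only [h]
  refine h1.congr_deriv ?_
  simp

theorem hadamardE {F : E × ℝ → ℝ} (hF : ContDiff ℝ ∞ F) (a : ℝ) (h0 : ∀ d, F (d, a) = 0) :
    ∃ H : E × ℝ → ℝ, ContDiff ℝ ∞ H ∧ ∀ d x, F (d, x) = (x - a) * H (d, x) := by
  refine ⟨fun p => ∫ r in (0 : ℝ)..1, fderiv ℝ F (p.1, a + r * (p.2 - a)) (0, 1),
    contDiff_iff_contDiffAt.2 fun p => P264.had_integral
      (f := fun q : (E × ℝ) × ℝ => fderiv ℝ F (q.1.1, a + q.2 * (q.1.2 - a)) (0, 1)) zero_le_one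
      fun t _ => ((whit_dir hF (0, 1)).comp (by fun_prop)).contDiffAt, fun s θ => ?_⟩
  have h1 : ∀ r : ℝ, HasDerivAt (fun r => F (s, a + r * (θ - a)))
      ((θ - a) * fderiv ℝ F (s, a + r * (θ - a)) (0, 1)) r := fun r => by
    have h2 := (whit_snd hF s (a + r * (θ - a))).comp r
      (((hasDerivAt_id r).mul_const (θ - a)).const_add a)
    refine h2.congr_deriv ?_
    ring
  have h3 : Continuous fun r : ℝ => (θ - a) * fderiv ℝ F (s, a + r * (θ - a)) (0, 1) :=
    continuous_const.mul ((whit_dir hF (0, 1)).continuous.comp (by fun_prop))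
  have h4 := intervalIntegral.integral_eq_sub_of_hasDerivAt (a := 0) (b := 1) (fun r _ => h1 r)
    (h3.intervalIntegrable _ _)
  rw [intervalIntegral.integral_const_mul] at h4
  simp only [one_mul, zero_mul, add_zero, add_sub_cancel, h0, sub_zero] at h4
  exact h4.symm

/-- division by a function with simple zeros -/
theorem whit_div {g g' : ℝ → ℝ} (hg : ContDiff ℝ ∞ g) (hd : ∀ x, HasDerivAt g (g' x) x)
    (hz : ∀ x, g x = 0 → g' x ≠ 0) {F : E × ℝ → ℝ} (hF : ContDiff ℝ ∞ F)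
    (h0 : ∀ d x, g x = 0 → F (d, x) = 0) :
    ∃ H : E × ℝ → ℝ, ContDiff ℝ ∞ H ∧ ∀ d x, F (d, x) = g x * H (d, x) := by
  classical
  refine ⟨fun p => if g p.2 = 0 then fderiv ℝ F p (0, 1) / g' p.2 else F p / g p.2,
    contDiff_iff_contDiffAt.2 fun p => ?_, fun s θ => ?_⟩
  · obtain ⟨s, a⟩ := p
    have hs : ContDiff ℝ ∞ fun p : E × ℝ => g p.2 := hg.comp contDiff_snd
    by_cases ha : g a = 0
    · obtain ⟨H, hH, h1⟩ := hadamardE hF a fun r => h0 r a ha
      obtain ⟨K, hK, h2⟩ := hadamardE hs a fun _ => ha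
      have hKa : ∀ r, K (r, a) = g' a := fun r =>
        (whit_val (F := fun p : E × ℝ => g p.2) hK h2 r).unique (hd a)
      have hK0 : K (s, a) ≠ 0 := by
        rw [hKa]
        exact hz a ha
      refine (hH.contDiffAt.div hK.contDiffAt hK0).congr_of_eventuallyEq ?_
      filter_upwards [hK.continuous.continuousAt.eventually_ne hK0] with q hq
      obtain ⟨r, x⟩ := q
      by_cases hx : x = a
      · rw [hx]
        simp only [ha, if_true, Pi.div_apply]
        rw [hKa, (whit_snd hF r a).unique (whit_val hH h1 r)]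
      · have h5 : g x = (x - a) * K (r, x) := h2 r x
        have h6 : x - a ≠ 0 := sub_ne_zero.2 hx
        have h7 : g x ≠ 0 := h5 ▸ mul_ne_zero h6 hq
        simp only [h7, if_false, Pi.div_apply]
        rw [h1, h5, mul_div_mul_left _ _ h6]
    · have h9 : ContDiffAt ℝ ∞ (fun q : E × ℝ => F q / g q.2) (s, a) :=
        ContDiffAt.div (g := fun q : E × ℝ => g q.2) hF.contDiffAt hs.contDiffAt ha
      refine h9.congr_of_eventuallyEq ?_
      have h8 : ∀ᶠ q : E × ℝ in 𝓝 (s, a), g q.2 ≠ 0 :=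
        ContinuousAt.eventually_ne (g := fun q : E × ℝ => g q.2) hs.continuous.continuousAt ha
      filter_upwards [h8] with q hq
      simp only [hq, if_false]
  · by_cases ha : g θ = 0
    · rw [h0 s θ ha, ha, zero_mul]
    · simp only [ha, if_false]
      field_simp

theorem whit_sc {x : ℝ} (h : Real.sin x = 0) (h' : Real.cos x = 0) : False := by
  have h3 := Real.sin_sq_add_cos_sq x
  rw [h, h'] at h3
  norm_num at h3

theorem div_sinE {F : E × ℝ → ℝ} (hF : ContDiff ℝ ∞ F)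
    (h0 : ∀ d x, Real.sin x = 0 → F (d, x) = 0) :
    ∃ H : E × ℝ → ℝ, ContDiff ℝ ∞ H ∧ ∀ d x, F (d, x) = Real.sin x * H (d, x) := by
  exact whit_div Real.contDiff_sin Real.hasDerivAt_sin (fun x h h' => whit_sc h h') hF h0

theorem div_cosE {F : E × ℝ → ℝ} (hF : ContDiff ℝ ∞ F)
    (h0 : ∀ d x, Real.cos x = 0 → F (d, x) = 0) :
    ∃ H : E × ℝ → ℝ, ContDiff ℝ ∞ H ∧ ∀ d x, F (d, x) = Real.cos x * H (d, x) := by
  exact whit_div Real.contDiff_cos Real.hasDerivAt_cos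
    (fun x h h' => whit_sc (neg_eq_zero.1 h') h) hF h0

/-- smooth, even, and even at `π / 2` -/
structure EvE (u : E × ℝ → ℝ) : Prop where
  sm : ContDiff ℝ ∞ u
  ev : ∀ d x, u (d, -x) = u (d, x)
  rf : ∀ d x, u (d, Real.pi - x) = u (d, x)

theorem whit_per {h : ℝ → ℝ} (h1 : ∀ x, h (-x) = h x) (h2 : ∀ x, h (Real.pi - x) = h x) :
    Function.Periodic h Real.pi := fun x => by
  have h3 := h2 (-x)
  rwa [h1, sub_neg_eq_add, add_comm] at h3

theorem whit_mem (θ : ℝ) : ∃ θ' ∈ Icc 0 (Real.pi / 2), ∀ h : ℝ → ℝ, (∀ x, h (-x) = h x) →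
    (∀ x, h (Real.pi - x) = h x) → h θ = h θ' := by
  have h := toIcoMod_mem_Ico Real.pi_pos (-(Real.pi / 2)) θ
  refine ⟨|toIcoMod Real.pi_pos (-(Real.pi / 2)) θ|,
    ⟨abs_nonneg _, abs_le.2 ⟨h.1, by linarith [h.2]⟩⟩, fun f f1 f2 => ?_⟩
  have h1 : f (toIcoMod Real.pi_pos (-(Real.pi / 2)) θ) = f θ := by
    rw [← self_sub_toIcoDiv_zsmul]
    exact (whit_per f1 f2).sub_zsmul_eq _
  rw [← h1]
  rcases abs_choice (toIcoMod Real.pi_pos (-(Real.pi / 2)) θ) with h2 | h2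
  · rw [h2]
  · rw [h2, f1]

theorem whit_step {u : E × ℝ → ℝ} (hu : EvE u) : ∃ u' : E × ℝ → ℝ, EvE u' ∧
    ∀ d x, HasDerivAt (fun x => u (d, x)) (Real.sin (2 * x) * u' (d, x)) x := by
  have hd := whit_snd hu.sm
  have hr : ∀ c : ℝ, (∀ s x, u (s, c - x) = u (s, x)) → ∀ s θ,
      fderiv ℝ u (s, c - θ) (0, 1) = -fderiv ℝ u (s, θ) (0, 1) := fun c hc s θ => by
    have h1 := (hd s (c - θ)).comp θ ((hasDerivAt_id θ).const_sub c)
    have h2 : ((fun x => u (s, x)) ∘ HSub.hSub c) = fun x => u (s, x) := funext fun x => hc s x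
    rw [h2] at h1
    rw [← h1.unique (hd s θ)]
    ring
  obtain ⟨H, hH, h1⟩ := whit_div (g := fun x => Real.sin (2 * x)) (by fun_prop)
    (fun x => ((hasDerivAt_id x).const_mul 2).sin)
    (fun x h h' => whit_sc h (by simpa using h')) (whit_dir hu.sm (0, 1)) fun s θ hθ => by
      obtain ⟨n, hn⟩ := Real.sin_eq_zero_iff.1 hθ
      have h2 := hr (2 * θ) (fun r x => by
        rw [← hn, ← hu.ev r x]
        have h3 := (whit_per (h := fun x => u (r, x)) (hu.ev r) (hu.rf r)).int_mul n (-x)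
        rw [add_comm, ← sub_eq_add_neg] at h3
        exact h3) s θ
      rw [show 2 * θ - θ = θ by ring] at h2
      linarith
  have hs : ∀ c : ℝ, (∀ s x, u (s, c - x) = u (s, x)) →
      (∀ x, Real.sin (2 * (c - x)) = -Real.sin (2 * x)) → ∀ s θ, H (s, c - θ) = H (s, θ) :=
    fun c hc hc' s θ => by
      refine sub_eq_zero.1 (P264.had_cancel (u := fun x => H (s, c - x) - H (s, x))
        ((hH.continuous.comp (by fun_prop)).sub (hH.continuous.comp (by fun_prop)))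
        (fun x => ?_) θ)
      have h2 := hr c hc s x
      rw [h1, h1, hc'] at h2
      linarith
  refine ⟨H, ⟨hH, fun s θ => ?_, hs Real.pi hu.rf fun x => ?_⟩, fun d x => ?_⟩
  · have h2 := hs 0 (fun r x => by rw [zero_sub, hu.ev]) (fun x => by simp) s θ
    rwa [zero_sub] at h2
  · rw [mul_sub, Real.sin_two_pi_sub]
  · rw [← h1]
    exact hd d x

/-- the function of `sin² x` -/
def whitF {u : E × ℝ → ℝ} (hu : EvE u) (d : E) : B :=
  ⟨fun v => u (d, Real.arcsin √v), hu.sm.continuous.comp (by fun_prop)⟩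

theorem whit_cont {u : E × ℝ → ℝ} (hu : EvE u) : Continuous (whitF hu) :=
  ContinuousMap.continuous_of_continuous_uncurry _
    (hu.sm.continuous.comp (f := fun p : E × I => (p.1, Real.arcsin √p.2)) (by fun_prop))

theorem whit_isD {u u' : E × ℝ → ℝ} (hu : EvE u) (hu' : EvE u')
    (h : ∀ d x, HasDerivAt (fun x => u (d, x)) (Real.sin (2 * x) * u' (d, x)) x) (d : E) :
    IsD (whitF hu d) (whitF hu' d) := by
  refine isD_of_Ioo fun x hx => ?_
  have h0 : 0 < √x := Real.sqrt_pos.2 hx.1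
  have h1 : √x < 1 := (Real.sqrt_lt' one_pos).2 (by simpa using hx.2)
  have h2 : 0 < √(1 - √x ^ 2) := Real.sqrt_pos.2 (by nlinarith)
  have h3 := (h d (Real.arcsin √x)).comp x
    ((Real.hasDerivAt_arcsin (by linarith) h1.ne).comp x (Real.hasDerivAt_sqrt hx.1.ne'))
  rw [ex_of_mem _ (Ioo_subset_Icc_self hx)]
  refine (h3.congr_deriv ?_).congr_of_eventuallyEq ?_
  · rw [Real.sin_two_mul, Real.sin_arcsin (by linarith) h1.le, Real.cos_arcsin]
    change _ = u' (d, Real.arcsin √x)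
    field_simp
  · filter_upwards [Icc_mem_nhds hx.1 hx.2] with y hy
    rw [ex_of_mem _ hy]
    rfl

theorem whitney {u : E × ℝ → ℝ} (hu : EvE u) : ∃ f : E → B, Continuous f ∧
    Continuous (fun d => Dv (f d)) ∧ (∀ d, Sm (f d)) ∧ ∀ d x, f d (sq x) = u (d, x) := by
  obtain ⟨u', hu', h⟩ := whit_step hu
  refine ⟨whitF hu, whit_cont hu, ?_, fun d => ?_, fun d x => ?_⟩
  · simp only [(whit_isD hu hu' h _).dv]
    exact whit_cont hu'
  · refine sm_of_class (fun f => ∃ (w : E × ℝ → ℝ) (hw : EvE w), f = whitF hw d) ?_ ⟨u, hu, rfl⟩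
    rintro f ⟨w, hw, rfl⟩
    obtain ⟨w', hw', h'⟩ := whit_step hw
    exact ⟨_, whit_isD hw hw' h' d, w', hw', rfl⟩
  · obtain ⟨y, hy, h1⟩ := whit_mem x
    have h2 := h1 (fun x => Real.sin x ^ 2) (fun x => by simp) (fun x => by simp)
    change u (d, Real.arcsin √(Real.sin x ^ 2)) = _
    rw [h1 (fun x => u (d, x)) (hu.ev d) (hu.rf d), h2, Real.sqrt_sq (Real.sin_nonneg_of_nonneg_of_le_pi hy.1
      (by linarith [hy.2, Real.pi_pos])), Real.arcsin_sin (by linarith [hy.1, Real.pi_pos]) hy.2]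

theorem param_inverse [CompleteSpace E] {s : E × ℝ → ℝ} (hs : ContDiff ℝ ∞ s)
    (hpos : ∀ d x, 0 < deriv (fun x => s (d, x)) x)
    (hsurj : ∀ d, Function.Surjective fun x => s (d, x)) :
    ∃ ρ : E × ℝ → ℝ, ContDiff ℝ ∞ ρ ∧ (∀ d x, s (d, ρ (d, x)) = x) ∧
      ∀ d x, ρ (d, s (d, x)) = x := by
  choose r hr using hsurj
  have hl : ∀ d x, r d (s (d, x)) = x := fun d x =>
    (strictMono_of_deriv_pos (hpos d)).injective (hr d _)
  refine ⟨fun p => r p.1 p.2, contDiff_iff_contDiffAt.2 fun ⟨d, y⟩ => ?_, hr, hl⟩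
  obtain ⟨x, rfl⟩ : ∃ x, s (d, x) = y := ⟨_, hr d y⟩
  have hc : fderiv ℝ s (d, x) (0, 1) ≠ 0 := by
    rw [← (whit_snd hs d x).deriv]
    exact (hpos d x).ne'
  have hΦ : ContDiffAt ℝ ∞ (fun p : E × ℝ => (p.1, s p)) (d, x) :=
    (contDiff_fst.prodMk hs).contDiffAt
  let L : (E × ℝ) ≃L[ℝ] (E × ℝ) := (ContinuousLinearEquiv.refl ℝ E).skewProd
    (ContinuousLinearEquiv.unitsEquivAut ℝ (Units.mk0 _ hc))
    (fderiv ℝ s (d, x) ∘L ContinuousLinearMap.inl ℝ E ℝ)
  have hL : HasFDerivAt (fun p : E × ℝ => (p.1, s p)) (L : (E × ℝ) →L[ℝ] (E × ℝ)) (d, x) := by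
    refine (hasFDerivAt_fst.prodMk
      (hs.differentiable (by simp) (d, x)).hasFDerivAt).congr_fderiv ?_
    refine ContinuousLinearMap.ext fun v => Prod.ext rfl ?_
    have e : v = v.2 • ((0, 1) : E × ℝ) + (v.1, 0) := by
      ext <;> simp
    change fderiv ℝ s (d, x) v = v.2 * fderiv ℝ s (d, x) (0, 1) + fderiv ℝ s (d, x) (v.1, 0)
    conv_lhs => rw [e]
    rw [map_add, map_smul, smul_eq_mul]
  have h1 := hΦ.to_localInverse hL (by simp)
  have h2 := (hΦ.hasStrictFDerivAt' hL (by simp)).localInverse_unique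
    (g := fun p : E × ℝ => (p.1, r p.1 p.2)) (Eventually.of_forall fun p => Prod.ext rfl (hl _ _))
  exact (h1.congr_of_eventuallyEq h2).snd

end Vale.Agent.P244B
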